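import Crest.Agent.R166.LM.Basic

/-!
# Row 166, block LM: the multiscale induction
-/

set_option autoImplicit false

open MeasureTheory ProbabilityTheory Filter Topology Complex
open scoped ENNReal NNReal BigOperators Matrix

noncomputable section

namespace Crest.Agent.R166

/-- Fix `V`, `E`; `f η = P(¬Pre (E + iη))`. Induction on `k`: `f η ≤ C'/tt n η` for all
`η ∈ [M₀ (1+γ)^{-k}, 2M₀]` with `L₀ ≤ n η`: for `η ≥ M₀` use `hbase` and `lm_inv_n`; otherwise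
`¬Pre η ⊆ ¬Post ((1+γ)η) ⊆ ¬Pre ((1+γ)η) ∪ (Pre ∧ ¬Post)`, `tt n ((1+γ)η) = a tt n η` with
`a = (1+γ)^{1/200} > 1` and `(C' + C₂)/a ≤ C'`. `L₀` from `lm_tt_large (max t₀ 1)`. -/
theorem lm_chain {q : ℕ} (π : Measure II) [IsProbabilityMeasure π] {s κ M₀ T₁ θ₀ x₀ x₁ γ t₀ C₁ C₂ : ℝ}
    {n₀ : ℕ} (hM₀ : 0 < M₀) (hγ : 0 < γ) (hγ1 : γ ≤ 1) (hC₁ : 0 ≤ C₁) (hC₂ : 0 ≤ C₂)
    (hbase : ∀ (z : ℂ) (V : Type) [Fintype V] [DecidableEq V], M₀ ≤ z.im → z.im ≤ 2 * M₀ →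
      Bulk q κ z.re → cfgLaw V q π {c | ¬ Pre s z T₁ θ₀ x₁ c} ≤ ENNReal.ofReal (C₁ / Fintype.card V))
    (hstep : ∀ (z : ℂ) (V : Type) [Fintype V] [DecidableEq V] (t : ℝ), 0 < z.im → z.im ≤ 2 * M₀ →
      Bulk q κ z.re → n₀ ≤ Fintype.card V → t₀ ≤ t → 4 * t ^ 200 ≤ Fintype.card V * z.im →
      cfgLaw V q π {c | Pre s z T₁ θ₀ x₁ c ∧ ¬ Post s z x₀ c} ≤ ENNReal.ofReal (C₂ / t))
    (hpp : ∀ (z z' : ℂ) (V : Type) [Fintype V] [DecidableEq V] (c : Cfg V q), Bulk q κ z.re →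
      z'.re = z.re → 0 < z'.im → z'.im ≤ z.im → z.im ≤ 2 * M₀ → z.im ≤ (1 + γ) * z'.im →
      Post s z x₀ c → Pre s z' T₁ θ₀ x₁ c) :
    Chain q π s κ (2 * M₀) T₁ θ₀ x₀ := by
  obtain ⟨L₀, hL₀, hL⟩ := lm_tt_large (max t₀ 1)
  set a : ℝ := (1 + γ) ^ (1 / 200 : ℝ) with ha
  have ha1 : 1 < a := Real.one_lt_rpow (by linarith) (by norm_num)
  set C' : ℝ := max (C₁ * (2 * M₀)) (C₂ / (a - 1)) with hC'
  have hC'0 : 0 ≤ C' := le_max_of_le_left (by positivity)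
  have hCa : (C' + C₂) / a ≤ C' := by
    have h1 : C₂ / (a - 1) ≤ C' := le_max_right _ _
    rw [div_le_iff₀ (by linarith)] at h1 ⊢
    linarith
  -- union bound
  have hun : ∀ (z : ℂ) (V : Type) [Fintype V] [DecidableEq V], n₀ ≤ Fintype.card V →
      Bulk q κ z.re → 0 < z.im → L₀ ≤ Fintype.card V * z.im → z.im ≤ 2 * M₀ →
      cfgLaw V q π {c | ¬ Pre s z T₁ θ₀ x₁ c} ≤ ENNReal.ofReal (C' / tt (Fintype.card V) z.im) →
      cfgLaw V q π {c | ¬ (Pre s z T₁ θ₀ x₁ c ∧ Post s z x₀ c)} ≤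
        ENNReal.ofReal ((C' + C₂) / tt (Fintype.card V) z.im) := by
    intro z V _ _ hn hB hz hLz hM h1
    have ht := hL _ _ hLz
    have ht0 : 0 < tt (Fintype.card V) z.im := lt_of_lt_of_le one_pos ((le_max_right _ _).trans ht)
    have h2 := hstep z V _ hz hM hB hn ((le_max_left _ _).trans ht) (lm_tt_pow hz.le).le
    have h3 : {c : Cfg V q | ¬ (Pre s z T₁ θ₀ x₁ c ∧ Post s z x₀ c)} ⊆
        {c | ¬ Pre s z T₁ θ₀ x₁ c} ∪ {c | Pre s z T₁ θ₀ x₁ c ∧ ¬ Post s z x₀ c} := by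
      intro c hc
      by_cases hp : Pre s z T₁ θ₀ x₁ c
      · exact Or.inr ⟨hp, fun h => hc ⟨hp, h⟩⟩
      · exact Or.inl hp
    refine (measure_mono h3).trans ((measure_union_le _ _).trans ?_)
    rw [add_div, ENNReal.ofReal_add (by positivity) (by positivity)]
    exact add_le_add h1 h2
  have key : ∀ (V : Type) [Fintype V] [DecidableEq V], n₀ ≤ Fintype.card V → ∀ (k : ℕ) (z : ℂ),
      Bulk q κ z.re → 0 < z.im → L₀ ≤ Fintype.card V * z.im → z.im ≤ 2 * M₀ →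
      M₀ ≤ (1 + γ) ^ k * z.im →
      cfgLaw V q π {c | ¬ Pre s z T₁ θ₀ x₁ c} ≤ ENNReal.ofReal (C' / tt (Fintype.card V) z.im) := by
    intro V _ _ hn
    have hb : ∀ z : ℂ, Bulk q κ z.re → 0 < z.im → L₀ ≤ Fintype.card V * z.im → z.im ≤ 2 * M₀ →
        M₀ ≤ z.im → cfgLaw V q π {c | ¬ Pre s z T₁ θ₀ x₁ c} ≤
          ENNReal.ofReal (C' / tt (Fintype.card V) z.im) := by
      intro z hB hz hLz hM hm
      refine (hbase z V hm hM hB).trans (ENNReal.ofReal_le_ofReal ?_)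
      have ht := (le_max_right _ _).trans (hL _ _ hLz)
      have h1 := lm_inv_n hz hM ht (lm_tt_pow hz.le).le
      calc C₁ / Fintype.card V = C₁ * (1 / Fintype.card V) := by ring
        _ ≤ C₁ * (2 * M₀ / tt (Fintype.card V) z.im) := by gcongr
        _ = C₁ * (2 * M₀) / tt (Fintype.card V) z.im := by ring
        _ ≤ _ := by gcongr; exact le_max_left _ _
    intro k
    induction k with
    | zero => intro z hB hz hLz hM hm; exact hb z hB hz hLz hM (by simpa using hm)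
    | succ k ih =>
      intro z hB hz hLz hM hm
      by_cases hc : M₀ ≤ z.im
      · exact hb z hB hz hLz hM hc
      push Not at hc
      set z' : ℂ := ⟨z.re, (1 + γ) * z.im⟩ with hz'
      have e1 : z'.re = z.re := rfl
      have e2 : z'.im = (1 + γ) * z.im := rfl
      have hle : z.im ≤ z'.im := by rw [e2]; nlinarith
      have hB' : Bulk q κ z'.re := hB
      have hM' : z'.im ≤ 2 * M₀ := by rw [e2]; nlinarith
      have hL' : L₀ ≤ Fintype.card V * z'.im := hLz.trans (by gcongr)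
      have h1 := ih z' hB' (hz.trans_le hle) hL' hM' (by rw [e2, ← mul_assoc, ← pow_succ]; exact hm)
      have h2 := hun z' V hn hB' (hz.trans_le hle) hL' hM' h1
      refine le_trans (measure_mono ?_) (h2.trans (ENNReal.ofReal_le_ofReal ?_))
      · intro c hc h
        exact hc (hpp z' z V c hB' rfl hz hle hM' e2.le h.2)
      · have ht0 : 0 < tt (Fintype.card V) z.im := lm_tt_pos (hL₀.trans_le hLz)
        rw [e2, lm_tt_mul hz.le (by linarith), ← ha, ← div_div]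
        gcongr
  refine ⟨C' + C₂, L₀, n₀, fun V _ _ z hn hB hz hLz hM => ?_⟩
  obtain ⟨k, hk⟩ := pow_unbounded_of_one_lt (M₀ / z.im) (by linarith : 1 < 1 + γ)
  have h1 := key V hn k z hB hz hLz hM (by rw [div_lt_iff₀ hz] at hk; exact hk.le)
  refine le_trans (measure_mono ?_) (hun z V hn hB hz hLz hM h1)
  intro c hc h
  exact hc ⟨h.1.1, h.2⟩

/-- `C / tt ≤ ε` for `n η ≥ L₀` large -/
theorem lm_osmall_of_chain {q : ℕ} {π : Measure II} {s κ M T₁ θ₀ x₀ : ℝ}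
    (h : Chain q π s κ M T₁ θ₀ x₀) : OSmall q π s κ 0 M T₁ θ₀ := by
  obtain ⟨C, L₀, n₀, h⟩ := h
  intro ε hε
  obtain ⟨L₁, hL₁, hL⟩ := lm_tt_large (max (C / ε) 1)
  refine ⟨max L₀ L₁, ?_⟩
  filter_upwards [eventually_ge_atTop n₀] with n hn
  intro z hB hz hLz _ hM
  have h1 := h (Fin n) z (by simpa using hn) hB hz (by simpa using (le_max_left _ _).trans hLz) hM
  refine le_trans (measure_mono ?_) (h1.trans (ENNReal.ofReal_le_ofReal ?_))
  · intro c hc h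
    exact hc h.1
  have ht := hL n z.im ((le_max_right _ _).trans hLz)
  have ht0 : 0 < tt n z.im := lt_of_lt_of_le one_pos ((le_max_right _ _).trans ht)
  rw [Fintype.card_fin, div_le_iff₀ ht0]
  have h2 := (le_max_left _ _).trans ht
  rw [div_le_iff₀ hε] at h2
  linarith

end Crest.Agent.R166
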