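import Crest.Agent.R166.LM.Emp
import Crest.Agent.R166.LR.Det

/-!
# Row 166, block LM: distance to the tree values
-/

set_option autoImplicit false

open MeasureTheory ProbabilityTheory Filter Topology Complex
open scoped ENNReal NNReal BigOperators Matrix

noncomputable section

namespace Crest.Agent.R166

theorem lmd_adm {q n n₀ : ℕ} {κ M M' t₀ s : ℝ} {z : ℂ} (hκ : 0 < κ) (hs0 : 0 ≤ s) (hs1 : s ≤ 1)
    (hM : 2 * √(q : ℝ) + M ≤ M') (hB : Bulk q κ z.re) (hz : 0 < z.im) (hzM : z.im ≤ M)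
    (hn : n₀ ≤ n) (ht : t₀ ≤ tt n z.im) : Adm M' t₀ n₀ s z n (tt n z.im) := by
  refine ⟨hs0, hs1, hz, ?_, hn, ht, (lm_tt_pow hz.le).le⟩
  refine (Complex.norm_le_abs_re_add_abs_im _).trans ?_
  rw [abs_of_pos hz]
  unfold Bulk at hB
  linarith

theorem lmd_uu_cont {q : ℕ} {z : ℂ} (hm : 0 < (m0 q z).im) {X : Type} [TopologicalSpace X]
    {f : X → ℂ} (hf : Continuous f) (h : ∀ x, 0 < (f x).im) : Continuous fun x => uu q z (f x) := by
  unfold uu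
  refine (hf.sub continuous_const).div (hf.sub continuous_const) fun x hx => ?_
  have h1 := congrArg Complex.im hx
  have h2 : 0 < normSq (m0 q z) := normSq_pos.2 fun h0 => by simp [h0] at hm
  have h3 : 0 < (m0 q z).im / normSq (m0 q z) := by positivity
  simp only [sub_im, inv_im, zero_im, neg_div] at h1
  linarith [h x]

theorem lmd_GLip_mono {Λ Λ' : ℝ} (h : Λ ≤ Λ') {F : ℂ × ℂ → ℝ} (hF : GLip Λ F) : GLip Λ' F :=
  ⟨hF.1, hF.2.1, fun p p' h1 h2 h3 h4 => (hF.2.2 p p' h1 h2 h3 h4).trans (by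
    have : 0 ≤ gam p.1 p'.1 + gam p.2 p'.2 := by unfold gam; positivity
    gcongr)⟩

/-- empirical law of the pairs (cavity value, tree value) -/
def lmd_mu {q : ℕ} (s : ℝ) (z z₀ : ℂ) {V : Type} [Fintype V] [DecidableEq V] (c : Cfg V q) :
    Measure (ℂ × ℂ) := emp fun h : HE V q => (Yc s z c h, mT s z₀ (view c h))

/-- Chebyshev for one pair test function -/
theorem lmd_cheb (hK : StKit) {q n₀ : ℕ} {M T₁ θ₀ C K K₂ t₀ : ℝ}
    (hP : Pack q M T₁ θ₀ C K K₂ t₀ n₀) (π : Measure II) [IsProbabilityMeasure π] {s Λ θ ε : ℝ}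
    (hs0 : 0 ≤ s) (hs1 : s ≤ 1) (hΛ : 0 ≤ Λ) (hθ : 0 < θ) (hε : 0 < ε) :
    ∃ t₁ : ℝ, ∀ z₀ : ℂ, 0 < z₀.im → ∀ᶠ n : ℕ in atTop, ∀ (z : ℂ) (t : ℝ) (F : ℂ × ℂ → ℝ),
      Adm M t₀ n₀ s z n t → t₁ ≤ t → GLip Λ F →
      cfgLaw (Fin n) q π {c | Om0 s z T₁ θ₀ c ∧ θ < |∫ p, F p ∂lmd_mu s z z₀ c -
        ∫ p, F p ∂T2 q π s z z₀ (lmd_mu s z z₀ c)|} ≤ ENNReal.ofReal ε := by
  set D := max C 0 with hD
  have hD0 : 0 ≤ D := le_max_right _ _
  have hCD : C ≤ D := le_max_left _ _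
  refine ⟨max 1 (3 * D * (1 + √Λ) / (ε * θ ^ 2)), fun z₀ hz₀ => ?_⟩
  obtain ⟨R, hR⟩ := lm_pairTest q hs0 hs1 hz₀ hΛ (ε₂ := ε * θ ^ 2 / (3 * (D + 1))) (by positivity)
  obtain ⟨CR, hCR⟩ := hP.rde R
  filter_upwards [eventually_gt_atTop 0, (tendsto_natCast_atTop_atTop (R := ℝ)).eventually
    (eventually_ge_atTop (3 * CR / (ε * θ ^ 2)))] with n hn hn'
  intro z t F hA ht hF
  have : Nonempty (Fin n) := ⟨⟨0, hn⟩⟩
  have := hK.law_le q π (Fin n)
  obtain ⟨h1, h2⟩ := hR F hF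
  have h3 := hCR π s z (Fin n) t _ _ _ (by rwa [Fintype.card_fin]) (Real.sqrt_nonneg _)
    (by positivity) h1
  have h4 := lm_markov (cfgLaw (Fin n) q π) (p := fun c => Om0 s z T₁ θ₀ c)
    (measurableSet_le (hK.meas_bad q s _ _ _ _) measurable_const)
    (f := fun c => (RA s z (fun p : ℂ × Env q => F (p.1, mT s z₀ p.2)) c -
      RB π s z (fun p : ℂ × Env q => F (p.1, mT s z₀ p.2)) c) ^ 2)
    (((hK.meas_RA q s z _ _ h1.1).sub (hK.meas_RB q π s z _ _ h1.1)).pow_const 2) (B := 4)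
    (fun c => sq_nonneg _) (fun c => by
      have a1 := abs_le.1 (lr_RA_abs (s := s) (z := z) h1 c)
      have a2 := abs_le.1 (lr_RB_abs (s := s) (z := z) π h1 c)
      nlinarith [a1.1, a1.2, a2.1, a2.2]) (a := θ ^ 2) (by positivity) h3
  refine le_trans (measure_mono ?_) (h4.trans (ENNReal.ofReal_le_ofReal ?_))
  · rintro c ⟨hc, hc'⟩
    refine ⟨hc, ?_⟩
    rw [(h2 π z _ c).1, (h2 π z _ c).2]
    exact (pow_lt_pow_left₀ hc' hθ.le two_ne_zero).trans_eq (sq_abs _)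
  · have ht0 : 0 < t := lt_of_lt_of_le one_pos ((le_max_left _ _).trans ht)
    have hn0 : (0 : ℝ) < n := by exact_mod_cast hn
    have a1 : D * ((1 + √Λ) / t) ≤ ε * θ ^ 2 / 3 := by
      have b1 := (le_max_right _ _).trans ht
      rw [div_le_iff₀ (by positivity)] at b1
      rw [← mul_div_assoc, div_le_iff₀ ht0]
      linarith
    have a2 : D * (ε * θ ^ 2 / (3 * (D + 1))) ≤ ε * θ ^ 2 / 3 := by
      rw [← mul_div_assoc, div_le_div_iff₀ (by positivity) (by positivity)]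
      have : 0 < ε * θ ^ 2 := by positivity
      nlinarith
    have a3 : CR / n ≤ ε * θ ^ 2 / 3 := by
      rw [div_le_iff₀ (by positivity)] at hn'
      rw [div_le_iff₀ hn0]
      linarith
    have a4 : C * ((1 + √Λ) / t + ε * θ ^ 2 / (3 * (D + 1))) ≤
        D * ((1 + √Λ) / t + ε * θ ^ 2 / (3 * (D + 1))) := by gcongr
    rw [div_le_iff₀ (by positivity), Fintype.card_fin]
    linarith

theorem lmd_delta {a b c : ℝ} (ha : 0 < a) (hb : 0 < b) (hc : 0 < c) (C C' : ℝ) :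
    ∃ δ : ℝ, 0 < δ ∧ δ ≤ a ∧ ∀ x : ℝ, 0 ≤ x → x ≤ δ → C * x ^ 2 ≤ b ∧ C' * x ^ 2 ≤ c := by
  refine ⟨min (min a 1) (min (b / (|C| + 1)) (c / (|C'| + 1))), by positivity,
    (min_le_left _ _).trans (min_le_left _ _), fun x h0 hx => ?_⟩
  have h1 : x ≤ 1 := hx.trans ((min_le_left _ _).trans (min_le_right _ _))
  have h2 := hx.trans ((min_le_right _ _).trans (min_le_left _ _))
  have h3 := hx.trans ((min_le_right _ _).trans (min_le_right _ _))
  rw [le_div_iff₀ (by positivity)] at h2 h3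
  have h4 : x ^ 2 ≤ x := by nlinarith
  constructor
  · calc C * x ^ 2 ≤ |C| * x := by gcongr; exact le_abs_self _
      _ ≤ b := by nlinarith
  · calc C' * x ^ 2 ≤ |C'| * x := by gcongr; exact le_abs_self _
      _ ≤ c := by nlinarith

/-- `x₂, C` from `StC2` (strip `M`); given `ε` take `J, θ, Λ` for `ε/2`, `δ ≤ x₂` with `C δ² ≤ ε/2` and
`2Λ₀²δ² ≤ x₂/4`; `μ = emp (Yc, mT z₀ view)`; first marginal: `Post`; second marginal: `lm_lln` for
`‖uu z₀ (mT z₀ β)‖²`, `TreeSmall.small`, `StC0` (change of `z`); `lm_pairTest`, `Pack.rde` with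
`t = tt n η` and Chebyshev for the `J` test functions (`ε₂`, then `L₀`, then `n` large). -/
theorem lm_dsmallA (hK : StKit) (hZ : StZC) (hC0 : StC0) (hC2 : StC2) (hP4 : StP4) (q : ℕ)
    (hq : 2 ≤ q) {κ : ℝ} (hκ : 0 < κ) (M : ℝ) : ∃ x₂ : ℝ, 0 < x₂ ∧
    ∀ (π : Measure II) [IsProbabilityMeasure π] (s M' T₁ θ₀ x₀ C K K₂ t₀ CT : ℝ) (n₀ : ℕ),
      0 ≤ s → s ≤ 1 → s ≤ x₂ → x₀ ≤ x₂ → CT * s ^ 2 ≤ x₂ / 8 → 2 * √(q : ℝ) + M ≤ M' → 2 ≤ t₀ →
      Pack q M' T₁ θ₀ C K K₂ t₀ n₀ → Chain q π s κ M T₁ θ₀ x₀ → TreeSmall q π s κ CT →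
      DSmall q π s κ 0 M := by
  obtain ⟨Λ₀, hΛ₀, hU, -⟩ := hC0 q κ hq hκ
  obtain ⟨x₂, C₂, hx₂, hC2⟩ := hC2 q κ M hq hκ
  refine ⟨x₂, hx₂, ?_⟩
  intro π _ s M' T₁ θ₀ x₀ C K K₂ t₀ CT n₀ hs0 hs1 hsx hx₀ hCT hM ht₀ hP hC hT ε hε
  obtain ⟨J, θ, Λ, hθ, hF⟩ := hC2 (ε / 2) (by positivity)
  obtain ⟨Cc, Lc, nc, hC⟩ := hC
  obtain ⟨t₁, ht₁⟩ := lmd_cheb hK hP π hs0 hs1 (le_max_right Λ 0) hθ
    (ε := ε / (3 * (J + 1))) (by positivity)
  obtain ⟨L₁, hL₁, hL⟩ := lm_tt_large (max (max t₀ t₁) (3 * Cc / ε))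
  obtain ⟨δ, hδ, hδx, hδ'⟩ := lmd_delta hx₂ (half_pos hε) (by positivity : 0 < x₂ / 4) C₂
    (2 * Λ₀ ^ 2)
  refine ⟨δ, max Lc L₁, hδ, fun z₀ hz₀ hB₀ => ?_⟩
  obtain ⟨-, hcont, hrec⟩ := (stT0 q s hs0 hs1).1 z₀ hz₀
  have hφ : Continuous fun β : Env q => ‖uu q z₀ (mT s z₀ β)‖ ^ 2 :=
    (lmd_uu_cont (hU z₀ hz₀.le hB₀).1 hcont fun β => (hrec β).1).norm.pow 2
  filter_upwards [ht₁ z₀ hz₀, lm_lln hP4 q π hφ (ε := min (x₂ / 8) (ε / 3)) (by positivity),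
    eventually_ge_atTop n₀, eventually_ge_atTop nc, eventually_gt_atTop 0] with n h1 h2 hn hn' hn0
  intro z hB hzz hz hLz _ hzM
  have : Nonempty (Fin n) := ⟨⟨0, hn0⟩⟩
  have ht := hL n z.im ((le_max_right _ _).trans hLz)
  have htt₀ : t₀ ≤ tt n z.im := (le_max_left _ _).trans ((le_max_left _ _).trans ht)
  obtain ⟨F, hFL, hF⟩ := hF z hz hzM hB
  have h3 := fun j => h1 z _ (F j) (lmd_adm hκ hs0 hs1 hM hB hz hzM hn htt₀)
    ((le_max_right _ _).trans ((le_max_left _ _).trans ht)) (lmd_GLip_mono (le_max_left _ _) (hFL j))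
  have h4 := hC (Fin n) z (by simpa using hn') hB hz (by simpa using (le_max_left _ _).trans hLz) hzM
  have h5 := (measure_iUnion_fintype_le (cfgLaw (Fin n) q π) _).trans
    (Finset.sum_le_sum fun j _ => h3 j)
  refine le_trans (measure_mono (t := _ ∪ (_ ∪ _)) ?_) ((measure_union_le _ _).trans
    ((add_le_add h4 ((measure_union_le _ _).trans (add_le_add h2 h5))).trans ?_))
  · intro c hc
    by_contra hcon
    simp only [Set.mem_union, Set.mem_ofPred_eq, Set.mem_iUnion, not_or, not_not, not_exists,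
      not_lt] at hcon hc
    obtain ⟨⟨hO, hX, -⟩, hl, hj⟩ := hcon
    have := lm_emp_prob fun h : HE (Fin n) q => (Yc s z c h, mT s z₀ (view c h))
    have h6 := hF z₀ s π (emp fun h : HE (Fin n) q => (Yc s z c h, mT s z₀ (view c h))) hz₀
      (hzz.trans hδx) hs0 hsx (lm_emp_ae _ fun h => ⟨(hZ.pos q s z _ c h hz).1, (hrec _).1⟩)
      (by rw [lm_emp_int]; exact hX.trans hx₀) ?_ fun j => not_lt.1 fun h => hj j ⟨hO, h⟩
    · rw [lm_emp_int] at h6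
      have h7 := (hδ' _ (norm_nonneg _) hzz).1
      exact absurd hc (not_lt.2 (h6.trans (by linarith)))
    · rw [lm_emp_int]
      have h7 := (hδ' _ (norm_nonneg _) hzz).2
      have h8 : ∀ h : HE (Fin n) q, ‖uu q z (mT s z₀ (view c h))‖ ^ 2 ≤
          2 * ‖uu q z₀ (mT s z₀ (view c h))‖ ^ 2 + x₂ / 4 := by
        intro h
        have a1 := ((hU z hz.le hB).2.2.2.2.2 z₀ hz₀.le hB₀).2 _ (hrec (view c h)).1
        have a2 := norm_le_insert' (uu q z (mT s z₀ (view c h))) (uu q z₀ (mT s z₀ (view c h)))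
        have a3 : ‖uu q z (mT s z₀ (view c h))‖ ^ 2 ≤
            (‖uu q z₀ (mT s z₀ (view c h))‖ + Λ₀ * ‖z - z₀‖) ^ 2 := by
          gcongr; linarith
        nlinarith [sq_nonneg (‖uu q z₀ (mT s z₀ (view c h))‖ - Λ₀ * ‖z - z₀‖)]
      refine (p_avg_mono h8).trans ?_
      rw [p_avg_add, p_avg_mul, p_avg_const]
      have a1 := hT.small z₀ hz₀ hB₀
      have a2 := min_le_left (x₂ / 8) (ε / 3)
      linarith
  · have ht0 : 0 < tt n z.im := by linarith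
    have a1 : Cc / tt (Fintype.card (Fin n)) z.im ≤ ε / 3 := by
      have b1 := (le_max_right _ _).trans ht
      rw [div_le_iff₀ hε] at b1
      rw [Fintype.card_fin, div_le_iff₀ ht0]
      linarith
    have a2 : (J : ℝ) * (ε / (3 * (J + 1))) ≤ ε / 3 := by
      rw [← mul_div_assoc, div_le_div_iff₀ (by positivity) (by positivity)]
      nlinarith
    rw [Finset.sum_const, Finset.card_univ, Fintype.card_fin J, nsmul_eq_mul,
      ← ENNReal.ofReal_natCast, ← ENNReal.ofReal_mul (by positivity)]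
    refine (add_le_add (ENNReal.ofReal_le_ofReal a1) (add_le_add
      (ENNReal.ofReal_le_ofReal (min_le_right _ _)) (ENNReal.ofReal_le_ofReal a2))).trans ?_
    rw [← ENNReal.ofReal_add (by positivity) (by positivity),
      ← ENNReal.ofReal_add (by positivity) (by positivity)]
    exact ENNReal.ofReal_le_ofReal (by linarith)

/-- `M₀, C` from `StC3`; the single test function `‖uu z p.1 - uu z p.2‖²/(4Λ²)` (zero off the half
planes) is `GLip`; `‖Yc‖ ≤ 1/η ≤ 1`, `‖mT z₀‖ ≤ 1/Im z₀ ≤ 1` (`δ ≤ 1`). -/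
theorem lm_dsmallB (hK : StKit) (hZ : StZC) (hC0 : StC0) (hC3 : StC3) (q : ℕ)
    (hq : 2 ≤ q) {κ : ℝ} (hκ : 0 < κ) : ∃ M₀ : ℝ, 2 ≤ M₀ ∧
    ∀ (π : Measure II) [IsProbabilityMeasure π] (s m M M' T₁ θ₀ C K K₂ t₀ : ℝ) (n₀ : ℕ),
      0 ≤ s → s ≤ 1 → M₀ ≤ m → 2 * √(q : ℝ) + M ≤ M' → 2 ≤ t₀ →
      Pack q M' T₁ θ₀ C K K₂ t₀ n₀ → OSmall q π s κ m M T₁ θ₀ → DSmall q π s κ m M := by
  obtain ⟨Λ, hΛ, hU, -⟩ := hC0 q κ hq hκ
  obtain ⟨M₀, C₃, hM₀, hC3⟩ := hC3 q κ hq hκ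
  refine ⟨M₀, hM₀, ?_⟩
  intro π _ s m M M' T₁ θ₀ C K K₂ t₀ n₀ hs0 hs1 hm hM ht₀ hP hO ε hε
  obtain ⟨Lc, hO⟩ := hO (ε / 2) (by positivity)
  obtain ⟨t₁, ht₁⟩ := lmd_cheb hK hP π hs0 hs1 zero_le_two (θ := ε / 4 / (4 * Λ ^ 2))
    (by positivity) (half_pos hε)
  obtain ⟨L₁, hL₁, hL⟩ := lm_tt_large (max t₀ t₁)
  obtain ⟨δ, hδ, hδ1, hδ'⟩ := lmd_delta one_pos (half_pos hε) one_pos C₃ 0
  refine ⟨δ, max Lc L₁, hδ, fun z₀ hz₀ hB₀ => ?_⟩
  obtain ⟨-, hcont, hrec⟩ := (stT0 q s hs0 hs1).1 z₀ hz₀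
  filter_upwards [ht₁ z₀ hz₀, hO, eventually_ge_atTop n₀, eventually_gt_atTop 0] with n h1 h2 hn hn0
  intro z hB hzz hz hLz hmz hzM
  have : Nonempty (Fin n) := ⟨⟨0, hn0⟩⟩
  have ht := hL n z.im ((le_max_right _ _).trans hLz)
  obtain ⟨-, -, hu1, hu2, -⟩ := hU z hz.le hB
  classical
  set F : ℂ × ℂ → ℝ := fun p => if 0 < p.1.im ∧ 0 < p.2.im then
    ‖uu q z p.1 - uu q z p.2‖ ^ 2 / (4 * Λ ^ 2) else 0 with hF
  have hb : ∀ Y Y' : ℂ, 0 < Y.im → 0 < Y'.im → ‖uu q z Y - uu q z Y'‖ ≤ 2 * Λ := fun Y Y' h h' =>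
    (norm_sub_le _ _).trans (by linarith [hu1 Y h, hu1 Y' h'])
  have hFL : GLip 2 F := by
    refine ⟨Measurable.ite
      ((measurableSet_lt measurable_const (Complex.measurable_im.comp measurable_fst)).inter
        (measurableSet_lt measurable_const (Complex.measurable_im.comp measurable_snd)))
      (by unfold uu; fun_prop) measurable_const,
      fun p => ?_, fun p p' a1 a2 a3 a4 => ?_⟩
    · simp only [hF]
      split_ifs with h
      · rw [abs_of_nonneg (by positivity), div_le_one (by positivity)]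
        have := hb _ _ h.1 h.2
        nlinarith [norm_nonneg (uu q z p.1 - uu q z p.2)]
      · simp
    · simp only [hF, a1, a2, a3, a4, and_self, if_true]
      have b1 := hb _ _ a1 a2
      have b2 := hb _ _ a3 a4
      have b3 := hu2 _ _ a1 a3
      have b4 := hu2 _ _ a2 a4
      have b5 : |‖uu q z p.1 - uu q z p.2‖ - ‖uu q z p'.1 - uu q z p'.2‖| ≤
          ‖uu q z p.1 - uu q z p'.1‖ + ‖uu q z p.2 - uu q z p'.2‖ := by
        refine (abs_norm_sub_norm_le _ _).trans (le_trans (le_of_eq ?_) (norm_sub_le _ _))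
        congr 1; ring
      have g : 0 ≤ gam p.1 p'.1 + gam p.2 p'.2 := by unfold gam; positivity
      set x := ‖uu q z p.1 - uu q z p.2‖
      set y := ‖uu q z p'.1 - uu q z p'.2‖
      have hx : 0 ≤ x := norm_nonneg _
      have hy : 0 ≤ y := norm_nonneg _
      have b6 : (x - y) ^ 2 ≤ 2 * Λ * (gam p.1 p'.1 + gam p.2 p'.2) := by
        rw [← sq_abs]
        refine (pow_le_pow_left₀ (abs_nonneg _) b5 2).trans ?_
        nlinarith [sq_nonneg (‖uu q z p.1 - uu q z p'.1‖ - ‖uu q z p.2 - uu q z p'.2‖)]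
      rw [sq_abs]
      calc (x ^ 2 / (4 * Λ ^ 2) - y ^ 2 / (4 * Λ ^ 2)) ^ 2
          = (x - y) ^ 2 * (x + y) ^ 2 / (4 * Λ ^ 2) ^ 2 := by ring
        _ ≤ 2 * Λ * (gam p.1 p'.1 + gam p.2 p'.2) * (4 * Λ) ^ 2 / (4 * Λ ^ 2) ^ 2 := by
          gcongr; linarith
        _ = 2 * (gam p.1 p'.1 + gam p.2 p'.2) / Λ := by field_simp
        _ ≤ _ := div_le_self (by positivity) hΛ
  have hint : ∀ μ : Measure (ℂ × ℂ), (∀ᵐ p ∂μ, 0 < p.1.im ∧ 0 < p.2.im) →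
      ∫ p, F p ∂μ = (∫ p, ‖uu q z p.1 - uu q z p.2‖ ^ 2 ∂μ) / (4 * Λ ^ 2) := by
    intro μ hμ
    rw [← integral_div]
    refine integral_congr_ae (hμ.mono fun p hp => ?_)
    simp only [hF, hp, and_self, if_true]
  have h3 := h1 z _ F (lmd_adm hκ hs0 hs1 hM hB hz hzM hn ((le_max_left _ _).trans ht))
    ((le_max_right _ _).trans ht) hFL
  have h4 := h2 z hB hz ((le_max_left _ _).trans hLz) hmz hzM
  refine le_trans (measure_mono (t := _ ∪ _) ?_) ((measure_union_le _ _).trans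
    ((add_le_add h4 h3).trans ?_))
  · intro c hc
    by_contra hcon
    simp only [Set.mem_union, Set.mem_ofPred_eq, not_or, not_not, not_and, not_lt] at hcon hc
    have h5 := hcon.2 hcon.1
    have hY : ∀ h : HE (Fin n) q, 0 < (Yc s z c h, mT s z₀ (view c h)).1.im ∧
        0 < (Yc s z c h, mT s z₀ (view c h)).2.im := fun h =>
      ⟨(hZ.pos q s z _ c h hz).1, (hrec _).1⟩
    unfold lmd_mu at h5
    rw [hint _ (lm_emp_ae _ hY), hint _ (lm_T2_ae q π s hz hz₀ hY).2, ← sub_div, abs_div,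
      abs_of_pos (by positivity : 0 < 4 * Λ ^ 2), div_le_div_iff_of_pos_right (by positivity)] at h5
    have := lm_emp_prob fun h : HE (Fin n) q => (Yc s z c h, mT s z₀ (view c h))
    have hz1 : 1 ≤ z₀.im := by
      have := (le_abs_self _).trans (Complex.abs_im_le_norm (z - z₀))
      rw [sub_im] at this
      linarith
    have h6 := hC3 z z₀ s _ π _ (hm.trans hmz) hB (hzz.trans hδ1) hs0 hs1
      (lm_emp_ae _ fun h => ⟨(hY h).1, (hY h).2,
        (hZ.pos q s z _ c h hz).2.trans (inv_le_one_of_one_le₀ (by linarith)),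
        (hrec _).2.1.trans (inv_le_one_of_one_le₀ hz1)⟩) h5
    rw [lm_emp_int] at h6
    have h7 := (hδ' _ (norm_nonneg _) hzz).1
    exact absurd hc (not_lt.2 (h6.trans (by linarith)))
  · rw [← ENNReal.ofReal_add (by positivity) (by positivity), add_halves]

end Crest.Agent.R166
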