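import Crest.Agent.R166.LM.Dist
import Crest.Agent.R166.LR.Key
import Crest.Agent.R166.LS.Graph

/-!
# Row 166, block LM: the local law on stars
-/

set_option autoImplicit false

open MeasureTheory ProbabilityTheory Filter Topology Complex
open scoped ENNReal NNReal BigOperators Matrix

noncomputable section

namespace Crest.Agent.R166

/-- the star of `h` is `ε`-bad -/
def SBad {q : ℕ} (s : ℝ) (z z₀ : ℂ) (ε : ℝ) {V : Type} [Fintype V] [DecidableEq V] (c : Cfg V q)
    (h : HE V q) : Prop :=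
  ∃ a b, ε < ‖Gr (Hm s c) z (sp c.1 h a) (sp c.1 h b) - GS s z₀ (sview c h) a b‖

theorem lms_GamS_perm {q : ℕ} (s : ℝ) (z : ℂ) (a : II) (m : Fin (q + 1) → ℂ)
    (e : Fin (q + 1) ≃ Fin (q + 1)) (x y : SI q) :
    GamS s z a (fun k => m (e k)) x y = GamS s z a m (x.map e) (y.map e) := by
  have h : Psi s z a (fun k => m (e k)) = Psi s z a m := by
    unfold Psi; rw [Equiv.sum_comp e m]
  cases x <;> cases y <;> simp [GamS, h]

/-- re-basing the star: `rot (v,i) k = rot (v,0) (i+k)`, `GamS` is equivariant -/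
theorem lm_sbad_rot {q : ℕ} (s : ℝ) (z z₀ : ℂ) (ε : ℝ) {V : Type} [Fintype V] [DecidableEq V]
    (c : Cfg V q) (h : HE V q) : SBad s z z₀ ε c h ↔ SBad s z z₀ ε c (h.1, 0) := by
  obtain ⟨v, i⟩ := h
  let e : Fin (q + 1) ≃ Fin (q + 1) := Equiv.addLeft i
  have h1 : ∀ a, sp c.1 (v, i) a = sp c.1 (v, 0) (a.map e) := by
    intro a; cases a <;> simp [sp, rot, e]
  have h2 : ∀ a b, GS s z₀ (sview c (v, i)) a b =
      GS s z₀ (sview c (v, 0)) (a.map e) (b.map e) := by
    intro a b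
    unfold GS
    rw [← lms_GamS_perm]
    simp [sview, rot, e]
  unfold SBad
  simp only [h1, h2]
  constructor
  · rintro ⟨a, b, h⟩
    exact ⟨_, _, h⟩
  · rintro ⟨a, b, h⟩
    refine ⟨a.map e.symm, b.map e.symm, ?_⟩
    simpa only [Option.map_map, Equiv.self_comp_symm, Option.map_id, id] using h

theorem lms_meas_sbad (hK : StKit) {q : ℕ} {s : ℝ} (hs0 : 0 ≤ s) (hs1 : s ≤ 1) (z : ℂ) {z₀ : ℂ}
    (hz₀ : 0 < z₀.im) (ε : ℝ) (V : Type) [Fintype V] [DecidableEq V] (h : HE V q) :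
    MeasurableSet {c : Cfg V q | SBad s z z₀ ε c h} := by
  have hm := ((stT0 q s hs0 hs1).1 z₀ hz₀).2.1.measurable
  have h1 : ∀ a b, Measurable fun e : SEnv q => GS s z₀ e a b := by
    intro a b
    have h2 : ∀ i, Measurable fun e : SEnv q => mT s z₀ (e.2 i) := fun i =>
      hm.comp ((measurable_pi_apply i).comp measurable_snd)
    have h3 : Measurable fun e : SEnv q => Psi s z₀ e.1 fun i => mT s z₀ (e.2 i) := by
      unfold Psi
      refine ((Measurable.sub measurable_const (measurable_const.mul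
        (Complex.measurable_ofReal.comp (measurable_subtype_coe.comp measurable_fst)))).add
        (Finset.measurable_sum _ fun i _ => h2 i)).inv.neg
    cases a <;> cases b <;> simp only [GS, GamS]
    · exact h3
    · exact ((h2 _).mul h3).neg
    · exact ((h2 _).mul h3).neg
    · refine Measurable.add ?_ (((h2 _).mul (h2 _)).mul h3)
      split_ifs
      exacts [h2 _, measurable_const]
  refine measurableSet_setOfPred.2 (Measurable.exists fun a => Measurable.exists fun b =>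
    measurableSet_setOfPred.1 (measurableSet_lt measurable_const (Measurable.norm
      (Measurable.sub ?_ ((h1 a b).comp (hK.meas_sview q V h))))))
  exact measurable_from_prod_countable_right fun σ =>
    (hK.meas_Gr q s z V (sp σ h a) (sp σ h b)).comp measurable_prodMk_left

/-- the family `ind (SBad (h.1, 0))` is invariant and measurable (`StKit`, continuity of `mT`) -/
theorem lm_sbad_ok (hK : StKit) {q : ℕ} {s : ℝ} (hs0 : 0 ≤ s) (hs1 : s ≤ 1) (z : ℂ) {z₀ : ℂ}
    (hz₀ : 0 < z₀.im) (ε : ℝ) :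
    FamH.OK (q := q) fun _ _ _ c h => ind (SBad s z z₀ ε c (h.1, 0)) := by
  refine ⟨fun V V' _ _ _ _ e c h => ?_, fun V _ _ h =>
    lm_meas_ind (lms_meas_sbad hK hs0 hs1 z hz₀ ε V _)⟩
  have h0 : ∀ k, (relabel e c).1 (rot (e h.1, 0) k) =
      (e (c.1 (rot (h.1, 0) k)).1, (c.1 (rot (h.1, 0) k)).2) := fun k =>
    hK.inv_sigma q V V' e c (rot (h.1, 0) k)
  have h1 : ∀ a, sp (relabel e c).1 (e h.1, 0) a = e (sp c.1 (h.1, 0) a) := by
    intro a; cases a
    · rfl
    · simp only [sp, h0]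
  have h2 : sview (relabel e c) (e h.1, 0) = sview c (h.1, 0) := by
    refine Prod.ext (by simp [sview, relabel]) (funext fun k => ?_)
    simp only [sview, h0, hK.inv_view]
  simp only [SBad, h1, h2, hK.inv_Gr]

theorem lms_close_mono {ι : Type} [Fintype ι] {A B : Matrix ι ι ℂ} {e e' : ℝ} (h : Close e A B)
    (hA : Sieg A) (he : e ^ 2 ≤ e' ^ 2) : Close e' A B := by
  intro x y
  refine (h x y).trans ?_
  by_cases h0 : e = 0
  · have h1 := h (star x) x
    rw [h0, Matrix.sub_mulVec, dotProduct_sub] at h1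
    have h2 : star x ⬝ᵥ A *ᵥ x = star x ⬝ᵥ B *ᵥ x := by
      rw [← sub_eq_zero, ← norm_eq_zero, ← sq_eq_zero_iff]
      exact le_antisymm (by simpa using h1) (sq_nonneg _)
    have h3 : imq B x = imq A x := by rw [imq, imq, h2]
    have := mul_nonneg (h3 ▸ hA.2 x) (hA.2 y)
    gcongr
  · have := nonneg_of_mul_nonneg_right ((sq_nonneg _).trans (h x y)) (by positivity)
    gcongr

theorem lms_notSep {q : ℕ} {s : ℝ} {z : ℂ} {V : Type} [Fintype V] [DecidableEq V] [Nonempty V]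
    (hZ : StZC) (hz : 0 < z.im) {T ε ε' p : ℝ} (hp : 0 ≤ p) (c : Cfg V q)
    (hW : ∀ S : Finset V, S.card ≤ 2 → (frac fun h : HE V q => good s z T (1 / 10) c h ∧
      ¬ Dcp (Gr (Hm s c) z) ε' S (ends c.1 h)) ≤ p) :
    frac (fun α => ¬ Sep s z c α Finset.univ ε' ε) ≤
      (q + 1) * (frac (fun h => ¬ dec s z ε c h) + (q + 1) * (bad s z T (1 / 50) c + p)) := by
  have hb : 0 ≤ bad s z T (1 / 50) c := p_frac_nonneg _
  have h1 : ∀ j k : Fin (q + 1), frac (fun α : Fin (q + 1) → HE V q =>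
      k ≠ j ∧ ¬ Dcp (Gr (Hm s c) z) ε' (ends c.1 (α k)) (ends c.1 (α j))) ≤
        bad s z T (1 / 50) c + p := by
    intro j k
    refine lr_frac_update j (by positivity) fun α => le_trans (p_frac_or_le fun x hx => ?_)
      (add_le_add le_rfl (hW {(α k).1, (c.1 (α k)).1} Finset.card_le_two))
    by_cases hg : good s z T (1 / 50) c x
    · refine Or.inr ⟨lr_good_mono hZ hz hg, ?_⟩
      simpa [Function.update_of_ne hx.1, ends] using hx.2
    · exact Or.inl hg
  have h2 := lr_frac_exists_le (fun j (α : Fin (q + 1) → HE V q) => ¬ dec s z ε c (α j) ∨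
      ∃ k, k ≠ j ∧ ¬ Dcp (Gr (Hm s c) z) ε' (ends c.1 (α k)) (ends c.1 (α j))) fun j =>
    (p_frac_or _ _).trans (add_le_add (lr_frac_eval (fun h => ¬ dec s z ε c h) j)
      (lr_frac_exists_le _ (h1 j)))
  refine (p_frac_mono fun α hα => ?_).trans (h2.trans (le_of_eq ?_))
  · by_contra hc
    push Not at hc
    refine hα fun j _ => ⟨(hc j).1, fun x y hx _ => ?_, fun k _ hk => (hc j).2 k hk⟩
    have : x = 0 := funext fun v => hx v (by simp)
    simp [this, imq]
  · simp only [Fintype.card_fin]; push_cast; ring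

theorem lms_frac_far {q : ℕ} {V : Type} [Fintype V] [DecidableEq V] [Nonempty V] (σ : Pairing V q)
    (p : HE V q → Prop) :
    frac (fun α : Fin (q + 1) → HE V q => ∃ j, p (σ (α j))) ≤ (q + 1) * frac p := by
  have h := lr_frac_exists_le (fun j (α : Fin (q + 1) → HE V q) => p (σ (α j))) fun j =>
    (lr_frac_eval (fun h => p (σ h)) j).trans (p_frac_equiv σ.1 p).le
  simpa using h

theorem lms_hyp {Y Y' : ℂ} {T : ℝ} (hT : 1 ≤ T) (hY : 0 < Y.im) (hY' : 0 < Y'.im) (h : hyp Y' ≤ T)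
    (hd : ‖Y - Y'‖ ≤ 1 / (2 * T)) : hyp Y ≤ 4 * T := by
  have h1 : 1 / T ≤ Y'.im := by
    rw [hyp, div_le_iff₀ hY'] at h
    rw [div_le_iff₀ (by positivity)]
    nlinarith [sq_nonneg ‖Y'‖]
  have h2 : 1 / (2 * T) ≤ Y.im := by
    have a1 := (neg_abs_le _).trans' (neg_le_neg (Complex.abs_im_le_norm (Y - Y')))
    rw [sub_im] at a1
    have a2 : 1 / T = 1 / (2 * T) + 1 / (2 * T) := by field_simp; ring
    linarith
  have h3 : gam Y Y' ≤ 1 ^ 2 := by
    unfold gam
    calc ‖Y - Y'‖ ^ 2 / (Y.im * Y'.im) ≤ (1 / (2 * T)) ^ 2 / (1 / (2 * T) * (1 / T)) := by gcongr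
      _ = 1 / 2 := by field_simp
      _ ≤ _ := by norm_num
  have h4 := ls_hyp hY hY' zero_le_one h3
  linarith

/-- Deterministic estimate for a fixed unglued configuration. `StZC.entry` with `(M', T', ε)` gives `ε'`;
`StC0` gives `δ'` for `(T'+1, ε'/2)`... The star at `oH V 0` of the glued configuration is good if all
`α j` are `good T (1/50)`, `dec e`, pairwise `Dcp` at level `e` (`StW`, `|S| ≤ 2`, `dcp_symm` not needed),
`‖uu Y - uu mT(view)‖ ≤ δ'` and `hyp (mT view) ≤ T'` at `σ (α j)`, and the depth-`R` views agree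
(`lm_mT_local`; `hyp` of the glued view's `mT` is `≤ 2T'+2` when `mT` moves by a small amount);
`StGL` with `J = univ`; `Sieg` of a submatrix of `Gr` follows from `StZC`-type positivity (prove it here:
`Im (x* G x) = Im z ‖G x‖²`). Each `α j`, `σ (α j)` is uniform on `HE V q`. -/
theorem lm_star_det (hK : StKit) (hZ : StZC) (hW : StW) (hGL : StGL) (hC0 : StC0) (q : ℕ)
    (hq : 2 ≤ q) {κ : ℝ} (hκ : 0 < κ) (M T' : ℝ) {ε : ℝ} (hε : 0 < ε) :
    ∃ C e δ : ℝ, 0 ≤ C ∧ 0 < e ∧ 0 < δ ∧ ∀ (s : ℝ) (z₀ : ℂ), 0 ≤ s → s ≤ 1 → 0 < z₀.im →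
      ∃ R : ℕ, ∀ (z : ℂ) (V : Type) [Fintype V] [DecidableEq V] (c : Cfg V q) (w : Fin 2 → II) (T : ℝ),
        0 < z.im → z.im ≤ M → Bulk q κ z.re → ‖z - z₀‖ ≤ δ → 0 ≤ T →
        (avg fun α => if Disj c.1 α then ind (SBad s z z₀ ε (glueC c α w) (oH V 0)) else 0) ≤
          C * (bad s z T (1 / 50) c + frac (fun h => ¬ dec s z e c h) + DD s z z₀ c +
            T ^ 3 / (Fintype.card V * z.im)) +
          (q + 1) * frac (fun h : HE V q => T' < hyp (mT s z₀ (view c h))) +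
          avg fun α => if Disj c.1 α then ind (∃ j, ¬ Agree R
            (view (glueC c α w) (inlH (c.1 (α j)))) (view c (c.1 (α j)))) else 0 := by
  obtain ⟨CW, hW⟩ := hW
  obtain ⟨Cg, ε₀, hε₀, hGL⟩ := hGL q
  obtain ⟨Λ, -, -, hU⟩ := hC0 q κ hq hκ
  set T₁ : ℝ := max T' 1 with hT₁
  have hT₁1 : 1 ≤ T₁ := le_max_right _ _
  obtain ⟨ε', hε', hE⟩ := hZ.entry q (2 * √(q : ℝ) + M) (4 * T₁) ε hε
  obtain ⟨δ', hδ', hU⟩ := (hU M).2 T' (ε' / 2) (by positivity)
  set e : ℝ := min (min ε₀ (1 / 10)) (ε' / (2 * (|Cg| + 1))) with he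
  have he0 : 0 < e := by positivity
  have he1 : e ≤ ε₀ := (min_le_left _ _).trans (min_le_left _ _)
  have he2 : e ≤ 1 / 10 := (min_le_left _ _).trans (min_le_right _ _)
  have he3 : (Cg * (e + e)) ^ 2 ≤ ε' ^ 2 := by
    have h1 : e ≤ ε' / (2 * (|Cg| + 1)) := min_le_right _ _
    rw [le_div_iff₀ (by positivity)] at h1
    rw [← sq_abs, abs_mul, abs_of_pos (by positivity : 0 < e + e)]
    gcongr
    nlinarith
  set D : ℝ := max CW 0 with hD
  have hD0 : 0 ≤ D := le_max_right _ _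
  have hCD : CW ≤ D := le_max_left _ _
  clear_value e D
  clear he hD
  obtain ⟨Q, hQ⟩ : ∃ Q : ℝ, Q = q + 1 := ⟨_, rfl⟩
  have hQ1 : 1 ≤ Q := by rw [hQ]; linarith [Nat.cast_nonneg (α := ℝ) q]
  refine ⟨Q ^ 2 + Q / δ' ^ 2 + Q ^ 2 * (2 * D / e ^ 2), e, ε', by positivity, he0, hε',
    fun s z₀ hs0 hs1 hz₀ => ?_⟩
  obtain ⟨R, hR⟩ := lm_mT_local q hs0 hs1 hz₀ (ε := min (ε' / 2) (1 / (2 * T₁))) (by positivity)
  have hrec := ((stT0 q s hs0 hs1).1 z₀ hz₀).2.2
  refine ⟨R, fun z V _ _ c w T hz hzM hB hzz hT => ?_⟩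
  have b0 : 0 ≤ bad s z T (1 / 50) c := p_frac_nonneg _
  have d0 : 0 ≤ frac (fun h => ¬ dec s z e c h) := p_frac_nonneg _
  have D0 : 0 ≤ DD s z z₀ c := p_avg_nonneg fun _ => sq_nonneg _
  have f0 : 0 ≤ frac (fun h : HE V q => T' < hyp (mT s z₀ (view c h))) := p_frac_nonneg _
  have v0 : ∀ α : Fin (q + 1) → HE V q, (0 : ℝ) ≤ if Disj c.1 α then ind (∃ j, ¬ Agree R
      (view (glueC c α w) (inlH (c.1 (α j)))) (view c (c.1 (α j)))) else 0 := fun α => by
    split_ifs; exacts [lm_ind_nonneg _, le_rfl]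
  rcases isEmpty_or_nonempty V with hV | hV
  · have := p_avg_nonneg v0
    exact p_avg_le (by positivity) fun α => hV.elim (α 0).1
  set P : (Fin (q + 1) → HE V q) → Prop := fun α => ¬ Sep s z c α Finset.univ e e ∨
    (∃ j, δ' ^ 2 < ‖uu q z (Yc s z c (c.1 (α j))) - uu q z (mT s z₀ (view c (c.1 (α j))))‖ ^ 2) ∨
    ∃ j, T' < hyp (mT s z₀ (view c (c.1 (α j)))) with hP
  have h1 : frac P ≤ (Q ^ 2 + Q / δ' ^ 2 + Q ^ 2 * (2 * D / e ^ 2)) * (bad s z T (1 / 50) c +
      frac (fun h => ¬ dec s z e c h) + DD s z z₀ c + T ^ 3 / (Fintype.card V * z.im)) +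
      Q * frac (fun h : HE V q => T' < hyp (mT s z₀ (view c h))) := by
    have a1 := lms_notSep hZ hz (T := T) (ε := e) (ε' := e)
      (p := 2 * D / e ^ 2 * (T ^ 3 / (Fintype.card V * z.im))) (by positivity) c fun S hS => by
        refine (hW q s z V c S T e hz hT he0).trans ?_
        have hS' : (S.card : ℝ) ≤ 2 := by exact_mod_cast hS
        calc CW * S.card * T ^ 3 / (Fintype.card V * z.im * e ^ 2)
            ≤ D * 2 * T ^ 3 / (Fintype.card V * z.im * e ^ 2) :=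
              div_le_div_of_nonneg_right (mul_le_mul_of_nonneg_right
                (mul_le_mul hCD hS' (Nat.cast_nonneg _) hD0) (by positivity)) (by positivity)
          _ = 2 * D / e ^ 2 * (T ^ 3 / (Fintype.card V * z.im)) := by
            rw [div_mul_div_comm]; congr 1 <;> ring
    have a2 := lms_frac_far c.1 fun h => δ' ^ 2 <
      ‖uu q z (Yc s z c h) - uu q z (mT s z₀ (view c h))‖ ^ 2
    have a3 := lms_frac_far c.1 fun h => T' < hyp (mT s z₀ (view c h))
    have a4 : (frac fun h : HE V q => δ' ^ 2 <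
        ‖uu q z (Yc s z c h) - uu q z (mT s z₀ (view c h))‖ ^ 2) ≤ DD s z z₀ c / δ' ^ 2 :=
      lm_frac_markov (fun _ => sq_nonneg _) (by positivity)
    refine ((p_frac_or _ _).trans (add_le_add a1 ((p_frac_or _ _).trans (add_le_add
      (a2.trans (mul_le_mul_of_nonneg_left a4 (by positivity))) a3)))).trans ?_
    rw [← hQ]
    set b := bad s z T (1 / 50) c
    set d := frac (fun h => ¬ dec s z e c h)
    set x := DD s z z₀ c
    have y0 : 0 ≤ T ^ 3 / (Fintype.card V * z.im) := by positivity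
    set y := T ^ 3 / (Fintype.card V * z.im)
    have u0 : 0 ≤ Q / δ' ^ 2 := by positivity
    have e1 : Q * (x / δ' ^ 2) = Q / δ' ^ 2 * x := by ring
    rw [e1]
    set u := Q / δ' ^ 2
    have k0 : 0 ≤ 2 * D / e ^ 2 := by positivity
    set k := 2 * D / e ^ 2
    have c1 : Q * d ≤ Q ^ 2 * d := by gcongr; nlinarith
    have c2 : 0 ≤ Q ^ 2 * (x + y) + u * (b + d + y) + Q ^ 2 * k * (b + d + x) := by positivity
    nlinarith
  rw [← hQ]
  refine le_trans ?_ (add_le_add h1 le_rfl)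
  rw [lr_frac_eq, ← p_avg_add]
  refine p_avg_mono fun α => ?_
  have i0 := lm_ind_nonneg (P α)
  split_ifs with hD
  swap
  · linarith
  by_cases hPα : P α
  · have := lm_ind_le_one (SBad s z z₀ ε (glueC c α w) (oH V 0))
    have := v0 α
    rw [if_pos hD] at this
    rw [lm_ind_pos hPα]
    linarith
  refine (lm_ind_mono fun hS => ?_).trans (le_add_of_nonneg_left i0)
  by_contra hA
  simp only [hP, not_or, not_not, not_exists, not_lt] at hPα hA
  obtain ⟨hSep, hu, hh⟩ := hPα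
  have hSg : Sieg ((Gr (Hm s (glueC c α w)) z).submatrix (sp (glue c.1 α) (oH V 0))
      (sp (glue c.1 α) (oH V 0))) := (gr_sieg (ls_Hm_symm s _) hz).sub _
  have h2 := lms_close_mono ((hGL s z V c α w Finset.univ e e hz he0.le he1 he0.le he2 hD
    hSep).2.2 rfl) hSg he3
  have hn : ‖z‖ ≤ 2 * √(q : ℝ) + M := by
    have h1 := Complex.norm_le_abs_re_add_abs_im z
    unfold Bulk at hB
    rw [abs_of_pos hz] at h1
    linarith
  have h3 := hE s z z₀ (w 0) _ (fun j => mT s z₀ (view (glueC c α w) (inlH (c.1 (α j))))) _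
    hs0 hs1 hz hn hz₀ hzz (fun j => ?_) hSg h2
  · obtain ⟨a, b, hab⟩ := hS
    have e1 : GS s z₀ (sview (glueC c α w) (oH V 0)) =
        GamS s z₀ (w 0) fun j => mT s z₀ (view (glueC c α w) (inlH (c.1 (α j)))) := by
      unfold GS
      congr 1
      funext j
      have := (hK.glue_spec q V c.1 α hD).1 j
      simp only [sview, rot, oH, zero_add]
      exact congrArg (fun h => mT s z₀ (view (glueC c α w) h)) this
    rw [e1] at hab
    exact absurd hab (not_lt.2 (h3 a b))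
  · have a1 := hR _ _ (hA j)
    have a2 := (hZ.pos q s z V c (c.1 (α j)) hz).1
    have a3 := hU z hz.le hzM hB _ _ a2 (hrec _).1 (hh j)
      (abs_le_of_sq_le_sq' (hu j) hδ'.le).2
    refine ⟨a2, (hrec _).1, lms_hyp hT₁1 (hrec _).1 (hrec _).1 ((hh j).trans (le_max_left _ _))
      (a1.trans (min_le_right _ _)), ?_⟩
    have a4 := norm_sub_le_norm_sub_add_norm_sub (Yc s z c (c.1 (α j)))
      (mT s z₀ (view c (c.1 (α j)))) (mT s z₀ (view (glueC c α w) (inlH (c.1 (α j)))))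
    rw [norm_sub_rev] at a1
    linarith [min_le_left (ε' / 2) (1 / (2 * T₁))]

theorem lms_exp {X : Type} [MeasurableSpace X] (μ : Measure X) [IsZeroOrProbabilityMeasure μ]
    {f : X → ℝ} (hf : Measurable f) {B a p : ℝ} (h0 : ∀ x, 0 ≤ f x) (hB : ∀ x, f x ≤ B)
    (hB0 : 0 ≤ B) (ha : 0 ≤ a) (hp : 0 ≤ p) {S : Set X} (hS : μ S ≤ ENNReal.ofReal p)
    (h : ∀ x, x ∉ S → f x ≤ a) : ∫ x, f x ∂μ ≤ a + B * p := by
  have hm : MeasurableSet {x | a < f x} := measurableSet_lt measurable_const hf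
  have hj : Integrable ({x | a < f x}.indicator fun _ => B) μ := (integrable_const _).indicator hm
  have h2 : ∫ x, f x ∂μ ≤ ∫ x, (a + {x | a < f x}.indicator (fun _ => B) x) ∂μ := by
    refine integral_mono_of_nonneg (ae_of_all _ h0) ((integrable_const _).add hj)
      (ae_of_all _ fun x => ?_)
    by_cases hx : a < f x
    · simp only [Set.indicator_of_mem (s := {x | a < f x}) hx]; linarith [hB x]
    · simp only [Set.indicator_of_notMem (s := {x | a < f x}) hx]; linarith [not_lt.1 hx]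
  rw [integral_add (integrable_const _) hj, integral_indicator_const _ hm, smul_eq_mul] at h2
  have h3 : μ.real {x | a < f x} ≤ p := ENNReal.toReal_le_of_le_ofReal hp
    (le_trans (measure_mono fun x hx => by_contra fun hx' => absurd hx (not_lt.2 (h x hx'))) hS)
  have h4 := lr_integral_const_le μ ha
  nlinarith

theorem lms_gE (hK : StKit) {q R : ℕ} (π : Measure II) [IsProbabilityMeasure π] {V : Type}
    [Fintype V] [DecidableEq V] {f : Cfg V q → (Fin (q + 1) → HE V q) → (Fin 2 → II) → ℝ}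
    {g : Cfg V q → ℝ} (hg : Integrable g (cfgLaw V q π)) (hf0 : ∀ c α w, 0 ≤ f c α w)
    (h : ∀ c w, (avg fun α => if Disj c.1 α then f c α w else 0) ≤
      g c + avg fun α => if Disj c.1 α then ind (lr_vc R c α w) else 0) :
    gE π V f ≤ ∫ c, g c ∂cfgLaw V q π + gE (q := q) π V fun c α w => ind (lr_vc R c α w) := by
  have := hK.law_le q π V
  let vc : Cfg V q → (Fin 2 → II) → ℝ := fun c w =>
    avg fun α => if Disj c.1 α then ind (lr_vc R c α w) else 0
  have vc1 : ∀ c w, |vc c w| ≤ 1 := fun c w => lr_abs_avg_le zero_le_one fun α => by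
    split_ifs
    · rw [abs_of_nonneg (lm_ind_nonneg _)]; exact lm_ind_le_one _
    · simp
  have mvc : Measurable (Function.uncurry vc) := lr_meas_vc hK
  have iv : Integrable (fun c => ∫ w, vc c w ∂Measure.pi fun _ => π) (cfgLaw V q π) :=
    lr_integrable (mvc.stronglyMeasurable.integral_prod_right).measurable fun c =>
      lr_abs_integral_le (vc1 c)
  have h0 : ∀ (c : Cfg V q) w, 0 ≤ avg fun α => if Disj c.1 α then f c α w else 0 := fun c w =>
    p_avg_nonneg fun α => by split_ifs; exacts [hf0 _ _ _, le_rfl]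
  unfold gE
  rw [← integral_add hg iv]
  refine integral_mono_of_nonneg (ae_of_all _ fun c => integral_nonneg (h0 c)) (hg.add iv)
    (ae_of_all _ fun c => ?_)
  have ivc : Integrable (vc c) (Measure.pi fun _ => π) :=
    lr_integrable (mvc.comp measurable_prodMk_left) (vc1 c)
  refine (integral_mono_of_nonneg (ae_of_all _ (h0 c)) ((integrable_const (g c)).add ivc)
    (ae_of_all _ (h c))).trans (le_of_eq ?_)
  rw [integral_add' (integrable_const _) ivc]
  simp

/-- `E frac(SBad) ≤ ε²` then Markov: `StGX` (first part, `V = Fin (n-2)`, `lm_sbad_rot`, `lm_sbad_ok`),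
`lm_star_det` with `T = K t^4`, `t = tt (n-2) η`, `T'` from `TreeSmall.tight` (strip `M+1`) and `lm_lln`
for `hyp (mT z₀ β)²`; `Pack.tail`, `Pack.dec`, `OSmall`, `lm_unweight`; `DD ≤ 4Λ²` and `DSmall`;
`StView`. -/
theorem lm_star (hK : StKit) (hZ : StZC) (hW : StW) (hGL : StGL) (hGX : StGX) (hV : StView)
    (hC0 : StC0) (hP4 : StP4) {q : ℕ} (hq : 2 ≤ q) (π : Measure II) [IsProbabilityMeasure π]
    {s κ m M M' T₁ θ₀ C K K₂ t₀ CT : ℝ} {n₀ : ℕ} (hκ : 0 < κ) (hs0 : 0 ≤ s) (hs1 : s ≤ 1)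
    (hM : 2 * √(q : ℝ) + M ≤ M') (hK1 : 1 ≤ K) (ht₀ : 2 ≤ t₀) (hP : Pack q M' T₁ θ₀ C K K₂ t₀ n₀)
    (hO : OSmall q π s κ m M T₁ θ₀) (hD : DSmall q π s κ m M) (hT : TreeSmall q π s κ CT) :
    LL1On q π s κ m M := by
  intro ε hε
  obtain ⟨Λ, hΛ, hU, -⟩ := hC0 q κ hq hκ
  obtain ⟨Cx, hCx⟩ := hGX q
  obtain ⟨B₀, hB₀⟩ := hT.tight (M + 1)
  obtain ⟨Q, hQ⟩ : ∃ Q : ℝ, Q = q + 1 := ⟨_, rfl⟩
  have hQ1 : 1 ≤ Q := by rw [hQ]; linarith [Nat.cast_nonneg (α := ℝ) q]
  obtain ⟨T', hT'1, hT'⟩ : ∃ T' : ℝ, 1 ≤ T' ∧ Q * ((|B₀| + 1) / T' ^ 2) ≤ ε ^ 2 / 4 := by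
    refine ⟨max 1 (4 * Q * (|B₀| + 1) / ε ^ 2), le_max_left _ _, ?_⟩
    have h1 := le_max_left 1 (4 * Q * (|B₀| + 1) / ε ^ 2)
    have h2 := le_max_right 1 (4 * Q * (|B₀| + 1) / ε ^ 2)
    generalize max 1 (4 * Q * (|B₀| + 1) / ε ^ 2) = T at h1 h2
    rw [div_le_iff₀ (by positivity)] at h2
    rw [← mul_div_assoc, div_le_iff₀ (by positivity)]
    have h3 : T * ε ^ 2 ≤ T ^ 2 * ε ^ 2 := by gcongr; nlinarith
    linarith
  obtain ⟨Cd, e, δd, hCd, he, hδd, hdet⟩ := lm_star_det hK hZ hW hGL hC0 q hq hκ M T' hε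
  obtain ⟨a, ha, ha1, ha2⟩ : ∃ a : ℝ, 0 < a ∧ a ≤ 1 ∧
      (Cd * (3 + 4 * Λ ^ 2) + Q) * a ≤ ε ^ 2 / 4 := by
    refine ⟨min 1 (ε ^ 2 / 4 / (Cd * (3 + 4 * Λ ^ 2) + Q)), by positivity, min_le_left _ _, ?_⟩
    rw [← le_div_iff₀' (by positivity)]
    exact min_le_right _ _
  obtain ⟨LO, hO⟩ := hO a ha
  obtain ⟨δD, LD, hδD, hD⟩ := hD a ha
  obtain ⟨L₁, hL₁, hL⟩ := lm_tt_large
    (max (max t₀ e⁻¹) (4 * (Cd * (2 * |C| + K ^ 3)) / ε ^ 2))
  refine ⟨min (min δd δD) 1, 2 * max (max LO LD) L₁, by positivity, fun z₀ hz₀ hB0 => ?_⟩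
  obtain ⟨R, hR⟩ := hdet s z₀ hs0 hs1 hz₀
  obtain ⟨Cv, hCv⟩ := hV q R
  obtain ⟨-, hcont, hrec⟩ := (stT0 q s hs0 hs1).1 z₀ hz₀
  have hφ : Continuous fun β : Env q => hyp (mT s z₀ β) ^ 2 := by
    unfold hyp
    exact ((continuous_const.add (hcont.norm.pow 2)).div (Complex.continuous_im.comp hcont)
      fun β => (hrec β).1.ne').pow 2
  rw [← map_add_atTop_eq_nat 2, eventually_map]
  filter_upwards [hO, hD z₀ hz₀ hB0, lm_lln hP4 q π hφ ha, eventually_ge_atTop n₀,
    eventually_ge_atTop 2, (tendsto_natCast_atTop_atTop (R := ℝ)).eventually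
      (eventually_ge_atTop (4 * (Cx + Cv) / ε ^ 2))] with n h1 h2 h3 hn hn2 hnC
  intro z hB hzz hz hLz hmz hzM
  have hn2' : (2 : ℝ) ≤ n := by exact_mod_cast hn2
  have hLz' : max (max LO LD) L₁ ≤ n * z.im := by
    push_cast at hLz
    nlinarith
  have ht := hL n z.im ((le_max_right _ _).trans hLz')
  have hsc := lm_tt_pow (n := n) hz.le
  have hA : Adm M' t₀ n₀ s z (Fintype.card (Fin n)) (tt n z.im) := by
    rw [Fintype.card_fin]
    exact lmd_adm hκ hs0 hs1 hM hB hz hzM hn ((le_max_left _ _).trans ((le_max_left _ _).trans ht))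
  set t := tt n z.im
  have ht2 : 2 ≤ t := ht₀.trans hA.t0
  have := hK.law_le q π (Fin n)
  have := hK.law_le q π (Fin (n + 2))
  have hO' := h1 z hB hz ((le_max_left _ _).trans ((le_max_left _ _).trans hLz')) hmz hzM
  have hD' := h2 z hB (hzz.trans ((min_le_left _ _).trans (min_le_right _ _))) hz
    ((le_max_right _ _).trans ((le_max_left _ _).trans hLz')) hmz hzM
  have mO : MeasurableSet {c : Cfg (Fin n) q | Om0 s z T₁ θ₀ c} :=
    measurableSet_le (hK.meas_bad q s _ _ _ _) measurable_const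
  -- the four observables
  set f₁ : Cfg (Fin n) q → ℝ := fun c => bad s z (K * t ^ 4) (1 / 50) c with hf₁
  set f₂ : Cfg (Fin n) q → ℝ := fun c => frac fun h => ¬ dec s z e c h with hf₂
  set f₃ : Cfg (Fin n) q → ℝ := fun c => DD s z z₀ c with hf₃
  set f₄ : Cfg (Fin n) q → ℝ := fun c => frac fun h : HE (Fin n) q => T' < hyp (mT s z₀ (view c h))
    with hf₄
  have m₁ : Measurable f₁ := hK.meas_bad q s _ _ _ _
  have m₂ : Measurable f₂ := lm_meas_frac fun h => (hK.meas_dec q s z e _ h).compl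
  have mu : Measurable (uu q z) := by unfold uu; fun_prop
  have m₃ : Measurable f₃ := lm_meas_avg fun h => ((mu.comp (hK.meas_Yc q s z _ h)).sub
    (mu.comp (hcont.measurable.comp (hK.meas_view q _ h)))).norm.pow_const 2
  have mh : Measurable hyp := by unfold hyp; fun_prop
  have m₄ : Measurable f₄ := lm_meas_frac fun h => measurableSet_lt measurable_const
    (mh.comp (hcont.measurable.comp (hK.meas_view q _ h)))
  have b₃ : ∀ c, f₃ c ≤ 4 * Λ ^ 2 := fun c => p_avg_le (by positivity) fun h => by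
    have a1 := (hU z hz.le hB).2.2.1 _ (hZ.pos q s z _ c h hz).1
    have a2 := (hU z hz.le hB).2.2.1 _ (hrec (view c h)).1
    calc _ ≤ (Λ + Λ) ^ 2 := by gcongr; exact (norm_sub_le _ _).trans (add_le_add a1 a2)
      _ = _ := by ring
  have n₃ : ∀ c, 0 ≤ f₃ c := fun c => p_avg_nonneg fun _ => sq_nonneg _
  have hC1 : ∀ k : ℕ, k ≠ 0 → C / t ^ k ≤ |C| / t := fun k hk => by
    calc C / t ^ k ≤ |C| / t ^ k := by gcongr; exact le_abs_self _
      _ ≤ _ := by gcongr; exact le_self_pow₀ (by linarith) hk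
  have e₁ : ∫ c, f₁ c ∂cfgLaw (Fin n) q π ≤ |C| / t + a :=
    (lm_unweight _ mO m₁ (fun _ => p_frac_nonneg _) (fun _ => p_frac_le_one _) ha.le hO').trans
      (add_le_add ((hP.tail π s z _ t hA).trans (hC1 _ (by norm_num))) le_rfl)
  have e₂ : ∫ c, f₂ c ∂cfgLaw (Fin n) q π ≤ |C| / t + a := by
    refine (lm_unweight _ mO m₂ (fun _ => p_frac_nonneg _) (fun _ => p_frac_le_one _) ha.le
      hO').trans (add_le_add ((hP.dec π s z _ t e hA ?_).trans ?_) le_rfl)
    · refine inv_le_of_inv_le₀ he (((le_max_right _ _).trans ((le_max_left _ _).trans ht)).trans ?_)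
      exact le_self_pow₀ (by linarith) (by norm_num)
    · gcongr; exact le_abs_self _
  have e₃ : ∫ c, f₃ c ∂cfgLaw (Fin n) q π ≤ a + 4 * Λ ^ 2 * a :=
    lms_exp _ m₃ n₃ b₃ (by positivity) ha.le ha.le hD' fun c hc => not_lt.1 hc
  have e₄ : ∫ c, f₄ c ∂cfgLaw (Fin n) q π ≤ (|B₀| + 1) / T' ^ 2 + 1 * a := by
    refine lms_exp _ m₄ (fun _ => p_frac_nonneg _) (fun _ => p_frac_le_one _) zero_le_one
      (by positivity) ha.le h3 fun c hc => ?_
    have a1 : z₀.im ≤ M + 1 := by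
      have b1 := (neg_abs_le _).trans' (neg_le_neg (Complex.abs_im_le_norm (z - z₀)))
      rw [sub_im] at b1
      linarith [hzz.trans (min_le_right _ _)]
    have a2 := hB₀ z₀ hz₀ a1 hB0
    refine (p_frac_mono (p' := fun h => T' ^ 2 < hyp (mT s z₀ (view c h)) ^ 2) fun h hh =>
      pow_lt_pow_left₀ hh (by linarith) two_ne_zero).trans
      ((lm_frac_markov (fun _ => sq_nonneg _) (by positivity)).trans ?_)
    gcongr
    simp only [Set.mem_ofPred_eq, not_lt] at hc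
    linarith [le_abs_self B₀]
  have i₁ := lr_integrable (μ := cfgLaw (Fin n) q π) m₁ (C := 1) fun c =>
    (abs_of_nonneg (p_frac_nonneg _)).trans_le (p_frac_le_one _)
  have i₂ := lr_integrable (μ := cfgLaw (Fin n) q π) m₂ (C := 1) fun c =>
    (abs_of_nonneg (p_frac_nonneg _)).trans_le (p_frac_le_one _)
  have i₃ := lr_integrable (μ := cfgLaw (Fin n) q π) m₃ (C := 4 * Λ ^ 2) fun c => by
    rw [abs_of_nonneg (n₃ c)]; exact b₃ c
  have i₄ := lr_integrable (μ := cfgLaw (Fin n) q π) m₄ (C := 1) fun c =>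
    (abs_of_nonneg (p_frac_nonneg _)).trans_le (p_frac_le_one _)
  have hy : (K * t ^ 4) ^ 3 / (Fintype.card (Fin n) * z.im) ≤ K ^ 3 / t := by
    rw [Fintype.card_fin, ← hsc]
    calc (K * t ^ 4) ^ 3 / (4 * t ^ 200) = K ^ 3 / (4 * t ^ 188) := by field_simp
      _ ≤ _ := by
        gcongr
        nlinarith [le_self_pow₀ (by linarith : 1 ≤ t) (by norm_num : 188 ≠ 0)]
  have hg := lms_gE hK π (R := R)
    (f := fun c α w => ind (SBad s z z₀ ε (glueC c α w) (oH (Fin n) 0)))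
    (g := fun c => Cd * (f₁ c + f₂ c + f₃ c + K ^ 3 / t) + Q * f₄ c)
    (((((i₁.add i₂).add i₃).add (integrable_const _)).const_mul _).add (i₄.const_mul _))
    (fun _ _ _ => lm_ind_nonneg _) fun c w => by
      refine (hR z (Fin n) c w (K * t ^ 4) hz hzM hB
        (hzz.trans ((min_le_left _ _).trans (min_le_left _ _))) (by positivity)).trans ?_
      rw [← hQ]
      unfold lr_vc
      gcongr
  have i₁₂ : Integrable (fun c => f₁ c + f₂ c) (cfgLaw (Fin n) q π) := i₁.add i₂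
  have i₁₃ : Integrable (fun c => f₁ c + f₂ c + f₃ c) (cfgLaw (Fin n) q π) := i₁₂.add i₃
  have i₁₄ : Integrable (fun c => f₁ c + f₂ c + f₃ c + K ^ 3 / t) (cfgLaw (Fin n) q π) :=
    i₁₃.add (integrable_const _)
  rw [integral_add (i₁₄.const_mul _) (i₄.const_mul _), integral_const_mul, integral_const_mul,
    integral_add i₁₃ (integrable_const _), integral_add i₁₂ i₃, integral_add i₁ i₂] at hg
  have e₅ := lr_integral_const_le (cfgLaw (Fin n) q π) (C := K ^ 3 / t) (by positivity)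
  have e₆ : (gE (q := q) π (Fin n) fun c α w => ind (lr_vc R c α w)) ≤ Cv / n := by
    have := (hCv (Fin n)).2 π
    rwa [Fintype.card_fin] at this
  have hx := (hCx π (Fin n) (Fin (n + 2)) _ (lm_sbad_ok hK hs0 hs1 z hz₀ ε)
    (by rw [Fintype.card_fin]; omega) (by simp) fun W _ _ c h => by
      rw [abs_of_nonneg (lm_ind_nonneg _)]; exact lm_ind_le_one _).1
  have e₇ : (avg fun i : Fin (q + 1) => gE π (Fin n) fun c α w =>
      ind (SBad s z z₀ ε (glueC c α w) ((oH (Fin n) i).1, 0))) =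
      gE (q := q) π (Fin n) fun c α w => ind (SBad s z z₀ ε (glueC c α w) (oH (Fin n) 0)) :=
    p_avg_const (ι := Fin (q + 1))
      (gE (q := q) π (Fin n) fun c α w => ind (SBad s z z₀ ε (glueC c α w) (oH (Fin n) 0)))
  rw [e₇, Fintype.card_fin] at hx
  have mS : Measurable fun c : Cfg (Fin (n + 2)) q => frac (SBad s z z₀ ε c) :=
    lm_meas_frac fun h => lms_meas_sbad hK hs0 hs1 z hz₀ ε _ h
  have e₈ : ∫ c, ind True * frac (SBad s z z₀ ε c) ∂cfgLaw (Fin (n + 2)) q π ≤ ε ^ 2 := by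
    have a1 : ∀ c : Cfg (Fin (n + 2)) q, ind True * frac (SBad s z z₀ ε c) =
        avg fun h : HE (Fin (n + 2)) q => ind (SBad s z z₀ ε c (h.1, 0)) := fun c => by
      rw [lm_ind_pos trivial, one_mul, lr_frac_eq]
      simp only [← lm_sbad_rot]
    simp only [a1]
    have a2 : Cd * (2 * |C| + K ^ 3) / t ≤ ε ^ 2 / 4 := by
      have b1 := (le_max_right _ _).trans ht
      rw [div_le_iff₀ (by positivity)] at b1
      rw [div_le_iff₀ (by positivity)]
      linarith
    have a3 : (Cx + Cv) / n ≤ ε ^ 2 / 4 := by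
      rw [div_le_iff₀ (by positivity)] at hnC
      rw [div_le_iff₀ (by positivity)]
      linarith
    have a4 := mul_le_mul_of_nonneg_left (add_le_add (add_le_add (add_le_add e₁ e₂) e₃) e₅) hCd
    have a5 := mul_le_mul_of_nonneg_left e₄ (by linarith : 0 ≤ Q)
    have a6 : Cd * (|C| / t + a + (|C| / t + a) + (a + 4 * Λ ^ 2 * a) + K ^ 3 / t) +
        Q * ((|B₀| + 1) / T' ^ 2 + 1 * a) = Cd * (2 * |C| + K ^ 3) / t +
        (Cd * (3 + 4 * Λ ^ 2) + Q) * a + Q * ((|B₀| + 1) / T' ^ 2) := by ring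
    rw [add_div] at a3
    linarith [(abs_le.1 hx).2]
  have h5 := lm_markov _ (p := fun _ => True) MeasurableSet.univ mS (fun _ => p_frac_nonneg _)
    (fun _ => p_frac_le_one _) hε e₈
  refine le_trans (measure_mono fun c hc => ?_) (h5.trans (le_of_eq ?_))
  · exact ⟨trivial, hc⟩
  · congr 1; field_simp

end Crest.Agent.R166
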