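import Crest.Agent.R166.LM.Emp

/-!
# Row 166, block LM: one step of the induction
-/

set_option autoImplicit false

open MeasureTheory ProbabilityTheory Filter Topology Complex
open scoped ENNReal NNReal BigOperators Matrix

noncomputable section

namespace Crest.Agent.R166

theorem st_abs_avg {ι : Type} [Fintype ι] {f : ι → ℝ} (h : ∀ i, |f i| ≤ 1) : |avg f| ≤ 1 := by
  refine abs_le.2 ⟨?_, p_avg_le zero_le_one fun i => (abs_le.1 (h i)).2⟩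
  have h1 : avg (fun i => (-1) * f i) ≤ 1 :=
    p_avg_le zero_le_one fun i => by linarith [(abs_le.1 (h i)).1]
  rw [p_avg_mul] at h1
  linarith

theorem st_meas_uu (q : ℕ) (z : ℂ) : Measurable (uu q z) := by
  unfold uu
  exact (measurable_id.sub measurable_const).div (measurable_id.sub measurable_const)

/-- the test function attached to `g` -/
def stF (q : ℕ) (z : ℂ) (g : ℂ → ℝ) (Y : ℂ) : ℝ := if 0 < Y.im then g (uu q z Y) else 0

theorem st_meas_F (q : ℕ) (z : ℂ) {g : ℂ → ℝ} (hg : Measurable g) : Measurable (stF q z g) :=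
  Measurable.ite (measurableSet_lt measurable_const Complex.measurable_im)
    (hg.comp (st_meas_uu q z)) measurable_const

theorem st_test {q : ℕ} {z : ℂ} {Λ : ℝ} (hΛ : 1 ≤ Λ) (h1 : ∀ Y : ℂ, 0 < Y.im → ‖uu q z Y‖ ≤ Λ)
    (h2 : ∀ Y Y' : ℂ, 0 < Y.im → 0 < Y'.im → ‖uu q z Y - uu q z Y'‖ ^ 2 ≤ Λ * gam Y Y')
    {g : ℂ → ℝ} (hg : Measurable g) (hg1 : ∀ w, ‖w‖ ≤ Λ → |g w| ≤ 1)
    (hg2 : ∀ w w', ‖w‖ ≤ Λ → ‖w'‖ ≤ Λ → |g w - g w'| ≤ 2 * (‖w - w'‖ / Λ)) :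
    TestF 2 0 0 (fun p : ℂ × Env q => stF q z g p.1) := by
  refine ⟨(st_meas_F q z hg).comp measurable_fst, fun p => ?_, fun p p' hp hp' _ => ?_⟩
  · simp only [stF]
    split_ifs with h
    · exact hg1 _ (h1 _ h)
    · simp
  · simp only [stF, hp, hp', if_true, add_zero]
    refine (hg2 _ _ (h1 _ hp) (h1 _ hp')).trans ?_
    have g1 : 0 ≤ gam p.1 p'.1 := by unfold gam; positivity
    have h3 := h2 _ _ hp hp'
    have h4 : ‖uu q z p.1 - uu q z p'.1‖ / Λ ≤ √(gam p.1 p'.1) := by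
      refine Real.le_sqrt_of_sq_le ?_
      rw [div_pow, div_le_iff₀ (by positivity)]
      refine h3.trans ?_
      have : Λ ≤ Λ ^ 2 := by nlinarith
      nlinarith
    linarith

theorem st_RA (hZ : StZC) {q : ℕ} (s : ℝ) {z : ℂ} (hz : 0 < z.im) (g : ℂ → ℝ) {V : Type} [Fintype V]
    [DecidableEq V] (c : Cfg V q) :
    RA s z (fun p : ℂ × Env q => stF q z g p.1) c = ∫ Y, g (uu q z Y) ∂emp (Yc s z c) := by
  rw [lm_emp_int]
  unfold RA
  congr 1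
  funext h
  simp only [stF, (hZ.pos q s z V c h hz).1, if_true]

theorem st_RB (hZ : StZC) {q : ℕ} (π : Measure II) [IsProbabilityMeasure π] (s : ℝ) {z : ℂ}
    (hz : 0 < z.im) {g : ℂ → ℝ} (hg : Measurable g) (hb : ∀ Y, |stF q z g Y| ≤ 1) {V : Type}
    [Fintype V] [DecidableEq V] [Nonempty V] (c : Cfg V q) :
    RB π s z (fun p : ℂ × Env q => stF q z g p.1) c =
      ∫ Y, g (uu q z Y) ∂T1 q π s z (emp (Yc s z c)) := by
  have h1 := lm_T1 q π s z (Yc s z c) (st_meas_F q z hg) hb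
  have h2 := (lm_T1_ae q π s hz (Y := Yc s z c) fun h => (hZ.pos q s z V c h hz).1).2
  calc _ = ∫ Y, stF q z g Y ∂T1 q π s z (emp (Yc s z c)) := h1.symm
    _ = _ := integral_congr_ae (h2.mono fun Y hY => by simp only [stF, hY, if_true])

theorem st_cheb (hK : StKit) {q : ℕ} (π : Measure II) [IsProbabilityMeasure π] (s : ℝ) (z : ℂ)
    (T₁ θ₀ : ℝ) (V : Type) [Fintype V] [DecidableEq V] {F : ℂ × Env q → ℝ} (hF : TestF 2 0 0 F)
    {b a : ℝ} (ha : 0 < a)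
    (hb : ∫ c, ind (Om0 s z T₁ θ₀ c) * (RA s z F c - RB π s z F c) ^ 2 ∂cfgLaw V q π ≤ b) :
    cfgLaw V q π {c | Om0 s z T₁ θ₀ c ∧ a < (RA s z F c - RB π s z F c) ^ 2} ≤
      ENNReal.ofReal (b / a) := by
  have := hK.law_le q π V
  refine lm_markov (cfgLaw V q π) (measurableSet_le (hK.meas_bad q s z _ _ V) measurable_const)
    (((hK.meas_RA q s z V F hF.1).sub (hK.meas_RB q π s z V F hF.1)).pow_const 2) (B := 4)
    (fun c => sq_nonneg _) (fun c => ?_) ha hb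
  have h1 : |RA s z F c| ≤ 1 := st_abs_avg fun h => hF.2.1 _
  have h2 : |RB π s z F c| ≤ 1 := by
    have := norm_integral_le_of_norm_le_const (μ := π) (C := 1)
      (f := fun a => avg fun h : Fin q → HE V q =>
        F (Psi s z a (fun j => Yc s z c (h j)), cons a fun j => view c (h j)))
      (ae_of_all _ fun a => st_abs_avg fun h => hF.2.1 _)
    simpa [RB] using this
  obtain ⟨h3, h4⟩ := abs_le.1 h1
  obtain ⟨h5, h6⟩ := abs_le.1 h2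
  change (RA s z F c - RB π s z F c) ^ 2 ≤ 4
  nlinarith

theorem st_int_uu {q : ℕ} {z : ℂ} {Λ : ℝ} (h1 : ∀ Y : ℂ, 0 < Y.im → ‖uu q z Y‖ ≤ Λ)
    (ν : Measure ℂ) [IsProbabilityMeasure ν] (hν : ∀ᵐ Y ∂ν, 0 < Y.im) :
    (∫ Y, uu q z Y ∂ν).re = ∫ Y, (uu q z Y).re ∂ν ∧ (∫ Y, uu q z Y ∂ν).im = ∫ Y, (uu q z Y).im ∂ν := by
  have hi : Integrable (uu q z) ν :=
    Integrable.of_bound (st_meas_uu q z).aestronglyMeasurable Λ (hν.mono fun Y hY => h1 Y hY)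
  exact ⟨(Complex.reCLM.integral_comp_comm hi).symm, (Complex.imCLM.integral_comp_comm hi).symm⟩

/-- `x₁, C₁` from `StC1`, `Λ` from `StC0`. Test functions (with `R = 0`, `ε₂ = 0`) `F(Y,β) = f Y`,
`f Y = if 0 < Im Y then re (uu Y)/Λ | im (uu Y)/Λ | ‖uu Y‖²/Λ² else 0`; `RA = ∫ f d(emp Yc)`,
`RB = ∫ f dT1(emp Yc)` (`lm_T1`, `lm_T1_ae`). On `Pre` and `|RA - RB| ≤ θ'` for the three functions
(`θ'` small with `C₁ (2Λ²θ') ≤ x₀/2`) `StC1` gives `XX ≤ x₀`. Chebyshev (`lm_markov`, `Pack.rde`,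
`lm_inv_n`), and Markov with `Pack.dec` (`e = 1/400 ≥ t^{-20}`). Empty `V` is excluded by `Adm.scale`. -/
theorem lm_step (hK : StKit) (hZ : StZC) (hC0 : StC0) (hC1 : StC1) (q : ℕ) (hq : 2 ≤ q) {κ : ℝ}
    (hκ : 0 < κ) : ∃ x₁ C₁ : ℝ, 0 < x₁ ∧ 0 ≤ C₁ ∧ ∀ (M T₁ θ₀ C K K₂ t₀ : ℝ) (n₀ : ℕ),
      Pack q M T₁ θ₀ C K K₂ t₀ n₀ → 2 ≤ t₀ → ∀ x₀ : ℝ, 0 < x₀ → ∃ C' : ℝ, 0 ≤ C' ∧
        ∀ (π : Measure II) [IsProbabilityMeasure π] (s : ℝ) (z : ℂ) (V : Type) [Fintype V]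
          [DecidableEq V] (t : ℝ), Adm M t₀ n₀ s z (Fintype.card V) t → Bulk q κ z.re →
          s ≤ x₁ → C₁ * s ^ 2 ≤ x₀ / 2 →
          cfgLaw V q π {c | Pre s z T₁ θ₀ x₁ c ∧ ¬ Post s z x₀ c} ≤ ENNReal.ofReal (C' / t) := by
  obtain ⟨x₁, C₁, hx₁, hC1'⟩ := hC1 q κ hq hκ
  obtain ⟨Λ, hΛ, hC0', -⟩ := hC0 q κ hq hκ
  have hΛ0 : 0 < Λ := by linarith
  refine ⟨x₁, max C₁ 0, hx₁, le_max_right _ _, ?_⟩
  intro M T₁ θ₀ C K K₂ t₀ n₀ hP ht₀ x₀ hx₀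
  set C₂ : ℝ := max C₁ 0 with hC₂
  have hC₂0 : 0 ≤ C₂ := le_max_right _ _
  set θ : ℝ := min 1 (x₀ / (2 * (C₂ + 1))) with hθ
  have hθ0 : 0 < θ := lt_min one_pos (by positivity)
  have hθ1 : θ ≤ 1 := min_le_left _ _
  have hθ2 : C₂ * θ ≤ x₀ / 2 := by
    have h1 : θ ≤ x₀ / (2 * (C₂ + 1)) := min_le_right _ _
    rw [le_div_iff₀ (by positivity)] at h1
    nlinarith
  set θ' : ℝ := θ / (2 * Λ ^ 2) with hθ'
  have hθ'0 : 0 < θ' := by positivity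
  obtain ⟨CR, hCR⟩ := hP.rde 0
  set D : ℝ := 3 * max C 0 + max CR 0 * max M 0 with hD
  have hD0 : 0 ≤ D := by positivity
  refine ⟨3 * (D / θ' ^ 2) + max C 0 / x₀, by positivity, ?_⟩
  intro π _ s z V _ _ t hA hB hs hs2
  have hz := hA.im
  have ht : 2 ≤ t := ht₀.trans hA.t0
  have ht0 : 0 < t := by linarith
  have hV : Nonempty V := by
    rw [← Fintype.card_pos_iff]
    by_contra h0
    have h1 : Fintype.card V = 0 := by omega
    have h2 := hA.scale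
    rw [h1] at h2
    have : 0 < t ^ 200 := by positivity
    simp only [Nat.cast_zero, zero_mul] at h2
    linarith
  have hfin := hK.law_le q π V
  obtain ⟨-, -, hu1, hu2, -⟩ := hC0' z hz.le hB
  -- the three test functions
  let g₁ : ℂ → ℝ := fun w => w.re / Λ
  let g₂ : ℂ → ℝ := fun w => w.im / Λ
  let g₃ : ℂ → ℝ := fun w => ‖w‖ ^ 2 / Λ ^ 2
  have m₁ : Measurable g₁ := Complex.measurable_re.div_const _
  have m₂ : Measurable g₂ := Complex.measurable_im.div_const _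
  have m₃ : Measurable g₃ := (measurable_norm.pow_const 2).div_const _
  have t₁ : TestF 2 0 0 (fun p : ℂ × Env q => stF q z g₁ p.1) := by
    refine st_test hΛ hu1 hu2 m₁ (fun w hw => ?_) fun w w' _ _ => ?_
    · simp only [g₁]
      rw [abs_div, abs_of_pos hΛ0, div_le_one hΛ0]
      exact (Complex.abs_re_le_norm w).trans hw
    · simp only [g₁]
      rw [← sub_div, abs_div, abs_of_pos hΛ0, ← Complex.sub_re]
      have h1 : |(w - w').re| / Λ ≤ ‖w - w'‖ / Λ :=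
        div_le_div_of_nonneg_right (Complex.abs_re_le_norm _) hΛ0.le
      have h2 : 0 ≤ ‖w - w'‖ / Λ := by positivity
      linarith
  have t₂ : TestF 2 0 0 (fun p : ℂ × Env q => stF q z g₂ p.1) := by
    refine st_test hΛ hu1 hu2 m₂ (fun w hw => ?_) fun w w' _ _ => ?_
    · simp only [g₂]
      rw [abs_div, abs_of_pos hΛ0, div_le_one hΛ0]
      exact (Complex.abs_im_le_norm w).trans hw
    · simp only [g₂]
      rw [← sub_div, abs_div, abs_of_pos hΛ0, ← Complex.sub_im]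
      have h1 : |(w - w').im| / Λ ≤ ‖w - w'‖ / Λ :=
        div_le_div_of_nonneg_right (Complex.abs_im_le_norm _) hΛ0.le
      have h2 : 0 ≤ ‖w - w'‖ / Λ := by positivity
      linarith
  have t₃ : TestF 2 0 0 (fun p : ℂ × Env q => stF q z g₃ p.1) := by
    refine st_test hΛ hu1 hu2 m₃ (fun w hw => ?_) fun w w' hw hw' => ?_
    · simp only [g₃]
      rw [abs_of_nonneg (by positivity), div_le_one (by positivity)]
      exact pow_le_pow_left₀ (norm_nonneg _) hw 2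
    · simp only [g₃]
      rw [← sub_div, abs_div, abs_of_pos (by positivity : 0 < Λ ^ 2), sq_sub_sq, abs_mul,
        abs_of_nonneg (by positivity : 0 ≤ ‖w‖ + ‖w'‖), div_le_iff₀ (by positivity)]
      have h1 : |‖w‖ - ‖w'‖| ≤ ‖w - w'‖ := abs_norm_sub_norm_le _ _
      calc (‖w‖ + ‖w'‖) * |‖w‖ - ‖w'‖| ≤ (Λ + Λ) * ‖w - w'‖ := by gcongr
        _ = _ := by field_simp; ring
  have hn : (1 : ℝ) / Fintype.card V ≤ M / t :=
    lm_inv_n hz ((le_abs_self _).trans ((Complex.abs_im_le_norm z).trans hA.norm)) (by linarith)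
      hA.scale
  have hch : ∀ F : ℂ × Env q → ℝ, TestF 2 0 0 F →
      cfgLaw V q π {c | Om0 s z T₁ θ₀ c ∧ θ' ^ 2 < (RA s z F c - RB π s z F c) ^ 2} ≤
        ENNReal.ofReal (D / θ' ^ 2 / t) := by
    intro F hF
    have h1 := hCR π s z V t 2 0 F hA (by norm_num) le_rfl hF
    have h2 : C * ((1 + 2) / t + 0) + CR / Fintype.card V ≤ D / t := by
      have a1 : C * ((1 + 2) / t + 0) ≤ max C 0 * ((1 + 2) / t + 0) :=
        mul_le_mul_of_nonneg_right (le_max_left _ _) (by positivity)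
      have a2 : CR / Fintype.card V ≤ max CR 0 * (max M 0 / t) := by
        calc CR / Fintype.card V ≤ max CR 0 / Fintype.card V :=
              div_le_div_of_nonneg_right (le_max_left _ _) (Nat.cast_nonneg _)
          _ = max CR 0 * (1 / Fintype.card V) := by ring
          _ ≤ max CR 0 * (max M 0 / t) := by
              refine mul_le_mul_of_nonneg_left (hn.trans ?_) (le_max_right _ _)
              exact div_le_div_of_nonneg_right (le_max_left _ _) ht0.le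
      calc _ ≤ max C 0 * ((1 + 2) / t + 0) + max CR 0 * (max M 0 / t) := add_le_add a1 a2
        _ = D / t := by rw [hD]; ring
    have h3 := st_cheb hK π s z T₁ θ₀ V hF (a := θ' ^ 2) (by positivity) (h1.trans h2)
    rwa [div_right_comm] at h3
  have hdec : cfgLaw V q π {c | Om0 s z T₁ θ₀ c ∧ x₀ < frac fun h => ¬ dec s z (1 / 400) c h} ≤
      ENNReal.ofReal (max C 0 / x₀ / t) := by
    have h0 : (t ^ 20)⁻¹ ≤ 1 / 400 := by
      rw [one_div]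
      refine inv_anti₀ (by norm_num) ?_
      calc (400 : ℝ) ≤ 2 ^ 20 := by norm_num
        _ ≤ t ^ 20 := pow_le_pow_left₀ (by norm_num) ht 20
    have h1 := hP.dec π s z V t (1 / 400) hA h0
    have h2 : C / t ≤ max C 0 / t := div_le_div_of_nonneg_right (le_max_left _ _) ht0.le
    have h3 := lm_markov (cfgLaw V q π) (p := fun c => Om0 s z T₁ θ₀ c)
      (measurableSet_le (hK.meas_bad q s z _ _ V) measurable_const)
      (lm_meas_frac (p := fun c h => ¬ dec s z (1 / 400) c h)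
        fun h => (hK.meas_dec q s z (1 / 400) V h).compl)
      (fun c => p_frac_nonneg _) (fun c => p_frac_le_one _) hx₀ (h1.trans h2)
    rwa [div_right_comm] at h3
  have key : ∀ c : Cfg V q, Pre s z T₁ θ₀ x₁ c →
      (RA s z (fun p => stF q z g₁ p.1) c - RB π s z (fun p => stF q z g₁ p.1) c) ^ 2 ≤ θ' ^ 2 →
      (RA s z (fun p => stF q z g₂ p.1) c - RB π s z (fun p => stF q z g₂ p.1) c) ^ 2 ≤ θ' ^ 2 →
      (RA s z (fun p => stF q z g₃ p.1) c - RB π s z (fun p => stF q z g₃ p.1) c) ^ 2 ≤ θ' ^ 2 →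
      XX s z c ≤ x₀ := by
    intro c hc k₁ k₂ k₃
    have hY : ∀ h, 0 < (Yc s z c h).im := fun h => (hZ.pos q s z V c h hz).1
    have hν := lm_emp_prob (Yc s z c)
    have hνa : ∀ᵐ Y ∂emp (Yc s z c), 0 < Y.im := lm_emp_ae _ hY
    obtain ⟨hμ, hμa⟩ := lm_T1_ae q π s hz hY
    rw [st_RA hZ s hz, st_RB hZ π s hz m₁ fun Y => t₁.2.1 (Y, default)] at k₁
    rw [st_RA hZ s hz, st_RB hZ π s hz m₂ fun Y => t₂.2.1 (Y, default)] at k₂
    rw [st_RA hZ s hz, st_RB hZ π s hz m₃ fun Y => t₃.2.1 (Y, default)] at k₃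
    have l₁ := abs_le_of_sq_le_sq k₁ hθ'0.le
    have l₂ := abs_le_of_sq_le_sq k₂ hθ'0.le
    have l₃ := abs_le_of_sq_le_sq k₃ hθ'0.le
    simp only [g₁, g₂, g₃, integral_div] at l₁ l₂ l₃
    rw [← sub_div, abs_div, abs_of_pos hΛ0, div_le_iff₀ hΛ0] at l₁ l₂
    rw [← sub_div, abs_div, abs_of_pos (by positivity : 0 < Λ ^ 2),
      div_le_iff₀ (by positivity)] at l₃
    have e0 : θ' * Λ ^ 2 = θ / 2 := by rw [hθ']; field_simp
    have e1 : θ' * Λ ≤ θ / 2 := by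
      rw [← e0]
      exact mul_le_mul_of_nonneg_left (by nlinarith) hθ'0.le
    have hXX : ∫ Y, ‖uu q z Y‖ ^ 2 ∂emp (Yc s z c) = XX s z c := lm_emp_int _ _
    obtain ⟨r1, r2⟩ := st_int_uu hu1 _ hνa
    obtain ⟨r3, r4⟩ := st_int_uu hu1 _ hμa
    have h5 := hC1' z s θ π (emp (Yc s z c)) hz hB hA.s0 hs hθ0.le hθ1 hνa (hXX ▸ hc.2)
      (by
        refine (Complex.norm_le_abs_re_add_abs_im _).trans ?_
        rw [Complex.sub_re, Complex.sub_im, r1, r2, r3, r4]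
        linarith)
      (by linarith)
    rw [hXX] at h5
    have h6 : C₁ * (s ^ 2 + θ) ≤ C₂ * (s ^ 2 + θ) :=
      mul_le_mul_of_nonneg_right (le_max_left _ _) (by positivity)
    nlinarith
  have hsub : {c : Cfg V q | Pre s z T₁ θ₀ x₁ c ∧ ¬ Post s z x₀ c} ⊆
      (({c | Om0 s z T₁ θ₀ c ∧ θ' ^ 2 < (RA s z (fun p => stF q z g₁ p.1) c -
          RB π s z (fun p => stF q z g₁ p.1) c) ^ 2} ∪
        {c | Om0 s z T₁ θ₀ c ∧ θ' ^ 2 < (RA s z (fun p => stF q z g₂ p.1) c -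
          RB π s z (fun p => stF q z g₂ p.1) c) ^ 2}) ∪
        {c | Om0 s z T₁ θ₀ c ∧ θ' ^ 2 < (RA s z (fun p => stF q z g₃ p.1) c -
          RB π s z (fun p => stF q z g₃ p.1) c) ^ 2}) ∪
        {c | Om0 s z T₁ θ₀ c ∧ x₀ < frac fun h => ¬ dec s z (1 / 400) c h} := by
    rintro c ⟨hc, hn⟩
    by_contra hcon
    simp only [Set.mem_union, Set.mem_ofPred_eq, hc.1, true_and, not_or, not_lt] at hcon
    exact hn ⟨key c hc hcon.1.1.1 hcon.1.1.2 hcon.1.2, hcon.2⟩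
  refine (measure_mono hsub).trans ?_
  refine (measure_union_le _ _).trans ?_
  refine (add_le_add ((measure_union_le _ _).trans (add_le_add ((measure_union_le _ _).trans
    (add_le_add (hch _ t₁) (hch _ t₂))) (hch _ t₃))) hdec).trans (le_of_eq ?_)
  have p1 : 0 ≤ D / θ' ^ 2 / t := by positivity
  have p2 : 0 ≤ max C 0 / x₀ / t := by positivity
  rw [← ENNReal.ofReal_add p1 p1, ← ENNReal.ofReal_add (by positivity) p1,
    ← ENNReal.ofReal_add (by positivity) p2]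
  congr 1
  ring

theorem st_ratio {a b : ℝ} (ha : 0 ≤ a) (_hb : 0 ≤ b) (h : (a - b) ^ 2 ≤ (1 / 10) ^ 2 * (a * b)) :
    a ≤ 5 / 4 * b := by
  by_contra hcon
  push Not at hcon
  nlinarith

theorem st_hyp {Y Y' : ℂ} (hY : 0 < Y.im) (hY' : 0 < Y'.im) {γ : ℝ} (hγ0 : 0 ≤ γ) (hγ : γ ≤ 1 / 10)
    (h : gam Y' Y ≤ γ ^ 2) : hyp Y' ≤ 2 * hyp Y := by
  unfold gam at h
  rw [div_le_iff₀ (by positivity)] at h
  have h0 : ‖Y' - Y‖ ^ 2 ≤ (1 / 10) ^ 2 * (Y'.im * Y.im) :=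
    h.trans (mul_le_mul_of_nonneg_right (pow_le_pow_left₀ hγ0 hγ 2) (by positivity))
  have h1 : Y.im ≤ 5 / 4 * Y'.im := by
    refine st_ratio hY.le hY'.le ?_
    have a1 : |(Y' - Y).im| ≤ ‖Y' - Y‖ := Complex.abs_im_le_norm _
    have a2 : (Y' - Y).im ^ 2 ≤ ‖Y' - Y‖ ^ 2 := by
      rw [← sq_abs]; exact pow_le_pow_left₀ (abs_nonneg _) a1 2
    rw [Complex.sub_im] at a2
    nlinarith
  have h2 : ‖Y'‖ ≤ 5 / 4 * ‖Y‖ := by
    refine st_ratio (norm_nonneg _) (norm_nonneg _) ?_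
    have a1 : |‖Y'‖ - ‖Y‖| ≤ ‖Y' - Y‖ := abs_norm_sub_norm_le _ _
    have a2 : (‖Y'‖ - ‖Y‖) ^ 2 ≤ ‖Y' - Y‖ ^ 2 := by
      rw [← sq_abs]; exact pow_le_pow_left₀ (abs_nonneg _) a1 2
    have a3 : Y'.im ≤ ‖Y'‖ := (le_abs_self _).trans (Complex.abs_im_le_norm _)
    have a4 : Y.im ≤ ‖Y‖ := (le_abs_self _).trans (Complex.abs_im_le_norm _)
    have a5 : Y'.im * Y.im ≤ ‖Y'‖ * ‖Y‖ := mul_le_mul a3 a4 hY.le (norm_nonneg _)
    linarith
  unfold hyp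
  have h3 : 1 + ‖Y'‖ ^ 2 ≤ 25 / 16 * (1 + ‖Y‖ ^ 2) := by
    have := pow_le_pow_left₀ (norm_nonneg _) h2 2
    nlinarith
  rw [← mul_div_assoc, div_le_div_iff₀ hY' hY]
  have h4 : 0 ≤ 1 + ‖Y‖ ^ 2 := by positivity
  calc (1 + ‖Y'‖ ^ 2) * Y.im ≤ (25 / 16 * (1 + ‖Y‖ ^ 2)) * (5 / 4 * Y'.im) :=
        mul_le_mul h3 h1 hY.le (by positivity)
    _ = 125 / 64 * ((1 + ‖Y‖ ^ 2) * Y'.im) := by ring
    _ ≤ 2 * ((1 + ‖Y‖ ^ 2) * Y'.im) := mul_le_mul_of_nonneg_right (by norm_num) (by positivity)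
    _ = _ := by ring

/-- Deterministic. `u₀, T₀` from `StC0` (strip `Im ≤ M`), `T₂ = 2 T₀`; `‖z - z'‖ ≤ γ Im z'`, `StZC.zc`:
`gam ≤ γ²` gives `hyp Y' ≤ 2 hyp Y` (`hyp Y = 1/Im Y + 1/Im(-1/Y)`, `gam` invariant under `-1/·`),
`dec (1/400 + 3γ)`; `bad ≤ frac(¬dec) + 2 frac(u₀² < ‖uu‖²) ≤ x₀ + 2x₀/u₀²` (`h ↦ σ h` is a bijection);
`‖uu z' Y'‖ ≤ ‖uu z Y‖ + √Λ γ + Λ γ M`. -/
theorem lm_post_pre (hZ : StZC) (hC0 : StC0) (q : ℕ) (hq : 2 ≤ q) {κ : ℝ} (hκ : 0 < κ) (M : ℝ) :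
    ∃ T₂ : ℝ, ∀ θ₀ x₁ : ℝ, 0 < θ₀ → 0 < x₁ → ∃ x₀ γ : ℝ, 0 < x₀ ∧ 0 < γ ∧ γ ≤ 1 ∧
      ∀ (x T₁ s : ℝ) (z z' : ℂ) (V : Type) [Fintype V] [DecidableEq V] (c : Cfg V q), x ≤ x₀ →
        T₂ ≤ T₁ → Bulk q κ z.re → z'.re = z.re → 0 < z'.im → z'.im ≤ z.im → z.im ≤ M →
        z.im ≤ (1 + γ) * z'.im → Post s z x c → Pre s z' T₁ θ₀ x₁ c := by
  obtain ⟨Λ, hΛ, hC0', hM⟩ := hC0 q κ hq hκ
  obtain ⟨⟨u₀, T₀, hu₀, hT₀⟩, -⟩ := hM M
  have hΛ0 : 0 < Λ := by linarith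
  refine ⟨2 * T₀, fun θ₀ x₁ hθ₀ hx₁ => ?_⟩
  set W : ℝ := Λ + Λ ^ 2 * M ^ 2 with hW
  have hW0 : 0 < W := by positivity
  refine ⟨min (x₁ / 6) (θ₀ / (1 + 2 / u₀ ^ 2)), min (1 / 400) (x₁ / 6 / W), by positivity,
    by positivity, (min_le_left _ _).trans (by norm_num), ?_⟩
  intro x T₁ s z z' V _ _ c hx hT hB hre hz' hzz hzM hzγ hP
  set γ : ℝ := min (1 / 400) (x₁ / 6 / W) with hγ
  have hγ0 : 0 < γ := by positivity
  have hγ1 : γ ≤ 1 / 400 := min_le_left _ _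
  have hγ2 : γ * W ≤ x₁ / 6 := (le_div_iff₀ hW0).1 (min_le_right _ _)
  have hx1 : x ≤ x₁ / 6 := hx.trans (min_le_left _ _)
  have hx2 : x * (1 + 2 / u₀ ^ 2) ≤ θ₀ :=
    (le_div_iff₀ (by positivity)).1 (hx.trans (min_le_right _ _))
  have hz : 0 < z.im := hz'.trans_le hzz
  have hB' : Bulk q κ z'.re := hre ▸ hB
  have hd : ‖z - z'‖ ≤ γ * z'.im := by
    refine (Complex.norm_le_abs_re_add_abs_im _).trans ?_
    rw [Complex.sub_re, Complex.sub_im, hre, sub_self, abs_zero, zero_add,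
      abs_of_nonneg (by linarith)]
    linarith
  have hd2 : ‖z - z'‖ ^ 2 ≤ γ ^ 2 * (z.im * z'.im) := by
    refine (pow_le_pow_left₀ (norm_nonneg _) hd 2).trans ?_
    rw [mul_pow]
    exact mul_le_mul_of_nonneg_left (by nlinarith) (by positivity)
  have hzc := fun h : HE V q => hZ.zc q s z z' V c h (1 / 400) γ hz hz' (by norm_num) (by norm_num)
    hγ0.le (by linarith) hd2
  have hY : ∀ h, 0 < (Yc s z c h).im := fun h => (hZ.pos q s z V c h hz).1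
  have hY' : ∀ h, 0 < (Yc s z' c h).im := fun h => (hZ.pos q s z' V c h hz').1
  obtain ⟨-, -, -, hu2, -, hu4⟩ := hC0' z hz.le hB
  refine ⟨?_, ?_⟩
  · have hh : ∀ h, ¬ u₀ ^ 2 < ‖uu q z (Yc s z c h)‖ ^ 2 → hyp (Yc s z' c h) ≤ T₁ := by
      intro h hh
      have a1 : ‖uu q z (Yc s z c h)‖ ≤ u₀ :=
        (le_abs_self _).trans (abs_le_of_sq_le_sq (not_lt.1 hh) hu₀.le)
      have a2 := hT₀ z hz.le hzM hB _ (hY h) a1
      have a3 := st_hyp (hY h) (hY' h) hγ0.le (by linarith) (hzc h).1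
      linarith
    have b1 : (frac fun h : HE V q => u₀ ^ 2 < ‖uu q z (Yc s z c h)‖ ^ 2) ≤ x / u₀ ^ 2 :=
      (lm_frac_markov (fun h => by positivity) (by positivity)).trans
        (div_le_div_of_nonneg_right hP.1 (by positivity))
    have b2 : (frac fun h : HE V q => u₀ ^ 2 < ‖uu q z (Yc s z c (c.1 h))‖ ^ 2) ≤ x / u₀ ^ 2 :=
      (p_frac_equiv c.1.1 fun h => u₀ ^ 2 < ‖uu q z (Yc s z c h)‖ ^ 2).le.trans b1
    have b3 : bad s z' T₁ (1 / 100) c ≤ (frac fun h => ¬ dec s z (1 / 400) c h) +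
        frac fun h : HE V q => u₀ ^ 2 < ‖uu q z (Yc s z c h)‖ ^ 2 ∨
          u₀ ^ 2 < ‖uu q z (Yc s z c (c.1 h))‖ ^ 2 := by
      refine p_frac_or_le fun h hg => ?_
      by_contra hcon
      simp only [not_or, not_not] at hcon
      exact hg ⟨lm_dec_mono hZ hz' (by positivity) (by linarith) ((hzc h).2 hcon.1),
        hh h hcon.2.1, hh _ hcon.2.2⟩
    have b4 := p_frac_or (fun h : HE V q => u₀ ^ 2 < ‖uu q z (Yc s z c h)‖ ^ 2)
      fun h => u₀ ^ 2 < ‖uu q z (Yc s z c (c.1 h))‖ ^ 2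
    have b5 := hP.2
    have b6 : x * (1 + 2 / u₀ ^ 2) = x + x / u₀ ^ 2 + x / u₀ ^ 2 := by ring
    unfold Om0
    linarith
  · have hpt : ∀ h : HE V q, ‖uu q z' (Yc s z' c h)‖ ^ 2 ≤
        3 * ‖uu q z (Yc s z c h)‖ ^ 2 + x₁ / 2 := by
      intro h
      have a1 : ‖uu q z (Yc s z' c h) - uu q z (Yc s z c h)‖ ^ 2 ≤ Λ * γ ^ 2 :=
        (hu2 _ _ (hY' h) (hY h)).trans (mul_le_mul_of_nonneg_left (hzc h).1 hΛ0.le)
      have a2 : ‖uu q z (Yc s z' c h) - uu q z' (Yc s z' c h)‖ ≤ Λ * (γ * M) := by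
        refine ((hu4 z' hz'.le hB').2 _ (hY' h)).trans (mul_le_mul_of_nonneg_left (hd.trans ?_) hΛ0.le)
        exact mul_le_mul_of_nonneg_left (hzz.trans hzM) hγ0.le
      have a3 := pow_le_pow_left₀ (norm_nonneg _) a2 2
      have a4 : ‖uu q z' (Yc s z' c h)‖ ≤ ‖uu q z (Yc s z c h)‖ +
          ‖uu q z (Yc s z' c h) - uu q z (Yc s z c h)‖ +
          ‖uu q z (Yc s z' c h) - uu q z' (Yc s z' c h)‖ := by
        calc ‖uu q z' (Yc s z' c h)‖ = ‖uu q z (Yc s z c h) +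
              (uu q z (Yc s z' c h) - uu q z (Yc s z c h)) -
              (uu q z (Yc s z' c h) - uu q z' (Yc s z' c h))‖ := by congr 1; ring
          _ ≤ _ := (norm_sub_le _ _).trans (add_le_add (norm_add_le _ _) le_rfl)
      have a5 := pow_le_pow_left₀ (norm_nonneg _) a4 2
      have a6 : Λ * γ ^ 2 + (Λ * (γ * M)) ^ 2 ≤ x₁ / 6 := by
        calc Λ * γ ^ 2 + (Λ * (γ * M)) ^ 2 = γ * (γ * W) := by rw [hW]; ring
          _ ≤ 1 * (x₁ / 6) := mul_le_mul (by linarith) hγ2 (by positivity) zero_le_one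
          _ = _ := one_mul _
      set A := ‖uu q z (Yc s z c h)‖
      set B := ‖uu q z (Yc s z' c h) - uu q z (Yc s z c h)‖
      set D := ‖uu q z (Yc s z' c h) - uu q z' (Yc s z' c h)‖
      nlinarith [sq_nonneg (A - B), sq_nonneg (A - D), sq_nonneg (B - D)]
    have h1 : XX s z' c ≤ avg fun h : HE V q => 3 * ‖uu q z (Yc s z c h)‖ ^ 2 + x₁ / 2 :=
      p_avg_mono hpt
    rw [p_avg_add, p_avg_mul] at h1
    have h2 : (avg fun _ : HE V q => x₁ / 2) ≤ x₁ / 2 := p_avg_le (by positivity) fun _ => le_rfl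
    have h3 : (avg fun h : HE V q => ‖uu q z (Yc s z c h)‖ ^ 2) ≤ x := hP.1
    linarith

/-- Far from the real axis: `StZC.base` with `e = 1/100` (non-loops are good), `lm_loops`,
`‖uu Y‖ ≤ 2/η²` (`StC0`, `StZC.pos`). -/
theorem lm_base (hZ : StZC) (hC0 : StC0) (hP : StP3) (q : ℕ) (hq : 2 ≤ q) {κ : ℝ} (hκ : 0 < κ)
    {x₁ : ℝ} (hx : 0 < x₁) : ∃ M₀ : ℝ, 2 ≤ M₀ ∧ ∀ M θ₀ T₁ : ℝ, 0 < θ₀ → 3 * M ≤ T₁ →
      ∃ C : ℝ, 0 ≤ C ∧ ∀ (π : Measure II) [IsProbabilityMeasure π] (s : ℝ) (z : ℂ) (V : Type)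
        [Fintype V] [DecidableEq V], 0 ≤ s → s ≤ 1 → M₀ ≤ z.im → z.im ≤ M → Bulk q κ z.re →
        cfgLaw V q π {c | ¬ Pre s z T₁ θ₀ x₁ c} ≤ ENNReal.ofReal (C / Fintype.card V) := by
  obtain ⟨Λ, -, hC0', -⟩ := hC0 q κ hq hκ
  obtain ⟨M₁, hM₁, hb⟩ := hZ.base q (1 / 100) (by norm_num)
  obtain ⟨C, hC, hl⟩ := lm_loops hP q
  refine ⟨max 2 (max M₁ (4 / x₁)), le_max_left _ _, fun M θ₀ T₁ hθ₀ hT => ⟨C / θ₀, by positivity, ?_⟩⟩
  intro π _ s z V _ _ hs0 hs1 hz1 hz2 hB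
  have h2 : 2 ≤ z.im := (le_max_left _ _).trans hz1
  have h3 : M₁ ≤ z.im := ((le_max_left _ _).trans (le_max_right _ _)).trans hz1
  have h4 : 4 / x₁ ≤ z.im := ((le_max_right _ _).trans (le_max_right _ _)).trans hz1
  have hz : 0 < z.im := by linarith
  obtain ⟨-, -, -, -, hu3, -⟩ := hC0' z hz.le hB
  have h5 : (2 / z.im ^ 2) ^ 2 ≤ x₁ := by
    rw [div_le_iff₀ hx] at h4
    rw [div_pow, div_le_iff₀ (by positivity)]
    have a1 : z.im ≤ (z.im ^ 2) ^ 2 := by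
      rw [← pow_mul]; exact le_self_pow₀ (by linarith) (by norm_num)
    nlinarith
  have hX : ∀ c : Cfg V q, XX s z c ≤ x₁ := fun c =>
    p_avg_le hx.le fun h => (pow_le_pow_left₀ (norm_nonneg _)
      (hu3 _ (hZ.pos q s z V c h hz).1 hz (hZ.pos q s z V c h hz).2) 2).trans h5
  have hre : |z.re| ≤ 2 * √(q : ℝ) := by
    unfold Bulk at hB
    linarith
  refine le_trans (measure_mono fun c hc => ?_) ((hl π V θ₀ hθ₀).trans (le_of_eq ?_))
  · simp only [Set.mem_ofPred_eq, Pre, Om0, hX c, and_true, not_le] at hc ⊢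
    refine hc.trans_le (p_frac_mono fun h hg => ?_)
    by_contra hne
    exact hg (lm_good_mono hZ hz (by linarith) (by norm_num) le_rfl
      (hb s z V c h hs0 hs1 h3 hre hne))
  · rw [div_div]

end Crest.Agent.R166
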