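import Crest.Agent.R166.LM.Basic

/-!
# Row 166, block LM: uniform integrability
-/

set_option autoImplicit false

open MeasureTheory ProbabilityTheory Filter Topology Complex
open scoped ENNReal NNReal BigOperators Matrix

noncomputable section

namespace Crest.Agent.R166

theorem lmu_rec (x τ : ℕ → ℝ) (hτ : ∀ j, 0 ≤ τ j) (hx : ∀ j, x j ≤ 2 * x (j + 1)) (J : ℕ) :
    max (x 0 - τ 0) 0 ≤ 2 ^ J * max (x J - τ J) 0 +
      ∑ j ∈ Finset.range J, 2 ^ (j + 1) * τ (j + 1) * ind (τ j < x j) := by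
  induction J with
  | zero => simp
  | succ J ih =>
    rw [Finset.sum_range_succ]
    have h : max (x J - τ J) 0 ≤ 2 * max (x (J + 1) - τ (J + 1)) 0 +
        2 * τ (J + 1) * ind (τ J < x J) := by
      have h1 := le_max_left (x (J + 1) - τ (J + 1)) 0
      have h2 := le_max_right (x (J + 1) - τ (J + 1)) 0
      have h3 := hτ (J + 1)
      by_cases hc : τ J < x J
      · rw [lm_ind_pos hc]
        exact max_le (by linarith [hx J, hτ J]) (by linarith)
      · rw [lm_ind_neg hc]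
        exact max_le (by linarith [not_lt.1 hc]) (by linarith)
    have h' := mul_le_mul_of_nonneg_left h (by positivity : (0 : ℝ) ≤ 2 ^ J)
    rw [pow_succ]
    nlinarith

theorem lmu_simple {q : ℕ} (V : Type) [Fintype V] [DecidableEq V] :
    MeasurableSet {c : Cfg V q | IsSimple c.1} :=
  measurable_fst (MeasurableSet.of_discrete (s := {σ : Pairing V q | IsSimple σ}))

theorem lmu_int {X : Type} [MeasurableSpace X] (μ : Measure X) [IsFiniteMeasure μ] {p : X → Prop}
    (hp : MeasurableSet {x | p x}) {f : X → ℝ} (hf : Measurable f) {B : ℝ} (h0 : ∀ x, 0 ≤ f x)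
    (hB : ∀ x, f x ≤ B) : Integrable (fun x => ind (p x) * f x) μ := by
  refine Integrable.of_bound ((lm_meas_ind hp).mul hf).aestronglyMeasurable B
    (ae_of_all _ fun x => ?_)
  rw [Real.norm_eq_abs, abs_of_nonneg (mul_nonneg (lm_ind_nonneg _) (h0 x))]
  exact (mul_le_of_le_one_left (h0 x) (lm_ind_le_one _)).trans (hB x)

theorem lmu_geom {a : ℝ} (ha : 1 < a) (J : ℕ) :
    ∑ j ∈ Finset.range J, (a ^ j)⁻¹ ≤ (1 - a⁻¹)⁻¹ := by
  have h0 : 0 ≤ a⁻¹ := by positivity
  have h1 : a⁻¹ < 1 := inv_lt_one_of_one_lt₀ ha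
  simp only [← inv_pow]
  rw [← tsum_geometric_of_lt_one h0 h1]
  exact (summable_geometric_of_lt_one h0 h1).sum_le_tsum _ fun _ _ => by positivity

/-- Dyadic scales `η_j = 2^j η`, `j < J`, `J` minimal with `2^J η ≥ 1` (so `η_j ≤ 2` for `j ≤ J`),
`t_j = tt n η_j = 2^{j/200} t`. `G = ⋂_{j<J} {Om0 z_j ∧ bad z_j (K t_j^4) (1/50) ≤ t_j^{-120}} ∩ {Om0 z_0}`;
`P(Gᶜ) ≤ ∑ (C/t_j + C/t_j^{60})` (`Chain`, `Pack.tail`, `lm_markov`, geometric series).
With `x_j = Im G_vv(z_j)`, `τ_j = K₂ t_j^4`: `x_j ≤ 2 x_{j+1}` (`StZC.mono2`) gives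
`(x_j - τ_j)₊ ≤ 2 (x_{j+1} - τ_{j+1})₊ + 2 τ_{j+1} 1{τ_j < x_j}`, `(x_J - τ_J)₊ = 0` (`StZC.posG`);
`Pack.two` and `2^j t_j^{-200} = t^{-200}`. Last part: `Pack.mid`. -/
theorem lm_uib (hK : StKit) (hZ : StZC) {q : ℕ} (π : Measure II) [IsProbabilityMeasure π]
    {s κ M M' T₁ θ₀ x₀ C K K₂ t₀ : ℝ} {n₀ : ℕ} (hs0 : 0 ≤ s) (hs1 : s ≤ 1) (hκ : 0 < κ)
    (hM : 2 * √(q : ℝ) + 2 ≤ M) (hM' : 2 ≤ M') (hK₂ : 1 ≤ K₂) (ht₀ : 2 ≤ t₀)
    (hP : Pack q M T₁ θ₀ C K K₂ t₀ n₀) (hC : Chain q π s κ M' T₁ θ₀ x₀) : UIB q π s κ K₂ := by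
  obtain ⟨Cc, Lc, nc, hC⟩ := hC
  obtain ⟨L₁, hL₁, hL⟩ := lm_tt_large t₀
  set a : ℝ := 2 ^ (1 / 200 : ℝ) with ha
  have ha1 : 1 < a := Real.one_lt_rpow (by norm_num) (by norm_num)
  have ha200 : a ^ 200 = 2 := by
    rw [ha, ← Real.rpow_natCast, ← Real.rpow_mul (by norm_num)]; norm_num
  have ha4 : a ^ 4 ≤ 2 := ha200 ▸ pow_le_pow_right₀ ha1.le (by norm_num)
  set S : ℝ := (1 - a⁻¹)⁻¹ with hS
  have hS0 : 0 ≤ S := le_trans (by simp) (lmu_geom ha1 0)
  set D : ℝ := max (max C Cc) 0 with hD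
  have hD0 : 0 ≤ D := le_max_right _ _
  have hCD : C ≤ D := (le_max_left _ _).trans (le_max_left _ _)
  have hCcD : Cc ≤ D := (le_max_right _ _).trans (le_max_left _ _)
  refine ⟨D + 2 * D * S + 4 * K₂ * D * S, max Lc L₁, max n₀ nc, fun n E η hn hB hη hLη hη1 => ?_⟩
  have := hK.law_le q π (Fin n)
  set t := tt n η with ht
  have ht0 : t₀ ≤ t := hL n η ((le_max_right _ _).trans hLη)
  have ht1 : 1 ≤ t := by linarith
  have hex : ∃ J : ℕ, 1 ≤ 2 ^ J * η := by
    obtain ⟨J, hJ⟩ := pow_unbounded_of_one_lt η⁻¹ (by norm_num : (1 : ℝ) < 2)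
    refine ⟨J, ?_⟩
    rw [inv_lt_iff_one_lt_mul₀ hη] at hJ
    exact hJ.le
  classical
  set J := Nat.find hex with hJ
  have hJ1 : 1 ≤ 2 ^ J * η := Nat.find_spec hex
  have hJ2 : ∀ j < J, 2 ^ j * η ≤ 1 := fun j hj => (not_le.1 (Nat.find_min hex hj)).le
  set z : ℕ → ℂ := fun j => E + ((2 : ℝ) ^ j * η : ℝ) * I with hz
  have zre : ∀ j, (z j).re = E := fun j => by
    simp only [hz, add_re, ofReal_re, mul_re, I_re, I_im, ofReal_im]; ring
  have zim : ∀ j, (z j).im = 2 ^ j * η := fun j => by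
    simp only [hz, add_im, ofReal_re, mul_im, I_re, I_im, ofReal_im]; ring
  have z0 : z 0 = E + η * I := by simp [hz]
  have zpos : ∀ j, 0 < (z j).im := fun j => by rw [zim]; positivity
  have htj : ∀ j, tt n ((2 : ℝ) ^ j * η) = a ^ j * t := fun j => by
    rw [lm_tt_mul hη.le (by positivity), ha, ← Real.rpow_natCast, ← Real.rpow_natCast,
      ← Real.rpow_mul (by norm_num), ← Real.rpow_mul (by norm_num), mul_comm (j : ℝ)]
  have haj : ∀ j, 1 ≤ a ^ j := fun j => one_le_pow₀ ha1.le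
  have htj1 : ∀ j, t ≤ a ^ j * t := fun j => le_mul_of_one_le_left (by linarith) (haj j)
  have hAdm : ∀ j, 2 ^ j * η ≤ 1 → Adm M t₀ n₀ s (z j) (Fintype.card (Fin n)) (a ^ j * t) := by
    intro j hj
    refine ⟨hs0, hs1, zpos j, ?_, by simpa using (le_max_left _ _).trans hn, ht0.trans (htj1 j), ?_⟩
    · refine (Complex.norm_le_abs_re_add_abs_im _).trans ?_
      rw [zre, abs_of_pos (zpos j), zim]
      unfold Bulk at hB
      linarith
    · rw [← htj, lm_tt_pow (by positivity), zim, Fintype.card_fin]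
  have hOm : ∀ j, 2 ^ j * η ≤ 1 → cfgLaw (Fin n) q π {c | ¬ Om0 s (z j) T₁ θ₀ c} ≤
      ENNReal.ofReal (D / (a ^ j * t)) := by
    intro j hj
    have h1 := hC (Fin n) (z j) (by simpa using (le_max_right _ _).trans hn) (by rwa [zre])
      (zpos j) ?_ (by rw [zim]; linarith)
    · refine le_trans (measure_mono ?_) (h1.trans (ENNReal.ofReal_le_ofReal ?_))
      · intro c hc h
        exact hc h.1
      · rw [zim, Fintype.card_fin, htj]
        have := htj1 j
        gcongr
    · rw [zim, Fintype.card_fin]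
      refine ((le_max_left _ _).trans hLη).trans ?_
      have : η ≤ 2 ^ j * η := le_mul_of_one_le_left hη.le (one_le_pow₀ (by norm_num))
      gcongr
  have mOm : ∀ j, MeasurableSet {c : Cfg (Fin n) q | Om0 s (z j) T₁ θ₀ c} := fun j =>
    measurableSet_le (hK.meas_bad q s _ _ _ _) measurable_const
  set b : ℕ → Cfg (Fin n) q → ℝ := fun j c => bad s (z j) (K * (a ^ j * t) ^ 4) (1 / 50) c with hb
  have mb : ∀ j, Measurable (b j) := fun j => hK.meas_bad q s _ _ _ _
  have hbad : ∀ j < J, cfgLaw (Fin n) q π {c | ((a ^ j * t) ^ 120)⁻¹ < b j c} ≤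
      ENNReal.ofReal (2 * D / t * (a ^ j)⁻¹) := by
    intro j hj
    have h0 : 1 ≤ a ^ j * t := ht1.trans (htj1 j)
    have h1 := lm_markov _ (mOm j) (mb j) (fun c => p_frac_nonneg _) (fun c => p_frac_le_one _)
      (a := ((a ^ j * t) ^ 120)⁻¹) (by positivity) (hP.tail π s (z j) (Fin n) _ (hAdm j (hJ2 j hj)))
    have h2 := hOm j (hJ2 j hj)
    have h3 : {c | ((a ^ j * t) ^ 120)⁻¹ < b j c} ⊆ {c | ¬ Om0 s (z j) T₁ θ₀ c} ∪
        {c | Om0 s (z j) T₁ θ₀ c ∧ ((a ^ j * t) ^ 120)⁻¹ < b j c} := by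
      intro c hc
      by_cases h : Om0 s (z j) T₁ θ₀ c
      · exact Or.inr ⟨h, hc⟩
      · exact Or.inl h
    have h4 : C / (a ^ j * t) ^ 180 / ((a ^ j * t) ^ 120)⁻¹ ≤ D / (a ^ j * t) := by
      calc _ ≤ D / (a ^ j * t) ^ 180 / ((a ^ j * t) ^ 120)⁻¹ := by gcongr
        _ = D / (a ^ j * t) ^ 60 := by field_simp
        _ ≤ _ := by gcongr; exact le_self_pow₀ h0 (by norm_num)
    refine (measure_mono h3).trans ((measure_union_le _ _).trans ?_)
    refine (add_le_add h2 (h1.trans (ENNReal.ofReal_le_ofReal h4))).trans ?_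
    rw [← ENNReal.ofReal_add (by positivity) (by positivity)]
    refine ENNReal.ofReal_le_ofReal (le_of_eq ?_)
    have := haj j
    field_simp
    ring
  have mG : ∀ v, Measurable fun c : Cfg (Fin n) q => (Gr (Hm s c) (E + η * I) v v).im := fun v =>
    Complex.measurable_im.comp (hK.meas_Gr q s _ _ v v)
  have h01 : (2 : ℝ) ^ 0 * η ≤ 1 := by simpa using hη1
  refine ⟨{c | Om0 s (z 0) T₁ θ₀ c ∧ ∀ j ∈ Finset.range J, b j c ≤ ((a ^ j * t) ^ 120)⁻¹},
    (mOm 0).inter ?_, ?_, ?_, ?_⟩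
  · exact measurableSet_setOfPred.2 (Measurable.forall fun j => Measurable.forall fun _ =>
      measurableSet_setOfPred.1 (measurableSet_le (mb j) measurable_const))
  · have h1 : {c | Om0 s (z 0) T₁ θ₀ c ∧ ∀ j ∈ Finset.range J, b j c ≤ ((a ^ j * t) ^ 120)⁻¹}ᶜ ⊆
        {c | ¬ Om0 s (z 0) T₁ θ₀ c} ∪ ⋃ j ∈ Finset.range J, {c | ((a ^ j * t) ^ 120)⁻¹ < b j c} := by
      intro c hc
      by_cases h : Om0 s (z 0) T₁ θ₀ c
      · right
        simp only [Set.mem_compl_iff, Set.mem_ofPred_eq, h, true_and, not_forall, not_le] at hc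
        obtain ⟨j, hj, hc⟩ := hc
        exact Set.mem_biUnion hj hc
      · exact Or.inl h
    refine (measure_mono h1).trans ((measure_union_le _ _).trans ?_)
    refine (add_le_add (hOm 0 h01) ((measure_biUnion_finset_le _ _).trans
      (Finset.sum_le_sum fun j hj => hbad j (Finset.mem_range.1 hj)))).trans ?_
    rw [← ENNReal.ofReal_sum_of_nonneg fun j _ => by have := haj j; positivity,
      ← ENNReal.ofReal_add (by positivity) (Finset.sum_nonneg fun j _ => by have := haj j; positivity),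
      ← Finset.mul_sum]
    refine ENNReal.ofReal_le_ofReal ?_
    have h2 := lmu_geom ha1 J
    calc D / (a ^ 0 * t) + 2 * D / t * ∑ j ∈ Finset.range J, (a ^ j)⁻¹
        ≤ D / (a ^ 0 * t) + 2 * D / t * S := by gcongr
      _ = (D + 2 * D * S) / t := by rw [pow_zero, one_mul]; ring
      _ ≤ _ := div_le_div_of_nonneg_right (le_add_of_nonneg_right (by positivity)) (by linarith)
  · set τ : ℕ → ℝ := fun j => K₂ * (a ^ j * t) ^ 4 with hτ
    have hτ1 : ∀ j, 1 ≤ τ j := fun j =>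
      one_le_mul_of_one_le_of_one_le hK₂ (one_le_pow₀ (ht1.trans (htj1 j)))
    have mS : ∀ j, MeasurableSet {c : Cfg (Fin n) q | IsSimple c.1 ∧ b j c ≤ ((a ^ j * t) ^ 120)⁻¹} :=
      fun j => (lmu_simple _).inter (measurableSet_le (mb j) measurable_const)
    have mF : ∀ j, Measurable fun c : Cfg (Fin n) q =>
        frac fun v => τ j < (Gr (Hm s c) (z j) v v).im := fun j =>
      lm_meas_frac fun v => measurableSet_lt measurable_const
        (Complex.measurable_im.comp (hK.meas_Gr q s _ _ v v))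
    have hI := fun j => lmu_int (cfgLaw (Fin n) q π) (mS j) (mF j) (fun c => p_frac_nonneg _)
      (fun c => p_frac_le_one _)
    refine le_trans (integral_mono_of_nonneg (ae_of_all _ fun c => ?_)
      (integrable_finsetSum (Finset.range J) fun j _ => (hI j).const_mul (2 ^ (j + 1) * τ (j + 1)))
      (ae_of_all _ fun c => ?_)) ?_
    · exact mul_nonneg (lm_ind_nonneg _) (p_avg_nonneg fun v => le_max_right _ _)
    · simp only
      by_cases hc : IsSimple c.1 ∧ c ∈ {c | Om0 s (z 0) T₁ θ₀ c ∧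
          ∀ j ∈ Finset.range J, b j c ≤ ((a ^ j * t) ^ 120)⁻¹}
      · rw [lm_ind_pos hc, one_mul]
        have h1 : ∀ v, max ((Gr (Hm s c) (E + η * I) v v).im - K₂ * t ^ 4) 0 ≤
            ∑ j ∈ Finset.range J, 2 ^ (j + 1) * τ (j + 1) *
              ind (τ j < (Gr (Hm s c) (z j) v v).im) := by
          intro v
          have h2 := lmu_rec (fun j => (Gr (Hm s c) (z j) v v).im) τ (fun j => by linarith [hτ1 j])
            (fun j => by
              have h3 := hZ.mono2 q s E (2 ^ j * η) (Fin n) c v (by positivity)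
              simpa only [hz, pow_succ', mul_assoc] using h3) J
          have h3 : (Gr (Hm s c) (z J) v v).im ≤ 1 := by
            refine ((le_abs_self _).trans (Complex.abs_im_le_norm _)).trans
              ((hZ.posG q s (z J) (Fin n) c v (zpos J)).2.trans ?_)
            rw [zim]; exact inv_le_one_of_one_le₀ hJ1
          rw [max_eq_right (a := (Gr (Hm s c) (z J) v v).im - τ J) (by linarith [hτ1 J]), mul_zero,
            zero_add, z0] at h2
          simpa only [hτ, pow_zero, one_mul] using h2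
        refine (p_avg_mono h1).trans ?_
        rw [p_avg_sum]
        refine Finset.sum_le_sum fun j hj => ?_
        rw [p_avg_mul, lm_ind_pos (p := IsSimple c.1 ∧ b j c ≤ ((a ^ j * t) ^ 120)⁻¹)
          ⟨hc.1, hc.2.2 j hj⟩, one_mul]
        rfl
      · rw [lm_ind_neg hc, zero_mul]
        refine Finset.sum_nonneg fun j _ => mul_nonneg ?_ (mul_nonneg (lm_ind_nonneg _) (p_frac_nonneg _))
        have := hτ1 (j + 1)
        positivity
    · rw [integral_finsetSum _ fun j _ => (hI j).const_mul _]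
      have h1 : ∀ j ∈ Finset.range J, ∫ c, 2 ^ (j + 1) * τ (j + 1) *
          (ind (IsSimple c.1 ∧ b j c ≤ ((a ^ j * t) ^ 120)⁻¹) *
            frac fun v => τ j < (Gr (Hm s c) (z j) v v).im) ∂cfgLaw (Fin n) q π ≤
          4 * K₂ * D / t ^ 236 * (a ^ j)⁻¹ := by
        intro j hj
        rw [integral_const_mul]
        have h2 := hP.two π s (z j) (Fin n) _ (hAdm j (hJ2 j (Finset.mem_range.1 hj)))
        have h3 := hτ1 (j + 1)
        have h4 := haj j
        have h5 : C / (a ^ j * t) ^ 240 ≤ D / (a ^ j * t) ^ 240 := by gcongr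
        have e2 : (2 : ℝ) ^ j = (a ^ j) ^ 200 := by rw [← pow_mul, mul_comm, pow_mul, ha200]
        calc _ ≤ 2 ^ (j + 1) * τ (j + 1) * (D / (a ^ j * t) ^ 240) := by
              gcongr; exact h2.trans h5
          _ = 2 * a ^ 4 * K₂ * D / t ^ 236 * ((a ^ j) ^ 36)⁻¹ := by
              simp only [hτ]
              rw [pow_succ 2 j, pow_succ a j, e2]
              generalize a ^ j = u at h4
              field_simp
          _ ≤ 2 * 2 * K₂ * D / t ^ 236 * (a ^ j)⁻¹ := by
              gcongr; exact le_self_pow₀ h4 (by norm_num)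
          _ = _ := by ring
      refine (Finset.sum_le_sum h1).trans ?_
      rw [← Finset.mul_sum]
      have h2 := lmu_geom ha1 J
      calc 4 * K₂ * D / t ^ 236 * ∑ j ∈ Finset.range J, (a ^ j)⁻¹ ≤ 4 * K₂ * D / t ^ 236 * S := by
            gcongr
        _ = 4 * K₂ * D * S / t ^ 236 := by ring
        _ ≤ _ := by gcongr; exact le_add_of_nonneg_left (by positivity)
  · have h1 := hP.mid π s (z 0) (Fin n) _ (hAdm 0 h01)
    have hm := mOm 0
    rw [z0] at h1 hm ⊢
    rw [pow_zero, one_mul] at h1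
    have h0 : ∀ c : Cfg (Fin n) q, 0 ≤ avg fun v => min (Gr (Hm s c) (E + η * I) v v).im (K₂ * t ^ 4) :=
      fun c => p_avg_nonneg fun v => le_min (hZ.posG q s _ _ c v (by simpa using hη)).1.le
        (by positivity)
    refine le_trans (integral_mono_of_nonneg (ae_of_all _ fun c => mul_nonneg (lm_ind_nonneg _) (h0 c))
      (lmu_int _ hm (lm_meas_avg fun v => (mG v).min measurable_const) (B := K₂ * t ^ 4) h0
        fun c => p_avg_le (by positivity) fun v => min_le_right _ _)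
      (ae_of_all _ fun c => mul_le_mul_of_nonneg_right (lm_ind_mono fun h => h.1) (h0 c)))
      (h1.trans (hCD.trans ?_))
    have : 0 ≤ 2 * D * S + 4 * K₂ * D * S := by positivity
    linarith

/-- `η = L/n` with `L ≥ max A L₀` large, `t = (L/4)^{1/200}`, `T = 4 L K₂ t^4`: `u_v² ≤ 2 L x_v`
(`StZC.eig`), so `u_v² 1{T < u_v²} ≤ 4 L (x_v - K₂ t^4)₊`; `L t^{-236} = 4 t^{-36}`; `lm_markov`. -/
theorem lm_LL2 (hK : StKit) (hZ : StZC) {q : ℕ} (π : Measure II) [IsProbabilityMeasure π]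
    {s κ K₂ : ℝ} (hK₂ : 1 ≤ K₂) (h : UIB q π s κ K₂) : LL2 q π s κ := by
  obtain ⟨C, L₀, n₀, h⟩ := h
  intro A ε hε
  set D := max C 0 with hD
  have hD0 : 0 ≤ D := le_max_right _ _
  have hCD : C ≤ D := le_max_left _ _
  set t₁ : ℝ := max 1 (max (2 * D / ε) (32 * D / ε ^ 2)) with ht₁
  obtain ⟨L₁, hL₁, hL⟩ := lm_tt_large t₁
  set L : ℝ := max (max A L₀) L₁ with hLdef
  have hL0 : 0 < L := hL₁.trans_le (le_max_right _ _)
  set t : ℝ := (L / 4) ^ (1 / 200 : ℝ) with ht
  refine ⟨4 * L * (K₂ * t ^ 4), fun E hE => ?_⟩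
  filter_upwards [eventually_ge_atTop n₀, eventually_ge_atTop ⌈L⌉₊] with n hn hn'
  have hLn : L ≤ n := (Nat.le_ceil L).trans (by exact_mod_cast hn')
  have hn0 : (0 : ℝ) < n := hL0.trans_le hLn
  have hη : 0 < L / n := by positivity
  have hnη : n * (L / n) = L := by field_simp
  have htt : tt n (L / n) = t := by rw [tt, hnη]
  have ht1 : t₁ ≤ t := htt ▸ hL n _ (by rw [hnη]; exact le_max_right _ _)
  have ht1' : 1 ≤ t := (le_max_left _ _).trans ht1
  have hL200 : 4 * t ^ 200 = L := by rw [← htt, lm_tt_pow hη.le, hnη]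
  obtain ⟨G, hGm, hG1, hG2, -⟩ := h n E (L / n) hn hE hη
    (by rw [hnη]; exact (le_max_right _ _).trans (le_max_left _ _)) ((div_le_one hn0).2 hLn)
  rw [htt] at hG1 hG2
  have := hK.law_le q π (Fin n)
  have hz : 0 < ((E : ℂ) + (L / n : ℝ) * I).im := by simpa using hη
  have h1 := lm_markov (cfgLaw (Fin n) q π) (p := fun c => IsSimple c.1 ∧ c ∈ G)
    ((lmu_simple _).inter hGm) (lm_meas_avg fun v => ((Complex.measurable_im.comp
      (hK.meas_Gr q s (E + (L / n : ℝ) * I) _ v v)).sub_const (K₂ * t ^ 4)).max measurable_const)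
    (B := ((E : ℂ) + (L / n : ℝ) * I).im⁻¹) (fun c => p_avg_nonneg fun v => le_max_right _ _)
    (fun c => p_avg_le (by positivity) fun v => max_le (by
      have h2 := ((le_abs_self _).trans (Complex.abs_im_le_norm _)).trans
        (hZ.posG q s _ (Fin n) c v hz).2
      have h3 : 0 ≤ K₂ * t ^ 4 := by positivity
      simp only [Function.comp]
      linarith) (by positivity))
    (a := ε / (4 * L)) (by positivity) hG2
  refine le_trans (measure_mono (t := Gᶜ ∪ _) ?_) ((measure_union_le _ _).trans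
    ((add_le_add hG1 h1).trans ?_))
  · rintro c ⟨hc, u, lam, hu, hn2, hlam, hε'⟩
    by_cases hG : c ∈ G
    · refine Or.inr ⟨⟨hc, hG⟩, ?_⟩
      rw [div_lt_iff₀ (by positivity), mul_comm, ← p_avg_mul]
      refine hε'.trans_le (p_avg_mono fun v => ?_)
      have h2 := hZ.eig q s E (L / n) lam (Fin n) c u v hη hu (hlam.trans (by
        gcongr; exact (le_max_left _ _).trans (le_max_left _ _)))
      rw [hn2, mul_assoc 2, mul_comm (L / n), hnη] at h2
      simp only [Function.comp]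
      split_ifs with h3
      · have h4 := le_max_left ((Gr (Hm s c) (E + (L / n : ℝ) * I) v v).im - K₂ * t ^ 4) 0
        nlinarith
      · positivity
    · exact Or.inl hG
  · have h2 : C / t ≤ ε / 2 := by
      have h3 : 2 * D / ε ≤ t := (le_max_left _ _).trans ((le_max_right _ _).trans ht1)
      rw [div_le_iff₀ hε] at h3
      rw [div_le_iff₀ (by positivity)]
      linarith
    have h3 : C / t ^ 236 / (ε / (4 * L)) ≤ ε / 2 := by
      have h4 : 32 * D / ε ^ 2 ≤ t := (le_max_right _ _).trans ((le_max_right _ _).trans ht1)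
      rw [div_le_iff₀ (by positivity)] at h4
      have h5 : t ≤ t ^ 36 := le_self_pow₀ ht1' (by norm_num)
      calc _ ≤ D / t ^ 236 / (ε / (4 * L)) := by gcongr
        _ = 16 * D / (ε * t ^ 36) := by rw [← hL200]; field_simp; ring
        _ ≤ 16 * D / (ε * t) := by gcongr
        _ ≤ ε / 2 := by rw [div_le_iff₀ (by positivity)]; linarith
    refine (add_le_add (ENNReal.ofReal_le_ofReal h2) (ENNReal.ofReal_le_ofReal h3)).trans ?_
    rw [← ENNReal.ofReal_add (by positivity) (by positivity), add_halves]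

/-- `x ≤ min x τ + (x - τ)₊`, `lm_markov` (`x ≤ 1/η`). -/
theorem lm_LL3 (hK : StKit) (hZ : StZC) {q : ℕ} (π : Measure II) [IsProbabilityMeasure π]
    {s κ K₂ : ℝ} (hK₂ : 1 ≤ K₂) (h : UIB q π s κ K₂) : LL3 q π s κ := by
  obtain ⟨C, L₀, n₀, h⟩ := h
  intro ε hε
  set D := max C 0 with hD
  have hD0 : 0 ≤ D := le_max_right _ _
  have hCD : C ≤ D := le_max_left _ _
  set t₁ : ℝ := max 1 (3 * D / ε) with ht₁
  have ht₁1 : 1 ≤ t₁ := le_max_left _ _
  have hDt : D / t₁ ≤ ε / 3 := by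
    have h3 : 3 * D / ε ≤ t₁ := le_max_right _ _
    rw [div_le_iff₀ hε] at h3
    rw [div_le_iff₀ (by positivity)]
    linarith
  obtain ⟨L₁, hL₁, hL⟩ := lm_tt_large t₁
  refine ⟨2 * t₁, max L₀ L₁, ?_⟩
  filter_upwards [eventually_ge_atTop n₀, eventually_gt_atTop 0] with n hn hn'
  intro z hB hz hLz hz1
  have hn0 : (0 : ℝ) < n := by exact_mod_cast hn'
  rw [div_le_iff₀ hn0, mul_comm] at hLz
  obtain ⟨G, hGm, hG1, hG2, hG3⟩ := h n z.re z.im hn hB hz ((le_max_left _ _).trans hLz) hz1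
  have ht := hL n z.im ((le_max_right _ _).trans hLz)
  set t := tt n z.im
  rw [Complex.re_add_im] at hG2 hG3
  have := hK.law_le q π (Fin n)
  have hτ : 0 ≤ K₂ * t ^ 4 := by positivity
  have mG : ∀ v, Measurable fun c : Cfg (Fin n) q => (Gr (Hm s c) z v v).im := fun v =>
    Complex.measurable_im.comp (hK.meas_Gr q s _ _ v v)
  have h1 := lm_markov (cfgLaw (Fin n) q π) (p := fun c => IsSimple c.1 ∧ c ∈ G)
    ((lmu_simple _).inter hGm) (lm_meas_avg fun v => ((mG v).sub_const (K₂ * t ^ 4)).max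
      measurable_const) (B := z.im⁻¹) (fun c => p_avg_nonneg fun v => le_max_right _ _)
    (fun c => p_avg_le (by positivity) fun v => max_le (by
      have h2 := ((le_abs_self _).trans (Complex.abs_im_le_norm _)).trans
        (hZ.posG q s _ (Fin n) c v hz).2
      linarith) (by positivity))
    (a := t₁) (by positivity) hG2
  have h2 := lm_markov (cfgLaw (Fin n) q π) (p := fun c => c ∈ G) hGm
    (lm_meas_avg fun v => (mG v).min measurable_const) (B := K₂ * t ^ 4)
    (fun c => p_avg_nonneg fun v => le_min (hZ.posG q s _ _ c v hz).1.le hτ)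
    (fun c => p_avg_le hτ fun v => min_le_right _ _) (a := t₁) (by positivity) hG3
  refine le_trans (measure_mono (t := Gᶜ ∪ (_ ∪ _)) ?_) ((measure_union_le _ _).trans
    ((add_le_add hG1 ((measure_union_le _ _).trans (add_le_add h1 h2))).trans ?_))
  · rintro c ⟨hc, hC⟩
    by_cases hG : c ∈ G
    · right
      by_contra hcon
      simp only [Set.mem_union, Set.mem_ofPred_eq, hc, hG, true_and, not_or, not_lt] at hcon
      have h3 : (avg fun v => (Gr (Hm s c) z v v).im) ≤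
          avg fun v => max ((Gr (Hm s c) z v v).im - K₂ * t ^ 4) 0 +
            min (Gr (Hm s c) z v v).im (K₂ * t ^ 4) := by
        refine p_avg_mono fun v => ?_
        rcases le_total (Gr (Hm s c) z v v).im (K₂ * t ^ 4) with h4 | h4
        · rw [min_eq_left h4]; exact le_add_of_nonneg_left (le_max_right _ _)
        · rw [min_eq_right h4]; linarith [le_max_left ((Gr (Hm s c) z v v).im - K₂ * t ^ 4) 0]
      rw [p_avg_add] at h3
      linarith [hcon.1, hcon.2]
    · exact Or.inl hG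
  · have a1 : C / t ≤ ε / 3 := le_trans (by gcongr) hDt
    have a2 : C / t ^ 236 / t₁ ≤ ε / 3 := by
      refine le_trans ?_ hDt
      gcongr
      calc C / t ^ 236 ≤ D / t ^ 236 := by gcongr
        _ ≤ D := div_le_self hD0 (one_le_pow₀ (ht₁1.trans ht))
    have a3 : C / t₁ ≤ ε / 3 := le_trans (by gcongr) hDt
    refine (add_le_add (ENNReal.ofReal_le_ofReal a1) (add_le_add (ENNReal.ofReal_le_ofReal a2)
      (ENNReal.ofReal_le_ofReal a3))).trans ?_
    rw [← ENNReal.ofReal_add (by positivity) (by positivity),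
      ← ENNReal.ofReal_add (by positivity) (by positivity)]
    exact ENNReal.ofReal_le_ofReal (by linarith)

end Crest.Agent.R166
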