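import Crest.Agent.R166.LM.Pack
import Crest.Agent.R166.LM.Step
import Crest.Agent.R166.LM.Chain
import Crest.Agent.R166.LM.UI
import Crest.Agent.R166.LM.Dist
import Crest.Agent.R166.LM.Star

/-!
# Row 166, block LM: assembly of the local law
-/

set_option autoImplicit false

open MeasureTheory ProbabilityTheory Filter Topology Complex
open scoped ENNReal NNReal BigOperators Matrix

noncomputable section

namespace Crest.Agent.R166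

theorem lm_norm_le {q : ℕ} {κ M : ℝ} (hκ : 0 < κ) {z : ℂ} (hB : Bulk q κ z.re) (h0 : 0 < z.im)
    (hM : z.im ≤ M) : ‖z‖ ≤ 2 * √(q : ℝ) + M := by
  have h1 := Complex.norm_le_abs_re_add_abs_im z
  unfold Bulk at hB
  rw [abs_of_pos h0] at h1
  linarith

theorem lm_LL1 {q : ℕ} {π : Measure II} {s κ M₀ : ℝ}
    (hA : LL1On q π s κ 0 (2 * M₀)) (hB : ∀ M, M₀ ≤ M → LL1On q π s κ M₀ M) (hM₀ : 0 ≤ M₀) :
    LL1 q π s κ := by
  intro ε M hε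
  obtain ⟨δ₁, L₁, hδ₁, h₁⟩ := hA ε hε
  obtain ⟨δ₂, L₂, hδ₂, h₂⟩ := hB (max M M₀) (le_max_right _ _) ε hε
  refine ⟨min δ₁ δ₂, max L₁ L₂, lt_min hδ₁ hδ₂, fun z₀ hz₀ hB₀ => ?_⟩
  filter_upwards [h₁ z₀ hz₀ hB₀, h₂ z₀ hz₀ hB₀, eventually_gt_atTop 0] with n a₁ a₂ hn
  intro z hBz hd hz hL hM
  have hn' : (0 : ℝ) < n := by exact_mod_cast hn
  have hL' : max L₁ L₂ ≤ n * z.im := by
    rw [div_le_iff₀ hn'] at hL; linarith
  by_cases hc : z.im ≤ M₀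
  · refine le_trans (measure_mono fun c hc => hc.2) ?_
    exact a₁ z hBz (hd.trans (min_le_left _ _)) hz ((le_max_left _ _).trans hL') hz.le (by linarith)
  · refine le_trans (measure_mono fun c hc => hc.2) ?_
    exact a₂ z hBz (hd.trans (min_le_right _ _)) hz ((le_max_right _ _).trans hL')
      (not_le.1 hc).le (hM.trans (le_max_left _ _))

theorem lm_osmall_base {q : ℕ} {π : Measure II} {s κ m M T₁ θ₀ x₁ C : ℝ}
    (h : ∀ (z : ℂ) (n : ℕ), m ≤ z.im → z.im ≤ M → Bulk q κ z.re →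
      cfgLaw (Fin n) q π {c | ¬ Pre s z T₁ θ₀ x₁ c} ≤ ENNReal.ofReal (C / n)) :
    OSmall q π s κ m M T₁ θ₀ := by
  intro ε hε
  refine ⟨0, ?_⟩
  have ht : Tendsto (fun n : ℕ => C / (n : ℝ)) atTop (𝓝 0) := tendsto_const_div_atTop_nhds_zero_nat C
  filter_upwards [ht.eventually (gt_mem_nhds hε)] with n hn
  intro z hB _ _ hm hM
  refine le_trans (measure_mono fun c hc => ?_) ((h z n hm hM hB).trans (ENNReal.ofReal_le_ofReal hn.le))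
  exact fun hp => hc hp.1

theorem lm_sq_small {C x s : ℝ} (hx : 0 < x) (hs0 : 0 ≤ s) (hs : s ≤ √(x / (|C| + 1))) :
    C * s ^ 2 ≤ x := by
  have h1 : s ^ 2 ≤ x / (|C| + 1) := by
    have h2 : 0 ≤ x / (|C| + 1) := by positivity
    calc s ^ 2 ≤ √(x / (|C| + 1)) ^ 2 := by gcongr
      _ = _ := Real.sq_sqrt h2
  have h3 : (0 : ℝ) < |C| + 1 := by positivity
  calc C * s ^ 2 ≤ (|C| + 1) * s ^ 2 := by
        have := le_abs_self C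
        nlinarith [sq_nonneg s]
    _ ≤ (|C| + 1) * (x / (|C| + 1)) := by gcongr
    _ = x := by field_simp

theorem stLL (hK : StKit) (hZ : StZC) (hW : StW) (hS : StStab) (hGL : StGL) (hGX : StGX)
    (hV : StView) (hTB : StTB) (hR : StRDE) (hC0 : StC0) (hC1 : StC1) (hC2 : StC2) (hC3 : StC3)
    (hT : StT) (hP3 : StP3) (hP4 : StP4) : StLL := by
  intro q κ hq hκ
  obtain ⟨x₁, C₁, hx₁, hC₁, hstep⟩ := lm_step hK hZ hC0 hC1 q hq hκ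
  obtain ⟨Mb, hMb, hbase⟩ := lm_base hZ hC0 hP3 q hq hκ hx₁
  obtain ⟨Mc, hMc, hDB⟩ := lm_dsmallB hK hZ hC0 hC3 q hq hκ
  set M₀ := max Mb Mc with hM₀
  have hM₀2 : 2 ≤ M₀ := hMb.trans (le_max_left _ _)
  have hsq : 0 ≤ √(q : ℝ) := Real.sqrt_nonneg _
  set M' := 2 * √(q : ℝ) + 2 * M₀ with hM'
  obtain ⟨T₂, hpp⟩ := lm_post_pre hZ hC0 q hq hκ (2 * M₀)
  set T₁ := max T₂ (max (3 * (2 * M₀)) M') with hT₁
  have hT₁a : T₂ ≤ T₁ := le_max_left _ _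
  have hT₁b : 3 * (2 * M₀) ≤ T₁ := (le_max_left _ _).trans (le_max_right _ _)
  have hT₁c : M' ≤ T₁ := (le_max_right _ _).trans (le_max_right _ _)
  obtain ⟨θ₀, C, K, K₂, t₀, n₀, hθ₀, hC, hK1, -, hK₂, ht₀, hP⟩ :=
    lm_pack hK hZ hS hTB hR q hq (M := M') (T₁ := T₁) (by linarith) hT₁c
  obtain ⟨x₀, γ, hx₀, hγ, hγ1, hpp⟩ := hpp θ₀ x₁ hθ₀ hx₁
  obtain ⟨x₂, hx₂, hDA⟩ := lm_dsmallA hK hZ hC0 hC2 hP4 q hq hκ (2 * M₀)
  obtain ⟨sT, CT, hsT, hsT1, hTree⟩ := hT q κ hq hκ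
  set x := min x₀ x₂ with hx
  have hxpos : 0 < x := lt_min hx₀ hx₂
  obtain ⟨C', hC', hstep⟩ := hstep M' T₁ θ₀ C K K₂ t₀ n₀ hP ht₀ x hxpos
  obtain ⟨Cb, hCb, hb₁⟩ := hbase (2 * M₀) θ₀ T₁ hθ₀ hT₁b
  refine ⟨min (min sT (min x₁ x₂)) (min √(x / 2 / (|C₁| + 1)) √(x₂ / 8 / (|CT| + 1))),
    by positivity, fun s π _ hs0 hs => ?_⟩
  have hs₁ : s ≤ sT := hs.trans ((min_le_left _ _).trans (min_le_left _ _))
  have hs₂ : s ≤ x₁ := hs.trans ((min_le_left _ _).trans ((min_le_right _ _).trans (min_le_left _ _)))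
  have hs₃ : s ≤ x₂ := hs.trans ((min_le_left _ _).trans ((min_le_right _ _).trans (min_le_right _ _)))
  have hs₄ : C₁ * s ^ 2 ≤ x / 2 :=
    lm_sq_small (by positivity) hs0 (hs.trans ((min_le_right _ _).trans (min_le_left _ _)))
  have hs₅ : CT * s ^ 2 ≤ x₂ / 8 :=
    lm_sq_small (by positivity) hs0 (hs.trans ((min_le_right _ _).trans (min_le_right _ _)))
  have hs1 : s ≤ 1 := hs₁.trans hsT1
  have hTS := hTree s π hs0 hs₁
  have hChain : Chain q π s κ (2 * M₀) T₁ θ₀ x := by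
    refine lm_chain π (x₁ := x₁) (γ := γ) (t₀ := t₀) (C₁ := Cb) (C₂ := C') (n₀ := n₀) (by linarith)
      hγ hγ1 hCb hC' (fun z V _ _ h1 h2 h3 => ?_) (fun z V _ _ t h1 h2 h3 h4 h5 h6 => ?_)
      (fun z z' V _ _ c h1 h2 h3 h4 h5 h6 h7 => ?_)
    · exact hb₁ π s z V hs0 hs1 ((le_max_left _ _).trans h1) h2 h3
    · exact hstep π s z V t ⟨hs0, hs1, h1, lm_norm_le hκ h3 h1 h2, h4, h5, h6⟩ h3 hs₂ hs₄
    · exact hpp x T₁ s z z' V c (min_le_left _ _) hT₁a h1 h2 h3 h4 h5 h6 h7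
  have hU : UIB q π s κ K₂ :=
    lm_uib hK hZ π hs0 hs1 hκ (by linarith) (by linarith) hK₂ ht₀ hP hChain
  refine ⟨lm_LL1 (M₀ := M₀) ?_ (fun M hM => ?_) (by linarith), lm_LL2 hK hZ π hK₂ hU,
    lm_LL3 hK hZ π hK₂ hU⟩
  · exact lm_star hK hZ hW hGL hGX hV hC0 hP4 hq π hκ hs0 hs1 le_rfl hK1 ht₀ hP
      (lm_osmall_of_chain hChain)
      (hDA π s M' T₁ θ₀ x C K K₂ t₀ CT n₀ hs0 hs1 hs₃ (min_le_right _ _) hs₅ le_rfl ht₀ hP hChain hTS)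
      hTS
  · obtain ⟨θ₀', C₂, K', K₂', t₀', n₀', hθ₀', -, hK1', -, -, ht₀', hP'⟩ :=
      lm_pack hK hZ hS hTB hR q hq (M := 2 * √(q : ℝ) + M)
        (T₁ := max (3 * M) (2 * √(q : ℝ) + M)) ((by linarith : (1 : ℝ) ≤ 3 * M).trans (le_max_left _ _))
        (le_max_right _ _)
    obtain ⟨Cb', -, hb₂⟩ := hbase M θ₀' (max (3 * M) (2 * √(q : ℝ) + M)) hθ₀' (le_max_left _ _)
    have hO : OSmall q π s κ M₀ M (max (3 * M) (2 * √(q : ℝ) + M)) θ₀' := by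
      refine lm_osmall_base (x₁ := x₁) (C := Cb') fun z n h1 h2 h3 => ?_
      simpa using hb₂ π s z (Fin n) hs0 hs1 ((le_max_left _ _).trans h1) h2 h3
    exact lm_star hK hZ hW hGL hGX hV hC0 hP4 hq π hκ hs0 hs1 le_rfl hK1' ht₀' hP' hO
      (hDB π s M₀ M _ _ θ₀' C₂ K' K₂' t₀' n₀' hs0 hs1 (le_max_right _ _) le_rfl ht₀' hP' hO) hTS

end Crest.Agent.R166
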