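import Crest.Agent.R166.LM.Defs
import Crest.Agent.R166.P.Basic
import Crest.Agent.R166.LR.Det

/-!
# Row 166, block LM: elementary facts
-/

set_option autoImplicit false

open MeasureTheory ProbabilityTheory Filter Topology Complex
open scoped ENNReal NNReal BigOperators Matrix

noncomputable section

namespace Crest.Agent.R166

section
variable {V : Type} [Fintype V] [DecidableEq V] {q : ℕ}

/-- `Yc` has positive imaginary part (`StZC.pos`). -/
theorem lm_dec_mono (hZ : StZC) {s : ℝ} {z : ℂ} (hz : 0 < z.im) {e e' : ℝ} (he : 0 ≤ e)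
    (hee : e ≤ e') {c : Cfg V q} {h : HE V q} (hd : dec s z e c h) : dec s z e' c h := by
  unfold dec at hd ⊢
  have h1 := (hZ.pos q s z V c h hz).1
  have h2 := (hZ.pos q s z V c (c.1 h) hz).1
  refine hd.trans ?_
  gcongr

theorem lm_good_mono (hZ : StZC) {s : ℝ} {z : ℂ} (hz : 0 < z.im) {T T' e e' : ℝ} (hT : T ≤ T')
    (he : 0 ≤ e) (hee : e ≤ e') {c : Cfg V q} {h : HE V q} (hd : good s z T e c h) :
    good s z T' e' c h :=
  ⟨lm_dec_mono hZ hz he hee hd.1, hd.2.1.trans hT, hd.2.2.trans hT⟩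

theorem lm_bad_mono (hZ : StZC) {s : ℝ} {z : ℂ} (hz : 0 < z.im) {T T' e e' : ℝ} (hT : T ≤ T')
    (he : 0 ≤ e) (hee : e ≤ e') (c : Cfg V q) : bad s z T' e' c ≤ bad s z T e c :=
  p_frac_mono fun _ hn hg => hn (lm_good_mono hZ hz hT he hee hg)

/-- Markov inequality for averages: `frac (a < f) ≤ avg f / a`. -/
theorem lm_frac_markov {ι : Type} [Fintype ι] {f : ι → ℝ} (hf : ∀ i, 0 ≤ f i) {a : ℝ} (ha : 0 < a) :
    (frac fun i => a < f i) ≤ avg f / a := by
  rw [div_eq_inv_mul, ← p_avg_mul]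
  refine p_avg_mono fun i => ?_
  split_ifs with h
  · rw [← div_eq_inv_mul, le_div_iff₀ ha]; linarith
  · have := hf i; positivity

/-- loops are rare: `TreeLike σ 0 h` excludes a loop at `h` (take `k = 0`, `l = []`); `cfgLaw` is
`uniformOn univ` times a probability measure (`p_uniform_apply`, `lm_frac_markov`). -/
theorem lm_loops (hP : StP3) (q : ℕ) : ∃ C : ℝ, 0 ≤ C ∧ ∀ (π : Measure II) [IsProbabilityMeasure π]
    (V : Type) [Fintype V] [DecidableEq V] (θ : ℝ), 0 < θ →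
    cfgLaw V q π {c | θ < frac fun h : HE V q => (c.1 h).1 = h.1} ≤
      ENNReal.ofReal (C / (θ * Fintype.card V)) := by
  obtain ⟨C, hC⟩ := hP q 0
  refine ⟨max C 0, le_max_right _ _, fun π _ V _ _ θ hθ => ?_⟩
  have h1 : {c : Cfg V q | θ < frac fun h : HE V q => (c.1 h).1 = h.1} =
      {σ : Pairing V q | θ < frac fun h : HE V q => (σ h).1 = h.1} ×ˢ (Set.univ : Set (V → II)) := by
    ext c; simp
  rw [h1, cfgLaw, Measure.prod_prod, measure_univ, mul_one, p_uniform_apply]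
  refine ENNReal.ofReal_le_ofReal ?_
  refine (lm_frac_markov (fun σ => p_frac_nonneg _) hθ).trans ?_
  have h2 : (avg fun σ : Pairing V q => frac fun h : HE V q => (σ h).1 = h.1) ≤
      max C 0 / Fintype.card V := by
    refine le_trans (p_avg_mono fun σ => p_frac_mono fun h hh ht => ?_) ((hC V).trans ?_)
    · exact ht.1 0 [] le_rfl (by simpa [walk, p_rot_zero] using hh)
    · gcongr; exact le_max_left _ _
  calc _ ≤ (max C 0 / Fintype.card V) / θ := by gcongr
    _ = _ := by rw [div_div, mul_comm]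

end

private theorem pos_of_mul_pos_of_pos_right' {a b : ℝ} (h : 0 < a * b) (hb : 0 < b) : 0 < a :=
  (pos_iff_pos_of_mul_pos h).2 hb

theorem lm_ind_nonneg (p : Prop) : 0 ≤ ind p := by unfold ind; split_ifs <;> norm_num
theorem lm_ind_le_one (p : Prop) : ind p ≤ 1 := by unfold ind; split_ifs <;> norm_num
theorem lm_ind_mono {p p' : Prop} (h : p → p') : ind p ≤ ind p' := by
  unfold ind
  by_cases hp : p
  · simp [hp, h hp]
  · simp only [hp, if_false]; split_ifs <;> norm_num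
theorem lm_ind_pos {p : Prop} (h : p) : ind p = 1 := by simp [ind, h]
theorem lm_ind_neg {p : Prop} (h : ¬ p) : ind p = 0 := by simp [ind, h]

theorem lm_meas_ind {X : Type} [MeasurableSpace X] {p : X → Prop} (hp : MeasurableSet {x | p x}) :
    Measurable fun x => ind (p x) := by
  classical
  unfold ind
  convert Measurable.ite hp (measurable_const (a := (1 : ℝ))) (measurable_const (a := (0 : ℝ)))

theorem lm_meas_avg {X ι : Type} [MeasurableSpace X] [Fintype ι] {f : X → ι → ℝ}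
    (hf : ∀ i, Measurable fun x => f x i) : Measurable fun x => avg (f x) := by
  unfold avg
  exact (Finset.measurable_sum _ fun i _ => hf i).div_const _

theorem lm_meas_frac {X ι : Type} [MeasurableSpace X] [Fintype ι] {p : X → ι → Prop}
    (hp : ∀ i, MeasurableSet {x | p x i}) : Measurable fun x => frac (p x) :=
  lm_meas_avg fun i => lm_meas_ind (hp i)

/-- weighted Markov inequality -/
theorem lm_markov {X : Type} [MeasurableSpace X] (μ : Measure X) [IsFiniteMeasure μ] {p : X → Prop}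
    (hp : MeasurableSet {x | p x}) {f : X → ℝ} (hf : Measurable f) {B : ℝ} (h0 : ∀ x, 0 ≤ f x)
    (hB : ∀ x, f x ≤ B) {a b : ℝ} (ha : 0 < a) (hb : ∫ x, ind (p x) * f x ∂μ ≤ b) :
    μ {x | p x ∧ a < f x} ≤ ENNReal.ofReal (b / a) := by
  have hm : Measurable fun x => ind (p x) * f x := (lm_meas_ind hp).mul hf
  have hn : ∀ x, 0 ≤ ind (p x) * f x := fun x => mul_nonneg (lm_ind_nonneg _) (h0 x)
  have hi : Integrable (fun x => ind (p x) * f x) μ := by
    refine Integrable.of_bound hm.aestronglyMeasurable B (ae_of_all _ fun x => ?_)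
    rw [Real.norm_eq_abs, abs_of_nonneg (hn x)]
    exact (mul_le_of_le_one_left (h0 x) (lm_ind_le_one _)).trans (hB x)
  have h1 := mul_meas_ge_le_integral_of_nonneg (ae_of_all μ hn) hi a
  have h2 : {x | p x ∧ a < f x} ⊆ {x | a ≤ ind (p x) * f x} := fun x hx => by
    simp only [Set.mem_ofPred_eq, lm_ind_pos hx.1, one_mul]; exact hx.2.le
  refine (measure_mono h2).trans ?_
  rw [← ofReal_measureReal]
  refine ENNReal.ofReal_le_ofReal ?_
  rw [le_div_iff₀ ha, mul_comm]
  exact h1.trans hb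

/-- removing the weight -/
theorem lm_unweight {X : Type} [MeasurableSpace X] (μ : Measure X) [IsFiniteMeasure μ]
    {p : X → Prop} (hp : MeasurableSet {x | p x}) {f : X → ℝ} (hf : Measurable f)
    (h0 : ∀ x, 0 ≤ f x) (h1 : ∀ x, f x ≤ 1) {a : ℝ} (ha : 0 ≤ a)
    (hμ : μ {x | ¬ p x} ≤ ENNReal.ofReal a) :
    ∫ x, f x ∂μ ≤ ∫ x, ind (p x) * f x ∂μ + a := by
  have hm : Measurable fun x => ind (p x) * f x := (lm_meas_ind hp).mul hf
  have hi : Integrable (fun x => ind (p x) * f x) μ := by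
    refine Integrable.of_bound hm.aestronglyMeasurable 1 (ae_of_all _ fun x => ?_)
    rw [Real.norm_eq_abs, abs_of_nonneg (mul_nonneg (lm_ind_nonneg _) (h0 x))]
    exact (mul_le_of_le_one_left (h0 x) (lm_ind_le_one _)).trans (h1 x)
  have hc : MeasurableSet {x | ¬ p x} := hp.compl
  have hj : Integrable ({x | ¬ p x}.indicator fun _ => (1 : ℝ)) μ :=
    (integrable_const _).indicator hc
  have h2 : ∫ x, f x ∂μ ≤ ∫ x, (ind (p x) * f x + {x | ¬ p x}.indicator (fun _ => (1 : ℝ)) x) ∂μ := by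
    refine integral_mono_of_nonneg (ae_of_all _ h0) (hi.add hj) (ae_of_all _ fun x => ?_)
    by_cases hx : p x
    · simp [ind, hx]
    · simp [ind, hx, h1 x]
  rw [integral_add hi hj, integral_indicator_const _ hc, smul_eq_mul, mul_one] at h2
  have h3 : μ.real {x | ¬ p x} ≤ a := ENNReal.toReal_le_of_le_ofReal ha hμ
  linarith

theorem lm_tt_pow {n : ℕ} {η : ℝ} (hη : 0 ≤ η) : 4 * tt n η ^ 200 = n * η := by
  unfold tt
  have h : (0 : ℝ) ≤ n * η / 4 := by positivity
  rw [← Real.rpow_natCast, ← Real.rpow_mul h]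
  norm_num
  ring

theorem lm_tt_pos {n : ℕ} {η : ℝ} (h : 0 < n * η) : 0 < tt n η :=
  Real.rpow_pos_of_pos (by positivity) _

theorem lm_tt_mul {n : ℕ} {η a : ℝ} (hη : 0 ≤ η) (ha : 0 ≤ a) :
    tt n (a * η) = a ^ (1 / 200 : ℝ) * tt n η := by
  unfold tt
  rw [← Real.mul_rpow ha (by positivity)]
  congr 1; ring

theorem lm_tt_large (t₀ : ℝ) : ∃ L₀ : ℝ, 0 < L₀ ∧ ∀ (n : ℕ) (η : ℝ), L₀ ≤ n * η → t₀ ≤ tt n η := by
  refine ⟨4 * max t₀ 1 ^ 200, by positivity, fun n η h => ?_⟩
  have h1 : (0 : ℝ) < max t₀ 1 := lt_of_lt_of_le one_pos (le_max_right _ _)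
  have h2 : max t₀ 1 ^ 200 ≤ n * η / 4 := by linarith
  refine (le_max_left t₀ 1).trans ?_
  unfold tt
  calc max t₀ 1 = (max t₀ 1 ^ 200) ^ (1 / 200 : ℝ) := by
        rw [← Real.rpow_natCast, ← Real.rpow_mul h1.le]; norm_num
    _ ≤ _ := Real.rpow_le_rpow (by positivity) h2 (by norm_num)

/-- `1/n ≤ M/t` as soon as `4 t^200 ≤ n η`, `η ≤ M`, `1 ≤ t` -/
theorem lm_inv_n {n : ℕ} {η M t : ℝ} (hη : 0 < η) (hM : η ≤ M) (ht : 1 ≤ t)
    (h : 4 * t ^ 200 ≤ n * η) : (1 : ℝ) / n ≤ M / t := by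
  have h1 : t ≤ t ^ 200 := le_self_pow₀ ht (by norm_num)
  have h2 : (0 : ℝ) < n * η := by linarith
  have hn : (0 : ℝ) < n := pos_of_mul_pos_of_pos_right' h2 hη
  rw [div_le_div_iff₀ hn (by linarith)]
  nlinarith

end Crest.Agent.R166
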