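import Crest.Agent.R166.LL.Iface
import Crest.Agent.R166.T0.Main

/-!
# Row 166, block LM (multiscale induction): definitions
-/

set_option autoImplicit false

open MeasureTheory ProbabilityTheory Filter Topology Complex
open scoped ENNReal NNReal BigOperators Matrix

noncomputable section

namespace Crest.Agent.R166

section
variable {V : Type} [Fintype V] [DecidableEq V] {q : ℕ}

/-- mean square of the Koenigs coordinate of the cavity values -/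
def XX (s : ℝ) (z : ℂ) (c : Cfg V q) : ℝ := avg fun h : HE V q => ‖uu q z (Yc s z c h)‖ ^ 2

/-- the basic event -/
def Om0 (s : ℝ) (z : ℂ) (T₁ θ₀ : ℝ) (c : Cfg V q) : Prop := bad s z T₁ (1 / 100) c ≤ θ₀

/-- input of one step of the multiscale induction -/
def Pre (s : ℝ) (z : ℂ) (T₁ θ₀ x₁ : ℝ) (c : Cfg V q) : Prop := Om0 s z T₁ θ₀ c ∧ XX s z c ≤ x₁

/-- output of one step of the multiscale induction -/
def Post (s : ℝ) (z : ℂ) (x₀ : ℝ) (c : Cfg V q) : Prop :=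
  XX s z c ≤ x₀ ∧ (frac fun h => ¬ dec s z (1 / 400) c h) ≤ x₀

/-- mean square distance between the cavity values and the tree values at `z₀` -/
def DD (s : ℝ) (z z₀ : ℂ) (c : Cfg V q) : ℝ :=
  avg fun h : HE V q => ‖uu q z (Yc s z c h) - uu q z (mT s z₀ (view c h))‖ ^ 2

/-- the level system -/
def OmL (q : ℕ) (s : ℝ) (z : ℂ) (T₁ θ₀ ε₁ p₁ : ℝ) (l : ℕ) : FamP q :=
  fun _ _ _ c => bad s z ((1 + ε₁) ^ l * T₁) (1 / 100 + l * ε₁) c ≤ θ₀ + l * p₁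

end

/-- the scale parameter: `4 t ^ 200 = n η` -/
def tt (n : ℕ) (η : ℝ) : ℝ := (n * η / 4) ^ (1 / 200 : ℝ)

/-- admissible parameters -/
structure Adm (M t₀ : ℝ) (n₀ : ℕ) (s : ℝ) (z : ℂ) (n : ℕ) (t : ℝ) : Prop where
  s0 : 0 ≤ s
  s1 : s ≤ 1
  im : 0 < z.im
  norm : ‖z‖ ≤ M
  n0 : n₀ ≤ n
  t0 : t₀ ≤ t
  scale : 4 * t ^ 200 ≤ n * z.im

/-- all one-scale estimates, with the parameters chosen as powers of `t` -/
structure Pack (q : ℕ) (M T₁ θ₀ C K K₂ t₀ : ℝ) (n₀ : ℕ) : Prop where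
  rde : ∀ R : ℕ, ∃ CR : ℝ, ∀ (π : Measure II) [IsProbabilityMeasure π] (s : ℝ) (z : ℂ) (V : Type)
    [Fintype V] [DecidableEq V] (t Λ ε₂ : ℝ) (F : ℂ × Env q → ℝ),
    Adm M t₀ n₀ s z (Fintype.card V) t → 0 ≤ Λ → 0 ≤ ε₂ → TestF Λ ε₂ R F →
    ∫ c, ind (Om0 s z T₁ θ₀ c) * (RA s z F c - RB π s z F c) ^ 2 ∂cfgLaw V q π ≤
      C * ((1 + Λ) / t + ε₂) + CR / Fintype.card V
  dec : ∀ (π : Measure II) [IsProbabilityMeasure π] (s : ℝ) (z : ℂ) (V : Type) [Fintype V]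
    [DecidableEq V] (t e : ℝ), Adm M t₀ n₀ s z (Fintype.card V) t → (t ^ 20)⁻¹ ≤ e →
    ∫ c, ind (Om0 s z T₁ θ₀ c) * frac (fun h => ¬ dec s z e c h) ∂cfgLaw V q π ≤ C / t
  tail : ∀ (π : Measure II) [IsProbabilityMeasure π] (s : ℝ) (z : ℂ) (V : Type) [Fintype V]
    [DecidableEq V] (t : ℝ), Adm M t₀ n₀ s z (Fintype.card V) t →
    ∫ c, ind (Om0 s z T₁ θ₀ c) * bad s z (K * t ^ 4) (1 / 50) c ∂cfgLaw V q π ≤ C / t ^ 180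
  two : ∀ (π : Measure II) [IsProbabilityMeasure π] (s : ℝ) (z : ℂ) (V : Type) [Fintype V]
    [DecidableEq V] (t : ℝ), Adm M t₀ n₀ s z (Fintype.card V) t →
    ∫ c, ind (IsSimple c.1 ∧ bad s z (K * t ^ 4) (1 / 50) c ≤ (t ^ 120)⁻¹) *
      frac (fun v => K₂ * t ^ 4 < (Gr (Hm s c) z v v).im) ∂cfgLaw V q π ≤ C / t ^ 240
  mid : ∀ (π : Measure II) [IsProbabilityMeasure π] (s : ℝ) (z : ℂ) (V : Type) [Fintype V]
    [DecidableEq V] (t : ℝ), Adm M t₀ n₀ s z (Fintype.card V) t →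
    ∫ c, ind (Om0 s z T₁ θ₀ c) * avg (fun v => min (Gr (Hm s c) z v v).im (K₂ * t ^ 4))
      ∂cfgLaw V q π ≤ C

/-- the outcome of the multiscale induction on the strip `Im z ≤ M` -/
def Chain (q : ℕ) (π : Measure II) (s κ M T₁ θ₀ x₀ : ℝ) : Prop :=
  ∃ (C L₀ : ℝ) (n₀ : ℕ), ∀ (V : Type) [Fintype V] [DecidableEq V] (z : ℂ), n₀ ≤ Fintype.card V →
    Bulk q κ z.re → 0 < z.im → L₀ ≤ Fintype.card V * z.im → z.im ≤ M →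
    cfgLaw V q π {c | ¬ (Om0 s z T₁ θ₀ c ∧ Post s z x₀ c)} ≤
      ENNReal.ofReal (C / tt (Fintype.card V) z.im)

/-- smallness of `DD` on the strip `m ≤ Im z ≤ M` -/
def DSmall (q : ℕ) (π : Measure II) (s κ m M : ℝ) : Prop :=
  ∀ ε : ℝ, 0 < ε → ∃ δ L₀ : ℝ, 0 < δ ∧ ∀ z₀ : ℂ, 0 < z₀.im → Bulk q κ z₀.re →
    ∀ᶠ n : ℕ in atTop, ∀ z : ℂ, Bulk q κ z.re → ‖z - z₀‖ ≤ δ → 0 < z.im → L₀ ≤ n * z.im →
      m ≤ z.im → z.im ≤ M → cfgLaw (Fin n) q π {c | ε < DD s z z₀ c} ≤ ENNReal.ofReal ε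

/-- the basic event is likely on the strip `m ≤ Im z ≤ M` -/
def OSmall (q : ℕ) (π : Measure II) (s κ m M T₁ θ₀ : ℝ) : Prop :=
  ∀ ε : ℝ, 0 < ε → ∃ L₀ : ℝ, ∀ᶠ n : ℕ in atTop, ∀ z : ℂ, Bulk q κ z.re → 0 < z.im →
    L₀ ≤ n * z.im → m ≤ z.im → z.im ≤ M →
    cfgLaw (Fin n) q π {c | ¬ Om0 s z T₁ θ₀ c} ≤ ENNReal.ofReal ε

/-- `LL1` restricted to the strip `m ≤ Im z ≤ M` -/
def LL1On (q : ℕ) (π : Measure II) (s κ m M : ℝ) : Prop :=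
  ∀ ε : ℝ, 0 < ε → ∃ δ L₀ : ℝ, 0 < δ ∧ ∀ z₀ : ℂ, 0 < z₀.im → Bulk q κ z₀.re →
    ∀ᶠ n : ℕ in atTop, ∀ z : ℂ, Bulk q κ z.re → ‖z - z₀‖ ≤ δ → 0 < z.im → L₀ ≤ n * z.im →
      m ≤ z.im → z.im ≤ M →
      cfgLaw (Fin n) q π {c | ε < frac fun h : HE (Fin n) q => ∃ a b,
        ε < ‖Gr (Hm s c) z (sp c.1 h a) (sp c.1 h b) - GS s z₀ (sview c h) a b‖} ≤ ENNReal.ofReal ε

/-- uniform integrability of the diagonal entries on the strip `Im z ≤ 1` -/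
def UIB (q : ℕ) (π : Measure II) (s κ K₂ : ℝ) : Prop :=
  ∃ (C L₀ : ℝ) (n₀ : ℕ), ∀ (n : ℕ) (E η : ℝ), n₀ ≤ n → Bulk q κ E → 0 < η → L₀ ≤ n * η → η ≤ 1 →
    ∃ G : Set (Cfg (Fin n) q), MeasurableSet G ∧
      cfgLaw (Fin n) q π Gᶜ ≤ ENNReal.ofReal (C / tt n η) ∧
      ∫ c, ind (IsSimple c.1 ∧ c ∈ G) *
        avg (fun v => max ((Gr (Hm s c) (E + η * I) v v).im - K₂ * tt n η ^ 4) 0)
          ∂cfgLaw (Fin n) q π ≤ C / tt n η ^ 236 ∧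
      ∫ c, ind (c ∈ G) * avg (fun v => min (Gr (Hm s c) (E + η * I) v v).im (K₂ * tt n η ^ 4))
          ∂cfgLaw (Fin n) q π ≤ C

end Crest.Agent.R166
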