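import Crest.Agent.R166.LM.Basic
import Crest.Agent.R166.B0.Comb

/-!
# Row 166, block LM: empirical measures and the distributional recursion
-/

set_option autoImplicit false

open MeasureTheory ProbabilityTheory Filter Topology Complex
open scoped ENNReal NNReal BigOperators Matrix

noncomputable section

namespace Crest.Agent.R166

section
variable {ι X : Type} [Fintype ι] [MeasurableSpace X]

theorem lm_emp_prob [Nonempty ι] (f : ι → X) : IsProbabilityMeasure (emp f) := b0_emp_prob f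

theorem lm_emp_int [MeasurableSingletonClass X] (f : ι → X) (g : X → ℝ) :
    ∫ x, g x ∂emp f = avg fun i => g (f i) := b0_emp_integral f g

theorem lm_emp_ae [MeasurableSingletonClass X] (f : ι → X) {p : X → Prop} (h : ∀ i, p (f i)) :
    ∀ᵐ x ∂emp f, p x := by
  unfold emp
  refine Measure.ae_smul_measure ?_ _
  rw [ae_finsetSum_measure_iff]
  intro i _
  rw [ae_dirac_eq]
  exact h i

/-- the product of empirical measures is the empirical measure of the tuples
(`Measure.pi_eq` on boxes, `Finset.prod_univ_sum`) -/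
theorem lm_emp_pi [DecidableEq ι] [Nonempty ι] (q : ℕ) (f : ι → X) :
    (Measure.pi fun _ : Fin q => emp f) = emp fun h : Fin q → ι => fun j => f (h j) := by
  have := lm_emp_prob f
  refine Measure.pi_eq fun t ht => ?_
  have hc : (Fintype.card ι : ℝ≥0∞) ≠ 0 := by exact_mod_cast Fintype.card_ne_zero
  simp only [emp, Measure.smul_apply, Measure.coe_finsetSum, Finset.sum_apply, smul_eq_mul]
  rw [Finset.prod_mul_distrib, Finset.prod_univ_sum]
  simp only [Finset.prod_const, Finset.card_univ, Fintype.card_fin, Fintype.card_pi,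
    Fintype.piFinset_univ]
  congr 1
  · push_cast
    rw [ENNReal.inv_pow]
  · refine Finset.sum_congr rfl fun h _ => ?_
    rw [Measure.dirac_apply' _ (MeasurableSet.univ_pi ht)]
    simp only [Measure.dirac_apply' _ (ht _)]
    by_cases hh : ∀ j, f (h j) ∈ t j
    · rw [Set.indicator_of_mem (by simpa [Set.mem_pi] using hh)]
      simp [Set.indicator_of_mem (hh _)]
    · rw [Set.indicator_of_notMem (by simpa [Set.mem_pi] using hh)]
      push Not at hh
      obtain ⟨j, hj⟩ := hh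
      exact (Finset.prod_eq_zero (Finset.mem_univ j) (Set.indicator_of_notMem hj _)).symm

end

theorem lm_meas_Psi {q : ℕ} (s : ℝ) (z : ℂ) :
    Measurable fun p : II × (Fin q → ℂ) => Psi s z p.1 p.2 := by
  unfold Psi
  refine Measurable.neg (Measurable.inv ?_)
  refine Measurable.add (Measurable.sub measurable_const (Measurable.mul measurable_const ?_)) ?_
  · exact Complex.measurable_ofReal.comp (measurable_subtype_coe.comp measurable_fst)
  · exact Finset.measurable_sum _ fun j _ => (measurable_pi_apply j).comp measurable_snd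

theorem lm_meas_Psi2 {q : ℕ} (s : ℝ) (z z' : ℂ) :
    Measurable fun p : II × (Fin q → ℂ × ℂ) =>
      (Psi s z p.1 fun j => (p.2 j).1, Psi s z' p.1 fun j => (p.2 j).2) := by
  refine Measurable.prodMk ?_ ?_
  · exact (lm_meas_Psi s z).comp (f := fun p : II × (Fin q → ℂ × ℂ) => (p.1, fun j => (p.2 j).1))
      (measurable_fst.prodMk (measurable_pi_lambda _ fun j =>
        measurable_fst.comp ((measurable_pi_apply j).comp measurable_snd)))
  · exact (lm_meas_Psi s z').comp (f := fun p : II × (Fin q → ℂ × ℂ) => (p.1, fun j => (p.2 j).2))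
      (measurable_fst.prodMk (measurable_pi_lambda _ fun j =>
        measurable_snd.comp ((measurable_pi_apply j).comp measurable_snd)))

theorem lm_int_prod {ι X W : Type} [Fintype ι] [DecidableEq ι] [Nonempty ι] [MeasurableSpace X]
    [MeasurableSingletonClass X] [MeasurableSpace W] (q : ℕ) (π : Measure II)
    [IsProbabilityMeasure π] (Y : ι → X) {Φ : II × (Fin q → X) → W} (hΦ : Measurable Φ)
    {f : W → ℝ} (hf : Measurable f) {B : ℝ} (hB : ∀ x, |f x| ≤ B) :
    ∫ x, f x ∂((π.prod (Measure.pi fun _ : Fin q => emp Y)).map Φ) =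
      ∫ a, (avg fun h : Fin q → ι => f (Φ (a, fun j => Y (h j)))) ∂π := by
  have := lm_emp_prob Y
  rw [integral_map hΦ.aemeasurable hf.aestronglyMeasurable, integral_prod]
  · refine integral_congr_ae (ae_of_all _ fun a => ?_)
    simp only
    rw [lm_emp_pi, lm_emp_int]
  · exact Integrable.of_bound (hf.comp hΦ).aestronglyMeasurable B (ae_of_all _ fun x => hB _)

theorem lm_Psi_pos {q : ℕ} (s : ℝ) {z : ℂ} (hz : 0 < z.im) (a : II) {Y : Fin q → ℂ}
    (hY : ∀ j, 0 < (Y j).im) : 0 < (Psi s z a Y).im := by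
  unfold Psi
  set W : ℂ := z - s * (a : ℝ) + ∑ j, Y j with hW
  have h1 : 0 < W.im := by
    have : 0 ≤ ∑ j, (Y j).im := Finset.sum_nonneg fun j _ => (hY j).le
    simp only [hW, Complex.add_im, Complex.sub_im, Complex.im_sum, Complex.mul_im,
      Complex.ofReal_re, Complex.ofReal_im]
    linarith
  have h2 : 0 < Complex.normSq W := Complex.normSq_pos.2 fun h => by simp [h] at h1
  rw [Complex.neg_im, Complex.inv_im, neg_div, neg_neg]
  positivity

theorem lm_ae_prod {ι X W : Type} [Fintype ι] [DecidableEq ι] [Nonempty ι] [MeasurableSpace X]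
    [MeasurableSingletonClass X] [MeasurableSpace W] (q : ℕ) (π : Measure II)
    [IsProbabilityMeasure π] (Y : ι → X) {Φ : II × (Fin q → X) → W} (hΦ : Measurable Φ)
    {p : W → Prop} (hp : MeasurableSet {x | p x})
    (h : ∀ (a : II) (h : Fin q → ι), p (Φ (a, fun j => Y (h j)))) :
    IsProbabilityMeasure ((π.prod (Measure.pi fun _ : Fin q => emp Y)).map Φ) ∧
      ∀ᵐ x ∂((π.prod (Measure.pi fun _ : Fin q => emp Y)).map Φ), p x := by
  have := lm_emp_prob Y
  refine ⟨Measure.isProbabilityMeasure_map hΦ.aemeasurable, ?_⟩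
  rw [ae_map_iff hΦ.aemeasurable hp]
  refine (Measure.ae_prod_iff_ae_ae (hΦ hp)).2 (ae_of_all _ fun a => ?_)
  rw [lm_emp_pi]
  exact lm_emp_ae _ (h a)

/-- `integral_map`, `integral_prod`, `lm_emp_pi`, `lm_emp_int` -/
theorem lm_T1 {ι : Type} [Fintype ι] [DecidableEq ι] [Nonempty ι] (q : ℕ) (π : Measure II)
    [IsProbabilityMeasure π] (s : ℝ) (z : ℂ) (Y : ι → ℂ) {f : ℂ → ℝ} (hf : Measurable f) {B : ℝ}
    (hB : ∀ x, |f x| ≤ B) :
    ∫ x, f x ∂T1 q π s z (emp Y) =
      ∫ a, (avg fun h : Fin q → ι => f (Psi s z a fun j => Y (h j))) ∂π :=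
  lm_int_prod q π Y (lm_meas_Psi s z) hf hB

theorem lm_T2 {ι : Type} [Fintype ι] [DecidableEq ι] [Nonempty ι] (q : ℕ) (π : Measure II)
    [IsProbabilityMeasure π] (s : ℝ) (z z' : ℂ) (Y : ι → ℂ × ℂ) {f : ℂ × ℂ → ℝ} (hf : Measurable f)
    {B : ℝ} (hB : ∀ x, |f x| ≤ B) :
    ∫ x, f x ∂T2 q π s z z' (emp Y) =
      ∫ a, (avg fun h : Fin q → ι =>
        f (Psi s z a fun j => (Y (h j)).1, Psi s z' a fun j => (Y (h j)).2)) ∂π :=
  lm_int_prod q π Y (lm_meas_Psi2 s z z') hf hB

/-- the recursion preserves the upper half plane almost surely -/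
theorem lm_T1_ae {ι : Type} [Fintype ι] [DecidableEq ι] [Nonempty ι] (q : ℕ) (π : Measure II)
    [IsProbabilityMeasure π] (s : ℝ) {z : ℂ} (hz : 0 < z.im) {Y : ι → ℂ} (hY : ∀ i, 0 < (Y i).im) :
    IsProbabilityMeasure (T1 q π s z (emp Y)) ∧ ∀ᵐ x ∂T1 q π s z (emp Y), 0 < x.im :=
  lm_ae_prod q π Y (lm_meas_Psi s z) (measurableSet_lt measurable_const Complex.measurable_im)
    fun a _ => lm_Psi_pos s hz a fun _ => hY _

theorem lm_T2_ae {ι : Type} [Fintype ι] [DecidableEq ι] [Nonempty ι] (q : ℕ) (π : Measure II)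
    [IsProbabilityMeasure π] (s : ℝ) {z z' : ℂ} (hz : 0 < z.im) (hz' : 0 < z'.im) {Y : ι → ℂ × ℂ}
    (hY : ∀ i, 0 < (Y i).1.im ∧ 0 < (Y i).2.im) :
    IsProbabilityMeasure (T2 q π s z z' (emp Y)) ∧
      ∀ᵐ x ∂T2 q π s z z' (emp Y), 0 < x.1.im ∧ 0 < x.2.im :=
  lm_ae_prod q π Y (lm_meas_Psi2 s z z')
    ((measurableSet_lt measurable_const (Complex.measurable_im.comp measurable_fst)).inter
      (measurableSet_lt measurable_const (Complex.measurable_im.comp measurable_snd)))
    fun a _ => ⟨lm_Psi_pos s hz a fun _ => (hY _).1, lm_Psi_pos s hz' a fun _ => (hY _).2⟩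

/-- continuous functions of the environment are uniformly local -/
theorem lm_local {q : ℕ} {f : Env q → ℂ} (hf : Continuous f) {ε : ℝ} (hε : 0 < ε) :
    ∃ R : ℕ, ∀ β β' : Env q, Agree R β β' → ‖f β - f β'‖ ≤ ε := by
  by_contra hcon
  push Not at hcon
  choose b b' hb using hcon
  obtain ⟨x, φ, hφ, hx⟩ := CompactSpace.tendsto_subseq fun R => (b R, b' R)
  have h1 : Tendsto (fun R => b (φ R)) atTop (𝓝 x.1) := (continuous_fst.tendsto x).comp hx
  have h2 : Tendsto (fun R => b' (φ R)) atTop (𝓝 x.2) := (continuous_snd.tendsto x).comp hx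
  have h3 : x.1 = x.2 := by
    funext l
    refine tendsto_nhds_unique_of_eventuallyEq ((continuous_apply l).tendsto _ |>.comp h1)
      ((continuous_apply l).tendsto _ |>.comp h2) ?_
    filter_upwards [eventually_ge_atTop l.length] with R hR
    exact (hb (φ R)).1 l (hR.trans (hφ.id_le R))
  have h4 : Tendsto (fun R => ‖f (b (φ R)) - f (b' (φ R))‖) atTop (𝓝 ‖f x.1 - f x.2‖) :=
    (((hf.tendsto _).comp h1).sub ((hf.tendsto _).comp h2)).norm
  rw [h3, sub_self, norm_zero] at h4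
  obtain ⟨R, hR⟩ := (h4.eventually (gt_mem_nhds hε)).exists
  exact absurd (hb (φ R)).2 (not_lt.2 hR.le)

/-- uniform continuity of `mT` in the depth -/
theorem lm_mT_local (q : ℕ) {s : ℝ} (hs0 : 0 ≤ s) (hs1 : s ≤ 1) {z₀ : ℂ} (hz₀ : 0 < z₀.im)
    {ε : ℝ} (hε : 0 < ε) : ∃ R : ℕ, ∀ β β' : Env q, Agree R β β' →
      ‖mT s z₀ β - mT s z₀ β'‖ ≤ ε :=
  lm_local ((stT0 q s hs0 hs1).1 z₀ hz₀).2.1 hε

/-- a `GLip` function composed with the tree value in the second slot is a test function, and `RA`, `RB`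
are its integrals against the empirical pair law and its image under `T2` (recursion of `mT`, `stT0`;
uniform continuity of `mT s z₀` on the compact `Env q`, on which `Im mT ≥ c`; a neighbourhood of the
diagonal in the product uniformity contains `Agree R`). -/
theorem lm_pairTest (q : ℕ) {s : ℝ} (hs0 : 0 ≤ s) (hs1 : s ≤ 1) {z₀ : ℂ} (hz₀ : 0 < z₀.im)
    {Λ ε₂ : ℝ} (hΛ : 0 ≤ Λ) (hε : 0 < ε₂) : ∃ R : ℕ, ∀ F : ℂ × ℂ → ℝ, GLip Λ F →
    TestF √Λ ε₂ R (fun p : ℂ × Env q => F (p.1, mT s z₀ p.2)) ∧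
    ∀ (π : Measure II) [IsProbabilityMeasure π] (z : ℂ) (V : Type) [Fintype V] [DecidableEq V]
      [Nonempty V] (c : Cfg V q),
      RA s z (fun p : ℂ × Env q => F (p.1, mT s z₀ p.2)) c =
        ∫ p, F p ∂emp (fun h : HE V q => (Yc s z c h, mT s z₀ (view c h))) ∧
      RB π s z (fun p : ℂ × Env q => F (p.1, mT s z₀ p.2)) c =
        ∫ p, F p ∂T2 q π s z z₀ (emp fun h : HE V q => (Yc s z c h, mT s z₀ (view c h))) := by
  obtain ⟨hU, hL⟩ := stT0 q s hs0 hs1
  obtain ⟨-, hcont, hrec⟩ := hU z₀ hz₀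
  obtain ⟨c₀, C₀, hc₀, hlow⟩ := hL z₀.im ‖z₀‖ hz₀
  have hlow' : ∀ β : Env q, c₀ ≤ (mT s z₀ β).im := fun β => (hlow z₀ z₀ le_rfl le_rfl le_rfl le_rfl β).1
  obtain ⟨R, hR⟩ := lm_local hcont (ε := ε₂ * c₀ / (√Λ + 1)) (by positivity)
  refine ⟨R, fun F hF => ⟨⟨?_, fun p => hF.2.1 _, fun p p' h1 h2 h3 => ?_⟩, ?_⟩⟩
  · exact hF.1.comp (measurable_fst.prodMk (hcont.measurable.comp measurable_snd))
  · have h4 := hF.2.2 (p.1, mT s z₀ p.2) (p'.1, mT s z₀ p'.2) h1 (hrec _).1 h2 (hrec _).1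
    have g1 : 0 ≤ gam p.1 p'.1 := by unfold gam; positivity
    have hS : 0 ≤ √Λ := Real.sqrt_nonneg _
    have g2 : Λ * gam (mT s z₀ p.2) (mT s z₀ p'.2) ≤ ε₂ ^ 2 := by
      unfold gam
      have a1 := hlow' p.2
      have a2 := hlow' p'.2
      have a3 := hR _ _ h3
      have a4 : ‖mT s z₀ p.2 - mT s z₀ p'.2‖ ^ 2 / ((mT s z₀ p.2).im * (mT s z₀ p'.2).im) ≤
          (ε₂ * c₀ / (√Λ + 1)) ^ 2 / (c₀ * c₀) := by
        have a5 := hc₀.le.trans a1
        gcongr
      calc _ ≤ Λ * ((ε₂ * c₀ / (√Λ + 1)) ^ 2 / (c₀ * c₀)) := by gcongr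
        _ = ε₂ ^ 2 * (√Λ ^ 2 / (√Λ + 1) ^ 2) := by rw [Real.sq_sqrt hΛ]; field_simp
        _ ≤ ε₂ ^ 2 * 1 := by
          gcongr
          rw [div_le_one (by positivity)]; nlinarith
        _ = _ := mul_one _
    refine abs_le_of_sq_le_sq' ?_ (by positivity) |> abs_le.2
    rw [sq_abs] at h4
    have e1 : (√Λ * √(gam p.1 p'.1)) ^ 2 = Λ * gam p.1 p'.1 := by
      rw [mul_pow, Real.sq_sqrt hΛ, Real.sq_sqrt g1]
    have e2 : 0 ≤ √Λ * √(gam p.1 p'.1) * ε₂ := by positivity
    simp only at h4 ⊢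
    nlinarith
  · intro π _ z V _ _ _ c
    refine ⟨by rw [lm_emp_int]; rfl, ?_⟩
    rw [lm_T2 q π s z z₀ _ hF.1 hF.2.1]
    unfold RB
    refine integral_congr_ae (ae_of_all _ fun a => ?_)
    simp only
    congr 1
    funext h
    rw [(hrec (cons a fun j => view c (h j))).2.2]
    rfl

/-- law of large numbers for functions of the view: `view c h = nearV (sview c h) 0`, `stEnv` -/
theorem lm_lln (hP : StP4) (q : ℕ) (π : Measure II) [IsProbabilityMeasure π] {φ : Env q → ℝ}
    (hφ : Continuous φ) {ε : ℝ} (hε : 0 < ε) :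
    ∀ᶠ n : ℕ in atTop, cfgLaw (Fin n) q π
      {c | ∫ β, φ β ∂envLaw q π + ε < avg fun h : HE (Fin n) q => φ (view c h)} ≤
        ENNReal.ofReal ε := by
  have hc : Continuous fun e : SEnv q => φ (nearV e 0) := by
    refine hφ.comp ?_
    exact b0_cont_cons.comp (f := fun e : SEnv q => (e.1, fun j : Fin q => e.2 (0 + j.succ)))
      (continuous_fst.prodMk (continuous_pi fun j => (continuous_apply _).comp continuous_snd))
  have h1 := hP q π ⟨_, hc⟩ ε hε
  have h2 : ∫ e, φ (nearV e 0) ∂starLaw q π = ∫ β, φ β ∂envLaw q π := by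
    have h3 : MeasurePreserving (fun e : SEnv q => nearV e 0) (starLaw q π) (envLaw q π) :=
      (measurePreserving_fst (μ := envLaw q π) (ν := envLaw q π)).comp ((stEnv q π).2.2.1 0)
    rw [← h3.map_eq, integral_map h3.measurable.aemeasurable hφ.aestronglyMeasurable]
  have h4 : ∀ (n : ℕ) (c : Cfg (Fin n) q) (h : HE (Fin n) q), nearV (sview c h) 0 = view c h := by
    intro n c h
    funext l
    cases l with
    | nil => rfl
    | cons j l => simp [nearV, cons, sview, view, walk]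
  filter_upwards [h1.eventually (ge_mem_nhds (ENNReal.ofReal_pos.2 hε))] with n hn
  refine le_trans (measure_mono fun c hc => ?_) hn
  simp only [Set.mem_ofPred_eq, ContinuousMap.coe_mk, h2, h4] at hc ⊢
  exact lt_of_lt_of_le (by linarith) (le_abs_self _)

end Crest.Agent.R166
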