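import Crest.Agent.R166.LM.Basic

/-!
# Row 166, block LM: the level system
-/

set_option autoImplicit false

open MeasureTheory ProbabilityTheory Filter Topology Complex
open scoped ENNReal NNReal BigOperators Matrix

noncomputable section

namespace Crest.Agent.R166

/-- `Cs = 8 max C 0` with `C` from `StStab`; for `l ≤ lm`: `(1+ε₁)^l ≤ exp (lm ε₁) ≤ 2`,
`1/100 + l ε₁ ≤ 1/50`. `mono`: `lm_bad_mono` (`p₁ ≥ 0`). -/
theorem lm_lev (hK : StKit) (hZ : StZC) (hS : StStab) (q : ℕ) : ∃ Cs : ℝ, 0 ≤ Cs ∧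
    ∀ (s : ℝ) (z : ℂ) (T₁ θ₀ ε₁ p₁ : ℝ) (n₁ lm : ℕ), 0 < z.im → z.im ≤ T₁ → 1 ≤ T₁ → 0 < ε₁ →
      ε₁ ≤ 1 / 100 → lm * ε₁ ≤ 1 / 100 → 1 ≤ n₁ → Cs * T₁ ^ 3 / (n₁ * z.im * ε₁ ^ 2) ≤ p₁ →
      lm * p₁ ≤ θ₀ → Lev q s z n₁ lm (2 * T₁) (2 * θ₀) (OmL q s z T₁ θ₀ ε₁ p₁) := by
  obtain ⟨C, hC⟩ := hS q
  refine ⟨8 * max C 0, by positivity, ?_⟩
  intro s z T₁ θ₀ ε₁ p₁ n₁ lm hz hzT hT hε hε1 hlm hn₁ hp hθ
  have hn₁' : (0 : ℝ) < n₁ := by exact_mod_cast hn₁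
  have hp0 : 0 ≤ p₁ := le_trans (by positivity) hp
  have hone : ∀ l : ℕ, (1 : ℝ) ≤ (1 + ε₁) ^ l := fun l => one_le_pow₀ (by linarith)
  have hle : ∀ l : ℕ, l ≤ lm → (l : ℝ) * ε₁ ≤ 1 / 100 := fun l hl =>
    le_trans (by gcongr) hlm
  have htwo : ∀ l : ℕ, l ≤ lm → (1 + ε₁) ^ l ≤ 2 := by
    intro l hl
    have h1 : (1 + ε₁) ^ l ≤ Real.exp ε₁ ^ l := by
      gcongr; linarith [Real.add_one_le_exp ε₁]
    rw [← Real.exp_nat_mul] at h1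
    have h2 : Real.exp (l * ε₁) ≤ Real.exp (1 / 100) := Real.exp_le_exp.2 (hle l hl)
    have h3 := Real.exp_bound_div_one_sub_of_interval (x := 1 / 100) (by norm_num) (by norm_num)
    norm_num at h2 h3 ⊢
    have h4 : Real.exp (l * ε₁) ≤ Real.exp (1 / 100) := Real.exp_le_exp.2 (hle l hl)
    norm_num at h4
    have h5 : Real.exp (l * ε₁) ≤ Real.exp (1 / 100) := Real.exp_le_exp.2 (hle l hl)
    linarith
  have hcost : ∀ (l : ℕ) (V : Type) [Fintype V], l ≤ lm → n₁ ≤ Fintype.card V →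
      C * ((1 + ε₁) ^ l * T₁) ^ 3 / (Fintype.card V * z.im * ε₁ ^ 2) ≤ p₁ := by
    intro l V _ hl hV
    refine le_trans ?_ hp
    have h1 : (1 + ε₁) ^ l * T₁ ≤ 2 * T₁ := by gcongr; exact htwo l hl
    have h2 : (n₁ : ℝ) ≤ Fintype.card V := by exact_mod_cast hV
    have h3 : 0 ≤ (1 + ε₁) ^ l * T₁ := by have := hone l; positivity
    calc C * ((1 + ε₁) ^ l * T₁) ^ 3 / (Fintype.card V * z.im * ε₁ ^ 2)
        ≤ max C 0 * ((1 + ε₁) ^ l * T₁) ^ 3 / (Fintype.card V * z.im * ε₁ ^ 2) := by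
          gcongr; exact le_max_left _ _
      _ ≤ max C 0 * (2 * T₁) ^ 3 / (n₁ * z.im * ε₁ ^ 2) := by gcongr
      _ = _ := by ring
  have hst : ∀ (l : ℕ) (V : Type) [Fintype V] [DecidableEq V] (c : Cfg V q), l < lm →
      n₁ ≤ Fintype.card V → _ := fun l V _ _ c hl hV =>
    hC s z V c ((1 + ε₁) ^ l * T₁) (1 / 100 + l * ε₁) ε₁ hz
      (hzT.trans (le_mul_of_one_le_left (by linarith) (hone l)))
      (hT.trans (le_mul_of_one_le_left (by linarith) (hone l))) (by positivity)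
      (by linarith [hle l hl.le]) hε (by linarith) (hn₁.trans hV)
  have e1 : ∀ l : ℕ, (1 + ε₁) ^ (l + 1) * T₁ = (1 + ε₁) * ((1 + ε₁) ^ l * T₁) := fun l => by ring
  have e2 : ∀ l : ℕ, 1 / 100 + ((l + 1 : ℕ) : ℝ) * ε₁ = 1 / 100 + l * ε₁ + ε₁ := fun l => by
    push_cast; ring
  have e3 : ∀ l : ℕ, θ₀ + ((l + 1 : ℕ) : ℝ) * p₁ = θ₀ + l * p₁ + p₁ := fun l => by
    push_cast; ring
  refine ⟨fun l V _ _ => ?_, fun l V _ _ c h => ?_, fun l V V' _ _ _ _ e c => ?_,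
    fun l V _ _ c α w hl hV hD h => ?_, fun l V _ _ c α w hl hV hD h => ?_,
    fun l V _ _ c a b hl hV h => ?_, fun l V _ _ c hl h => ?_⟩
  · exact measurableSet_le (hK.meas_bad q s z _ _ V) measurable_const
  · unfold OmL at h ⊢
    rw [e1, e2, e3]
    refine le_trans (lm_bad_mono hZ hz ?_ (by positivity) (by linarith) c) (h.trans (by linarith))
    exact le_mul_of_one_le_left (by have := hone l; positivity) (by linarith)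
  · unfold OmL
    rw [hK.inv_bad]
  · unfold OmL at h ⊢
    rw [e1, e2, e3]
    have h1 := ((hst l V c hl hV).1 α w hD).2.2
    linarith [hcost l V hl.le hV]
  · unfold OmL at h ⊢
    rw [e1, e2, e3]
    have h1 := ((hst l V c hl hV).1 α w hD).2.1
    linarith [hcost l V hl.le hV]
  · unfold OmL at h ⊢
    rw [e1, e2, e3]
    have h1 := (hst l V c hl hV).2 a b
    linarith [hcost l V hl.le hV]
  · unfold OmL at h
    have h1 : (l : ℝ) * p₁ ≤ lm * p₁ := by gcongr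
    refine le_trans (lm_bad_mono hZ hz ?_ (by positivity) (by linarith [hle l hl]) c)
      (h.trans (by linarith))
    gcongr; exact htwo l hl

theorem lm_OmL_zero {q : ℕ} (s : ℝ) (z : ℂ) (T₁ θ₀ ε₁ p₁ : ℝ) (V : Type) [Fintype V]
    [DecidableEq V] (c : Cfg V q) : OmL q s z T₁ θ₀ ε₁ p₁ 0 V c ↔ Om0 s z T₁ θ₀ c := by
  simp [OmL, Om0]

/-- Choice of the parameters. `n₁ = n / 2`, `J` minimal with `t^4 ≤ CT^J` (so `CT^J ≤ CT t^4`,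
`J ≤ t^4 + 1`), `N = ⌈t^5⌉`, `lm = 2N + 2J + 4`, `ε₁ = t^{-20}`, `p₁ = Cs T₁³ / (n₁ η ε₁²)`;
`n₁ η ≥ t^200` (for `n ≥ 2`, `n₁ ≥ n/4`), `t^200 ≤ n M`. -/
theorem lm_params {CT Cs T₁ θ₀ M : ℝ} (hCT : 2 ≤ CT) (hCs : 0 ≤ Cs) (hT : 1 ≤ T₁) (hθ : 0 < θ₀) :
    ∃ (t₀ : ℝ) (n₀ : ℕ), 2 ≤ t₀ ∧ ∀ (η t : ℝ) (n : ℕ), 0 < η → η ≤ M → n₀ ≤ n → t₀ ≤ t →
      4 * t ^ 200 ≤ n * η → ∃ (n₁ J N lm : ℕ) (p₁ : ℝ), 1 ≤ n₁ ∧ n ≤ 4 * n₁ ∧ n₁ + 4 * J + 2 ≤ n ∧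
        t ^ 200 ≤ n₁ * η ∧ t ^ 4 ≤ CT ^ J ∧ CT ^ J ≤ CT * t ^ 4 ∧ 1 ≤ N ∧ t ≤ N ∧
        2 * N + 2 * J + 4 ≤ lm ∧ lm * (t ^ 20)⁻¹ ≤ 1 / 100 ∧
        Cs * T₁ ^ 3 / (n₁ * η * ((t ^ 20)⁻¹) ^ 2) ≤ p₁ ∧ lm * p₁ ≤ θ₀ := by
  refine ⟨max 2 (max (5 * M) (4 * Cs * T₁ ^ 3 / θ₀)), 2, le_max_left _ _, ?_⟩
  intro η t n hη hM hn ht hs
  have ht2 : 2 ≤ t := (le_max_left _ _).trans ht
  have htM : 5 * M ≤ t := (le_max_left _ _).trans ((le_max_right _ _).trans ht)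
  have htθ : 4 * Cs * T₁ ^ 3 / θ₀ ≤ t := (le_max_right _ _).trans ((le_max_right _ _).trans ht)
  have ht1 : 1 ≤ t := by linarith
  have ht0 : 0 < t := by linarith
  have h4 : (16 : ℝ) ≤ t ^ 4 := by
    calc (16 : ℝ) = 2 ^ 4 := by norm_num
      _ ≤ t ^ 4 := by gcongr
  have hex : ∃ J : ℕ, t ^ 4 ≤ CT ^ J :=
    (pow_unbounded_of_one_lt (t ^ 4) (by linarith : 1 < CT)).imp fun _ h => h.le
  classical
  obtain ⟨J, hJ1, hJ2, hJ3⟩ : ∃ J : ℕ, t ^ 4 ≤ CT ^ J ∧ CT ^ J ≤ CT * t ^ 4 ∧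
      (J : ℝ) ≤ t ^ 4 + 1 := by
    have h0 : Nat.find hex ≠ 0 := by
      intro h
      have := Nat.find_spec hex
      rw [h, pow_zero] at this
      linarith
    obtain ⟨k, hk⟩ := Nat.exists_eq_succ_of_ne_zero h0
    have h1 : ¬ t ^ 4 ≤ CT ^ k := Nat.find_min hex (by omega)
    push Not at h1
    refine ⟨k + 1, by have := Nat.find_spec hex; rwa [hk] at this, ?_, ?_⟩
    · rw [pow_succ, mul_comm]; gcongr
    · have h2 : (k : ℝ) < 2 ^ k := by exact_mod_cast Nat.lt_two_pow_self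
      have h3 : (2 : ℝ) ^ k ≤ CT ^ k := by gcongr
      push_cast; linarith
  have hn4 : n ≤ 4 * (n / 2) := by omega
  have hn4' : (n : ℝ) ≤ 4 * ((n / 2 : ℕ) : ℝ) := by exact_mod_cast hn4
  have hsc : t ^ 200 ≤ ((n / 2 : ℕ) : ℝ) * η := by nlinarith
  have hN : ((⌈t⌉₊ : ℕ) : ℝ) ≤ t + 1 := (Nat.ceil_lt_add_one ht0.le).le
  have hlm : ((2 * ⌈t⌉₊ + 2 * J + 4 : ℕ) : ℝ) ≤ 4 * t ^ 4 := by
    push_cast
    have : 8 * t ≤ t ^ 4 := by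
      have h8 : (8 : ℝ) ≤ t ^ 3 := by
        calc (8 : ℝ) = 2 ^ 3 := by norm_num
          _ ≤ t ^ 3 := by gcongr
      calc 8 * t ≤ t ^ 3 * t := by gcongr
        _ = t ^ 4 := by ring
    linarith
  refine ⟨n / 2, J, ⌈t⌉₊, 2 * ⌈t⌉₊ + 2 * J + 4, Cs * T₁ ^ 3 / t ^ 160, by omega, hn4, ?_, hsc, hJ1,
    hJ2, Nat.one_le_iff_ne_zero.2 (Nat.ceil_pos.2 ht0).ne', Nat.le_ceil t, le_rfl, ?_, ?_, ?_⟩
  · have hM0 : 0 < M := hη.trans_le hM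
    have h1 : t * t ^ 4 ≤ t ^ 200 := by
      rw [← pow_succ']; exact pow_le_pow_right₀ ht1 (by norm_num)
    have h2 : (n : ℝ) * η ≤ n * M := by gcongr
    have h3 : 20 * t ^ 4 * M ≤ n * M := by nlinarith
    have h5 : 20 * t ^ 4 ≤ n := le_of_mul_le_mul_right h3 hM0
    have h6 : ((8 * J + 4 : ℕ) : ℝ) ≤ n := by push_cast; linarith
    have h7 : 8 * J + 4 ≤ n := by exact_mod_cast h6
    omega
  · have h1 : (400 : ℝ) ≤ t ^ 16 := by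
      calc (400 : ℝ) ≤ 2 ^ 16 := by norm_num
        _ ≤ t ^ 16 := by gcongr
    calc _ ≤ 4 * t ^ 4 * (t ^ 20)⁻¹ := by gcongr
      _ = 4 / t ^ 16 := by field_simp
      _ ≤ 4 / 400 := by gcongr
      _ = 1 / 100 := by norm_num
  · calc Cs * T₁ ^ 3 / (((n / 2 : ℕ) : ℝ) * η * ((t ^ 20)⁻¹) ^ 2)
        ≤ Cs * T₁ ^ 3 / (t ^ 200 * ((t ^ 20)⁻¹) ^ 2) := by gcongr
      _ = _ := by field_simp
  · have h1 : t ≤ t ^ 156 := le_self_pow₀ ht1 (by norm_num)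
    rw [div_le_iff₀ hθ] at htθ
    calc _ ≤ 4 * t ^ 4 * (Cs * T₁ ^ 3 / t ^ 160) := by gcongr
      _ = 4 * Cs * T₁ ^ 3 / t ^ 156 := by field_simp
      _ ≤ θ₀ := by
        rw [div_le_iff₀ (by positivity)]
        nlinarith

end Crest.Agent.R166
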