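import Crest.Agent.R166.LM.Lev

/-!
# Row 166, block LM: one-scale estimates
-/

set_option autoImplicit false

open MeasureTheory ProbabilityTheory Filter Topology Complex
open scoped ENNReal NNReal BigOperators Matrix

noncomputable section

namespace Crest.Agent.R166

theorem lmp_div {a t : ℝ} (ha : 0 ≤ a) (ht : 1 ≤ t) {m k : ℕ} (h : m ≤ k) : a / t ^ k ≤ a / t ^ m :=
  div_le_div_of_nonneg_left ha (by positivity) (pow_le_pow_right₀ ht h)

theorem lmp_div1 {a t : ℝ} (ha : 0 ≤ a) (ht : 1 ≤ t) {k : ℕ} (h : 1 ≤ k) : a / t ^ k ≤ a / t := by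
  simpa using lmp_div ha ht h

theorem lmp_cube {T K t y : ℝ} (hT : 0 ≤ T) (hK : T ≤ K * t ^ 4) (ht : 1 ≤ t) (hy : t ^ 200 ≤ y) :
    T ^ 3 / y ≤ K ^ 3 / t ^ 188 := by
  have h0 : 0 < t := by linarith
  calc T ^ 3 / y ≤ (K * t ^ 4) ^ 3 / t ^ 200 :=
        div_le_div₀ (pow_nonneg (hT.trans hK) 3) (pow_le_pow_left₀ hT hK 3) (by positivity) hy
    _ = _ := by field_simp

theorem lmp_cube' {T K t y : ℝ} (hT : 0 ≤ T) (hK : T ≤ K * t ^ 4) (ht : 1 ≤ t) (hy : t ^ 200 ≤ y) :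
    T ^ 3 / (y * (t ^ 20)⁻¹ ^ 2) ≤ K ^ 3 / t ^ 148 := by
  have h0 : 0 < t := by linarith
  rw [← div_div]
  calc _ ≤ K ^ 3 / t ^ 188 / (t ^ 20)⁻¹ ^ 2 :=
        div_le_div_of_nonneg_right (lmp_cube hT hK ht hy) (by positivity)
    _ = _ := by field_simp

theorem lmp_int {X : Type} [MeasurableSpace X] (μ : Measure X) [IsFiniteMeasure μ] {p : X → Prop}
    (hp : MeasurableSet {x | p x}) {f : X → ℝ} (hf : Measurable f) {B : ℝ} (h0 : ∀ x, 0 ≤ f x)
    (hB : ∀ x, f x ≤ B) : Integrable (fun x => ind (p x) * f x) μ := by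
  refine Integrable.of_bound ((lm_meas_ind hp).mul hf).aestronglyMeasurable B
    (Eventually.of_forall fun x => ?_)
  rw [Real.norm_eq_abs, abs_of_nonneg (mul_nonneg (lm_ind_nonneg _) (h0 x))]
  exact (mul_le_of_le_one_left (h0 x) (lm_ind_le_one _)).trans (hB x)

theorem lmp_shell {a : ℕ → ℝ} (ha : ∀ j, 0 ≤ a j) {x : ℝ} (J : ℕ) (h : x ≤ a J) :
    x ≤ a 0 + ∑ j ∈ Finset.range J, a (j + 1) * if a j < x then 1 else 0 := by
  induction J with
  | zero => simpa using h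
  | succ J ih =>
    rw [Finset.sum_range_succ]
    by_cases hJ : a J < x
    · have : 0 ≤ ∑ j ∈ Finset.range J, a (j + 1) * if a j < x then (1 : ℝ) else 0 :=
        Finset.sum_nonneg fun j _ => mul_nonneg (ha _) (by split_ifs <;> norm_num)
      rw [if_pos hJ]; linarith [ha 0]
    · rw [if_neg hJ]; linarith [ih (not_lt.1 hJ)]

theorem lmp_avg_min {ι : Type} [Fintype ι] {a : ℕ → ℝ} (ha : ∀ j, 0 ≤ a j) (g : ι → ℝ) {τ : ℝ}
    (hτ : 0 ≤ τ) (J : ℕ) :
    avg (fun v => min (g v) τ) ≤ a 0 + ((∑ j ∈ Finset.range J, a (j + 1) * frac fun v => a j < g v) +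
      τ * frac fun v => a J < g v) := by
  classical
  have h1 : ∀ v, min (g v) τ ≤ a 0 + ((∑ j ∈ Finset.range J, a (j + 1) * if a j < g v then 1 else 0) +
      τ * if a J < g v then 1 else 0) := fun v => by
    by_cases h : a J < g v
    · have : 0 ≤ ∑ j ∈ Finset.range J, a (j + 1) * if a j < g v then (1 : ℝ) else 0 :=
        Finset.sum_nonneg fun j _ => mul_nonneg (ha _) (by split_ifs <;> norm_num)
      rw [if_pos h]; linarith [ha 0, min_le_right (g v) τ]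
    · rw [if_neg h]; linarith [lmp_shell ha J (not_lt.1 h), min_le_left (g v) τ]
  refine (p_avg_mono h1).trans ?_
  rw [p_avg_add, p_avg_add, p_avg_sum, p_avg_mul]
  simp only [p_avg_mul]
  refine add_le_add (p_avg_le (ha 0) fun _ => le_rfl) (le_of_eq ?_)
  unfold frac
  congr!

theorem lmp_mid {X ι : Type} [MeasurableSpace X] [Fintype ι] (μ : Measure X)
    [IsZeroOrProbabilityMeasure μ] {p : X → Prop} (hp : MeasurableSet {x | p x}) {g : X → ι → ℝ}
    (hg : ∀ v, Measurable fun x => g x v) (hg0 : ∀ x v, 0 ≤ g x v) {a : ℕ → ℝ} (ha : ∀ j, 0 ≤ a j)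
    {τ : ℝ} (hτ : 0 ≤ τ) (J : ℕ) :
    ∫ x, ind (p x) * avg (fun v => min (g x v) τ) ∂μ ≤
      a 0 + ((∑ j ∈ Finset.range J, a (j + 1) * ∫ x, ind (p x) * frac (fun v => a j < g x v) ∂μ) +
        τ * ∫ x, ind (p x) * frac (fun v => a J < g x v) ∂μ) := by
  have hi : ∀ j, Integrable (fun x => ind (p x) * frac fun v => a j < g x v) μ := fun j =>
    lmp_int μ hp (lm_meas_frac fun v => measurableSet_lt measurable_const (hg v))
      (fun _ => p_frac_nonneg _) fun _ => p_frac_le_one _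
  have h1 := integrable_finsetSum (Finset.range J) fun j _ => (hi j).const_mul (a (j + 1))
  have h2 := (hi J).const_mul τ
  simp only [← integral_const_mul]
  rw [← integral_finsetSum _ fun j _ => (hi j).const_mul (a (j + 1)), ← integral_add h1 h2]
  have h3 : ∫ _ : X, a 0 ∂μ ≤ a 0 := by
    rw [integral_const, smul_eq_mul]
    exact mul_le_of_le_one_left (ha 0) measureReal_le_one
  refine le_trans ?_ (add_le_add h3 le_rfl)
  refine le_trans ?_ (le_of_eq (integral_add (integrable_const _) (h1.add h2)))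
  refine integral_mono (lmp_int μ hp (lm_meas_avg fun v => (hg v).min measurable_const)
    (fun x => p_avg_nonneg fun v => le_min (hg0 x v) hτ)
    fun x => p_avg_le hτ fun v => min_le_right _ _) ((integrable_const _).add (h1.add h2)) fun x => ?_
  by_cases h : p x
  · simpa only [lm_ind_pos h, one_mul] using lmp_avg_min ha (g x) hτ J
  · simpa [lm_ind_neg h] using ha 0

/-- Take `Cp, CT` from `StTB` (with `M`), `θ₀ = CT^{-50} / (2 Cp)` (so `Cp (2θ₀) = CT^{-50} ≤ 1/2` and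
`(Cp 2θ₀)^J ≤ t^{-200}`), `K = max (2 CT T₁) M`, `K₂ = CT K`, parameters from `lm_params`, level system
from `lm_lev`.  With `T* = CT^J 2T₁ ≤ K t^4`: `betaW (Ω l) T* W ≤ t^{-200} + Cp K³ t^{12-200}` for
`l ≤ 2N+2`, `card W ∈ {n, n-2}`.
* `tail`: `l = 0`, `lm_bad_mono`.  * `dec`: second part of `StTB` with `ε = t^{-20}`, `lm_dec_mono`.
* `rde`: `StRDE` with `V := Fin (n-2)`, `T = T*`, `ε = t^{-20}`, `1/N ≤ 1/t`, `1/n₁ ≤ 4/n`.
* `two`: last part of `StTB` with `T = K t^4`, `x = t^{-120}`.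
* `mid`: shells. With `a_j = CT^{j+1} 2T₁`: `min x τ ≤ a_0 + ∑_{j<J} a_{j+1} 1{a_j < x} + τ 1{a_J < x}`,
  third part of `StTB` at `T = CT^j 2T₁` and first part with `J := j`; `CT (Cp 2θ₀) ≤ 1/2`. -/
theorem lm_pack (hK : StKit) (hZ : StZC) (hS : StStab) (hTB : StTB) (hR : StRDE) (q : ℕ)
    (hq : 2 ≤ q) {M T₁ : ℝ} (hT : 1 ≤ T₁) (hM : M ≤ T₁) :
    ∃ (θ₀ C K K₂ t₀ : ℝ) (n₀ : ℕ), 0 < θ₀ ∧ 0 ≤ C ∧ 1 ≤ K ∧ M ≤ K ∧ 1 ≤ K₂ ∧ 2 ≤ t₀ ∧
      Pack q M T₁ θ₀ C K K₂ t₀ n₀ := by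
  obtain ⟨Cp, hCp, hTB⟩ := hTB q hq
  obtain ⟨CT, hCT, hTB⟩ := hTB M
  obtain ⟨Cs, hCs, hL⟩ := lm_lev hK hZ hS q
  obtain ⟨CD, hR⟩ := hR q hq
  have hCT0 : 0 < CT := by linarith
  have hCp0 : 0 < Cp := by linarith
  have hθ : 0 < (CT ^ 50)⁻¹ / (2 * Cp) := by positivity
  obtain ⟨t₀, n₀, ht₀, hP⟩ := lm_params (M := M) hCT hCs hT hθ
  have eθ : Cp * (2 * ((CT ^ 50)⁻¹ / (2 * Cp))) = (CT ^ 50)⁻¹ := by field_simp
  generalize (CT ^ 50)⁻¹ / (2 * Cp) = θ₀ at hθ hP eθ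
  obtain ⟨K, hKd⟩ : ∃ K, K = CT * (2 * T₁) := ⟨_, rfl⟩
  have hK1 : T₁ ≤ K := by rw [hKd]; nlinarith
  have hK0 : 0 < K := by linarith
  have hθ2 : Cp * (2 * θ₀) ≤ 1 / 2 := by
    rw [eθ, one_div]
    exact inv_anti₀ two_pos (hCT.trans (le_self_pow₀ (by linarith) (by norm_num)))
  -- the common part
  have core : ∀ (π : Measure II) [IsProbabilityMeasure π] (s : ℝ) (z : ℂ) (n : ℕ) (t : ℝ),
      Adm M t₀ n₀ s z n t → ∃ (n₁ J N lm : ℕ) (Ω : ℕ → FamP q),
        Lev q s z n₁ lm (2 * T₁) (2 * θ₀) Ω ∧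
        (∀ (V : Type) [Fintype V] [DecidableEq V] (c : Cfg V q), Ω 0 V c = Om0 s z T₁ θ₀ c) ∧
        1 ≤ n₁ ∧ n ≤ 4 * n₁ ∧ n₁ + 2 ≤ n ∧ t ^ 200 ≤ n₁ * z.im ∧ t ^ 4 ≤ CT ^ J ∧
        CT ^ J ≤ CT * t ^ 4 ∧ 1 ≤ N ∧ t ≤ N ∧ 2 * N + 2 * J + 4 ≤ lm ∧
        (∀ (l : ℕ) (W : Type) [Fintype W] [DecidableEq W], l + 2 * J ≤ lm →
          n ≤ Fintype.card W + 2 →
          betaW π s z (Ω l) (CT ^ J * (2 * T₁)) W ≤ (1 + Cp * K ^ 3) / t ^ 188) ∧
        (∀ (l : ℕ) (W : Type) [Fintype W] [DecidableEq W], l + 1 + 2 * J ≤ lm →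
          n ≤ Fintype.card W + 2 →
          ∫ c, ind (Ω l W c) * frac (fun h => ¬ dec s z (t ^ 20)⁻¹ c h) ∂cfgLaw W q π ≤
            Cp * (1 + Cp * K ^ 3 + K ^ 3) / t ^ 148) ∧
        ∀ (j : ℕ) (W : Type) [Fintype W] [DecidableEq W], j ≤ J → Fintype.card W = n →
          ∫ c, ind (Ω 0 W c) * frac (fun v => CT * (CT ^ j * (2 * T₁)) < (Gr (Hm s c) z v v).im)
            ∂cfgLaw W q π ≤ Cp * (1 + (Cp + 1) * K ^ 3 * CT ^ 2) / (CT ^ j) ^ 2 := by
    intro π _ s z n t hA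
    have hzM : z.im ≤ M := ((le_abs_self _).trans (Complex.abs_im_le_norm z)).trans hA.norm
    have ht2 : 2 ≤ t := ht₀.trans hA.t0
    have ht1 : 1 ≤ t := by linarith
    have ht0 : 0 < t := by linarith
    obtain ⟨n₁, J, N, lm, p₁, h1, h2, h3, h4, h5, h6, h7, h8, h9, h10, h11, h12⟩ :=
      hP z.im t n hA.im hzM hA.n0 hA.t0 hA.scale
    have hε : (t ^ 20)⁻¹ ≤ 1 / 100 := by
      rw [one_div]
      exact inv_anti₀ (by norm_num) (le_trans (by norm_num) (pow_le_pow_left₀ zero_le_two ht2 20))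
    have hLev := hL s z T₁ θ₀ (t ^ 20)⁻¹ p₁ n₁ lm hA.im (hzM.trans hM) hT (by positivity) hε h10 h1
      h11 h12
    obtain ⟨b1, b2, b3⟩ := (hTB π s z hA.s0 hA.s1 hA.im hA.norm).1 n₁ lm _ _ _ hLev h1 (by linarith)
      (by linarith) (by positivity) hθ2
    have hj : ∀ j ≤ J, CT ^ j ≤ CT * t ^ 4 := fun j hj =>
      (pow_le_pow_right₀ (by linarith) hj).trans h6
    have hT' : ∀ j ≤ J, CT ^ j * (2 * T₁) ≤ K * t ^ 4 := fun j hjJ => by
      rw [hKd]
      calc _ ≤ CT * t ^ 4 * (2 * T₁) := mul_le_mul_of_nonneg_right (hj j hjJ) (by linarith)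
        _ = _ := by ring
    have hT2 : ∀ j : ℕ, 2 * T₁ ≤ CT ^ j * (2 * T₁) := fun j =>
      le_mul_of_one_le_left (by linarith) (one_le_pow₀ (by linarith))
    have c1 : ∀ (j l : ℕ) (W : Type) [Fintype W] [DecidableEq W], j ≤ J → l + 2 * J ≤ lm →
        n ≤ Fintype.card W + 2 → betaW π s z (OmL q s z T₁ θ₀ (t ^ 20)⁻¹ p₁ l) (CT ^ j * (2 * T₁)) W ≤
          ((CT ^ j) ^ 50)⁻¹ + Cp * (K ^ 3 / t ^ 188) := fun j l W _ _ hjJ hl hW => by
      refine (b1 j l W (by omega) (by omega)).trans (add_le_add (le_of_eq ?_) ?_)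
      · rw [eθ, inv_pow, ← pow_mul, ← pow_mul, mul_comm]
      · rw [mul_div_assoc]
        exact mul_le_mul_of_nonneg_left (lmp_cube (by positivity) (hT' j hjJ) ht1 h4) hCp0.le
    have c2 : ∀ (l : ℕ) (W : Type) [Fintype W] [DecidableEq W], l + 2 * J ≤ lm →
        n ≤ Fintype.card W + 2 → betaW π s z (OmL q s z T₁ θ₀ (t ^ 20)⁻¹ p₁ l) (CT ^ J * (2 * T₁)) W ≤
          (1 + Cp * K ^ 3) / t ^ 188 := fun l W _ _ hl hW => by
      refine (c1 J l W le_rfl hl hW).trans ?_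
      rw [add_div, mul_div_assoc, one_div]
      refine add_le_add (inv_anti₀ (by positivity) ?_) le_rfl
      calc t ^ 188 ≤ t ^ (4 * 50) := pow_le_pow_right₀ ht1 (by norm_num)
        _ ≤ _ := by rw [pow_mul]; exact pow_le_pow_left₀ (by positivity) h5 50
    refine ⟨n₁, J, N, lm, _, hLev, fun V _ _ c => propext (lm_OmL_zero s z T₁ θ₀ _ p₁ V c), h1, h2,
      by omega, h4, h5, h6, h7, h8, h9, c2, fun l W _ _ hl hW => ?_, fun j W _ _ hjJ hW => ?_⟩
    · refine (b2 l (CT ^ J * (2 * T₁)) _ W (by omega) (by omega) (hT2 J) (by positivity)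
        (by linarith)).trans ?_
      rw [mul_div_assoc, add_div _ (K ^ 3)]
      exact mul_le_mul_of_nonneg_left (add_le_add ((c2 _ W hl hW).trans
        (lmp_div (by positivity) ht1 (by norm_num))) (lmp_cube' (by positivity) (hT' J le_rfl) ht1 h4))
        hCp0.le
    · refine (b3 0 (CT ^ j * (2 * T₁)) (Fin (n - 2)) W (by omega) (by rw [Fintype.card_fin]; omega)
        (by rw [Fintype.card_fin]; omega) (hT2 j)).trans ?_
      rw [mul_div_assoc]
      refine mul_le_mul_of_nonneg_left ?_ hCp0.le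
      have d1 := c1 j (0 + 1) (Fin (n - 2)) hjJ (by omega) (by rw [Fintype.card_fin]; omega)
      have d2 := lmp_cube (by positivity) (hT' j hjJ) ht1 h4
      have hy : 1 ≤ CT ^ j := one_le_pow₀ (by linarith)
      have d3 : ((CT ^ j) ^ 50)⁻¹ ≤ 1 / (CT ^ j) ^ 2 := by
        rw [one_div]; exact inv_anti₀ (by positivity) (pow_le_pow_right₀ hy (by norm_num))
      have d4 : K ^ 3 / t ^ 188 ≤ K ^ 3 * CT ^ 2 / (CT ^ j) ^ 2 := by
        refine (lmp_div (by positivity) ht1 (by norm_num : 8 ≤ 188)).trans ?_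
        rw [div_le_div_iff₀ (by positivity) (by positivity), mul_assoc]
        refine mul_le_mul_of_nonneg_left ?_ (by positivity)
        calc _ ≤ (CT * t ^ 4) ^ 2 := pow_le_pow_left₀ (by positivity) (hj j hjJ) 2
          _ = _ := by ring
      have d5 := mul_le_mul_of_nonneg_left d4 hCp0.le
      calc _ ≤ 1 / (CT ^ j) ^ 2 + Cp * (K ^ 3 * CT ^ 2 / (CT ^ j) ^ 2) +
            K ^ 3 * CT ^ 2 / (CT ^ j) ^ 2 := by linarith
        _ = _ := by ring
  obtain ⟨B, hB⟩ : ∃ B, B = 1 + Cp * K ^ 3 := ⟨_, rfl⟩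
  obtain ⟨D, hD⟩ : ∃ D, D = Cp * (1 + Cp * K ^ 3 + K ^ 3) := ⟨_, rfl⟩
  obtain ⟨F, hF⟩ : ∃ F, F = Cp * (1 + (Cp + 1) * K ^ 3 * CT ^ 2) := ⟨_, rfl⟩
  have hB0 : 0 ≤ B := by rw [hB]; positivity
  have hD0 : 0 ≤ D := by rw [hD]; positivity
  have hF0 : 0 ≤ F := by rw [hF]; positivity
  rw [← hD, ← hB, ← hF] at core
  obtain ⟨C1, hC1⟩ : ∃ C1, C1 = |CD| * (1 + B + D + K ^ 3) := ⟨_, rfl⟩
  obtain ⟨C2, hC2⟩ : ∃ C2, C2 = Cp * (1 + K ^ 3) ^ 2 := ⟨_, rfl⟩
  obtain ⟨C3, hC3⟩ : ∃ C3, C3 = K + (CT * K * F * 2 + CT * K * F) := ⟨_, rfl⟩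
  have h10 : 0 ≤ C1 := by rw [hC1]; positivity
  have h20 : 0 ≤ C2 := by rw [hC2]; positivity
  have h30 : 0 ≤ C3 := by rw [hC3]; positivity
  refine ⟨θ₀, B + D + C1 + C2 + C3, K, CT * K, t₀, n₀, hθ, by positivity, by linarith, by linarith,
    by nlinarith, ht₀, fun R => ?_, fun π _ s z V _ _ t e hA he => ?_, fun π _ s z V _ _ t hA => ?_,
    fun π _ s z V _ _ t hA => ?_, fun π _ s z V _ _ t hA => ?_⟩
  · obtain ⟨CR, hR⟩ := hR R
    refine ⟨4 * |CR|, fun π _ s z V _ _ t Λ ε₂ G hA hΛ hε₂ hG => ?_⟩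
    obtain ⟨n₁, J, N, lm, Ω, hLev, h0, h1, h2, h3, h4, h5, h6, h7, h8, h9, c2, c3, -⟩ :=
      core π s z _ t hA
    have hzM : z.im ≤ M := ((le_abs_self _).trans (Complex.abs_im_le_norm z)).trans hA.norm
    have ht2 : 2 ≤ t := ht₀.trans hA.t0
    have ht1 : 1 ≤ t := by linarith
    have ht0 : 0 < t := by linarith
    have hε : (t ^ 20)⁻¹ ≤ 1 / 50 := by
      rw [one_div]
      exact inv_anti₀ (by norm_num) (le_trans (by norm_num) (pow_le_pow_left₀ zero_le_two ht2 20))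
    have hT2 : 2 * T₁ ≤ CT ^ J * (2 * T₁) :=
      le_mul_of_one_le_left (by linarith) (one_le_pow₀ (by linarith))
    have hT' : CT ^ J * (2 * T₁) ≤ K * t ^ 4 := by
      rw [hKd]
      calc _ ≤ CT * t ^ 4 * (2 * T₁) := mul_le_mul_of_nonneg_right h6 (by linarith)
        _ = _ := by ring
    have hc : Fintype.card V ≤ Fintype.card (Fin (Fintype.card V - 2)) + 2 := by
      rw [Fintype.card_fin]; omega
    have key := hR π s z n₁ lm N _ _ (CT ^ J * (2 * T₁)) (t ^ 20)⁻¹ Λ ε₂ _ _ Ω G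
      (Fin (Fintype.card V - 2)) V hA.im hLev h1 h7 (by omega) (by rw [Fintype.card_fin]; omega)
      (by rw [Fintype.card_fin]; omega) (by linarith) (by linarith) (by positivity) hε hΛ hε₂ hG
      (c2 _ _ (by omega) hc) (c3 _ _ (by omega) hc)
    simp only [h0] at key
    refine key.trans (add_le_add ?_ ?_)
    · have e1 : Λ * (t ^ 20)⁻¹ ≤ Λ / t := by
        rw [← div_eq_mul_inv]; exact lmp_div1 hΛ ht1 (by norm_num)
      have e2 : (1 : ℝ) / N ≤ 1 / t := one_div_le_one_div_of_le ht0 h8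
      have e3 := lmp_div1 hB0 ht1 (k := 188) (by norm_num)
      have e4 := lmp_div1 hD0 ht1 (k := 148) (by norm_num)
      have e5 := (lmp_cube' (by positivity) hT' ht1 h4).trans
        (lmp_div1 (by positivity) ht1 (by norm_num))
      have hz := hA.im
      have e6 : 0 ≤ (B + D + K ^ 3) * (Λ / t + ε₂) := by positivity
      calc _ ≤ |CD| * _ := mul_le_mul_of_nonneg_right (le_abs_self _) (by positivity)
        _ ≤ |CD| * ((1 + B + D + K ^ 3) * ((1 + Λ) / t + ε₂)) := by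
          refine mul_le_mul_of_nonneg_left ?_ (abs_nonneg _)
          calc _ ≤ Λ / t + ε₂ + 1 / t + B / t + D / t + K ^ 3 / t + (B + D + K ^ 3) * (Λ / t + ε₂) := by
                linarith
            _ = _ := by ring
        _ = C1 * ((1 + Λ) / t + ε₂) := by rw [hC1]; ring
        _ ≤ _ := mul_le_mul_of_nonneg_right (by linarith) (by positivity)
    · have g1 : (0 : ℝ) < n₁ := by exact_mod_cast h1
      have g2 : (0 : ℝ) < Fintype.card V := by exact_mod_cast (by omega : 0 < Fintype.card V)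
      have g3 : (Fintype.card V : ℝ) ≤ 4 * n₁ := by exact_mod_cast h2
      rw [div_le_div_iff₀ g1 g2]
      nlinarith [mul_le_mul (le_abs_self CR) g3 g2.le (abs_nonneg CR)]
  · obtain ⟨n₁, J, N, lm, Ω, hLev, h0, h1, h2, h3, h4, h5, h6, h7, h8, h9, c2, c3, -⟩ :=
      core π s z _ t hA
    have ht1 : 1 ≤ t := by linarith [hA.t0]
    have := hK.law_le q π V
    have key := c3 0 V (by omega) (by omega)
    have hm := hLev.meas 0 V
    simp only [h0] at key hm
    refine le_trans ?_ (key.trans ((lmp_div1 hD0 ht1 (by norm_num)).trans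
      (div_le_div_of_nonneg_right (by linarith) (by linarith))))
    refine integral_mono (lmp_int _ hm (lm_meas_frac fun h => (hK.meas_dec q s z _ V h).compl)
      (fun _ => p_frac_nonneg _) fun _ => p_frac_le_one _)
      (lmp_int _ hm (lm_meas_frac fun h => (hK.meas_dec q s z _ V h).compl)
      (fun _ => p_frac_nonneg _) fun _ => p_frac_le_one _) fun c => ?_
    exact mul_le_mul_of_nonneg_left (p_frac_mono fun h hh hd =>
      hh (lm_dec_mono hZ hA.im (by positivity) he hd)) (lm_ind_nonneg _)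
  · obtain ⟨n₁, J, N, lm, Ω, hLev, h0, h1, h2, h3, h4, h5, h6, h7, h8, h9, c2, c3, -⟩ :=
      core π s z _ t hA
    have ht1 : 1 ≤ t := by linarith [hA.t0]
    have := hK.law_le q π V
    have key := c2 0 V (by omega) (by omega)
    have hm := hLev.meas 0 V
    have hT' : CT ^ J * (2 * T₁) ≤ K * t ^ 4 := by
      rw [hKd]
      calc _ ≤ CT * t ^ 4 * (2 * T₁) := mul_le_mul_of_nonneg_right h6 (by linarith)
        _ = _ := by ring
    simp only [betaW, h0] at key hm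
    refine le_trans ?_ (key.trans ((lmp_div hB0 ht1 (by norm_num)).trans
      (div_le_div_of_nonneg_right (by linarith) (by positivity))))
    refine integral_mono (lmp_int _ hm (hK.meas_bad q s z _ _ V)
      (fun _ => p_frac_nonneg _) fun _ => p_frac_le_one _) (lmp_int _ hm (hK.meas_bad q s z _ _ V)
      (fun _ => p_frac_nonneg _) fun _ => p_frac_le_one _) fun c => ?_
    exact mul_le_mul_of_nonneg_left (lm_bad_mono hZ hA.im hT' (by norm_num) le_rfl c) (lm_ind_nonneg _)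
  · have hzM : z.im ≤ M := ((le_abs_self _).trans (Complex.abs_im_le_norm z)).trans hA.norm
    have ht1 : 1 ≤ t := by linarith [hA.t0]
    have ht0 : 0 < t := by linarith
    have hKt : K ≤ K * t ^ 4 := le_mul_of_one_le_right hK0.le (one_le_pow₀ ht1)
    have key := (hTB π s z hA.s0 hA.s1 hA.im hA.norm).2 (K * t ^ 4) (t ^ 120)⁻¹ V (by linarith)
      (by linarith) (by positivity)
    rw [← mul_assoc] at key
    have h200 : 0 < t ^ 200 := by positivity
    have e1 := (lmp_cube (T := K * t ^ 4) (y := Fintype.card V * z.im) (by positivity) le_rfl ht1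
      (by linarith [hA.scale])).trans (lmp_div (by positivity) ht1 (by norm_num : 120 ≤ 188))
    have hz := hA.im
    calc _ ≤ _ := key
      _ ≤ Cp * ((t ^ 120)⁻¹ + K ^ 3 / t ^ 120) ^ 2 := by gcongr
      _ = C2 / t ^ 240 := by rw [hC2]; field_simp
      _ ≤ _ := div_le_div_of_nonneg_right (by linarith) (by positivity)
  · obtain ⟨n₁, J, N, lm, Ω, hLev, h0, h1, h2, h3, h4, h5, h6, h7, h8, h9, -, -, c4⟩ :=
      core π s z _ t hA
    have ht1 : 1 ≤ t := by linarith [hA.t0]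
    have ht0 : 0 < t := by linarith
    have := hK.law_le q π V
    have hm := hLev.meas 0 V
    simp only [h0] at c4 hm
    refine (lmp_mid _ hm (g := fun c v => (Gr (Hm s c) z v v).im)
      (fun v => Complex.measurable_im.comp (hK.meas_Gr q s z V v v))
      (fun c v => (hZ.posG q s z V c v hA.im).1.le) (a := fun j => CT * (CT ^ j * (2 * T₁)))
      (fun j => by positivity) (by positivity) J).trans (le_trans ?_ (show C3 ≤ _ by linarith))
    rw [hC3]
    refine add_le_add (le_of_eq (by rw [hKd]; ring)) (add_le_add ?_ ?_)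
    · refine le_trans (Finset.sum_le_sum (g := fun j => CT * K * F * (1 / 2) ^ j) fun j hj => ?_) ?_
      · refine (mul_le_mul_of_nonneg_left (c4 j V (Finset.mem_range.1 hj).le rfl) (by positivity)).trans ?_
        calc _ = CT * K * F * (1 / CT) ^ j := by rw [hKd, one_div, inv_pow]; field_simp; ring
          _ ≤ _ := by gcongr
      · rw [← Finset.mul_sum]
        exact mul_le_mul_of_nonneg_left (sum_geometric_two_le J) (by positivity)
    · refine (mul_le_mul_of_nonneg_left (c4 J V le_rfl rfl) (by positivity)).trans ?_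
      have e1 : t ^ 4 ≤ (CT ^ J) ^ 2 := h5.trans (le_self_pow₀ (one_le_pow₀ (by linarith)) (by norm_num))
      calc _ = CT * K * F * (t ^ 4 / (CT ^ J) ^ 2) := by ring
        _ ≤ _ := mul_le_of_le_one_right (by positivity) ((div_le_one (by positivity)).2 e1)

end Crest.Agent.R166
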